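import Vale.Agent.P180.R2.H854.FormCor
import Vale.Agent.P180.R2.H799.BNL6

/-!
P180: the corner property of the components which are classical groups of odd characteristic.
-/

set_option linter.all false

namespace Vale.Agent.P180.R2.H854

open Module Vale.Agent.P180 Vale.Agent.P180.R2.H799 Vale.Agent.P180.R2.H799.BN
open Vale.Agent.P180.R2.H365 Vale.Agent.P180.R2.H954

open scoped Nat

universe u

/-- `L` is a central quotient (modulo scalars) of a subgroup `X` of index one or two in the special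
isometry group of a nondegenerate alternating, symmetric or hermitian form `B` on `K ^ d`, `K` a
finite field of odd order with a `p`-th root of unity `ζ ≠ 1` fixed by the field automorphism `θ` of
the form (so `p` divides `q - 1`, `q` the order of the fixed field of `θ`), `p` is odd, and the
dimension is less than `p` or `D ∩ L` is abelian of exponent dividing `|K| - 1`. -/
def SplitIso (p : ℕ) {G : Type} [Group G] (D L : Subgroup G) : Prop :=
  ∃ (K : Type) (_ : Field K) (_ : Finite K) (d : ℕ) (Φ : HForm K (Fin d → K))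
    (X : Subgroup (SpecialLinearGroup K (Fin d → K))) (π : X →* L),
      Odd p ∧ Odd (Nat.card K) ∧ (∃ ζ : K, ζ ^ p = 1 ∧ ζ ≠ 1 ∧ Φ.θ ζ = ζ) ∧
      X ≤ Φ.Iso ∧ X.relIndex Φ.Iso ∣ 2 ∧ Function.Surjective π ∧
      π.ker.map X.subtype ≤ Subgroup.center _ ∧
      (d < p ∨ ((∀ x ∈ D, x ∈ L → ∀ y ∈ D, y ∈ L → x * y = y * x) ∧
        ∀ x ∈ D, x ∈ L → x ^ (Nat.card K - 1) = 1))

/-- **The corner property** of classical groups. -/
theorem corP_iso {k : Type u} [Field k] [IsAlgClosed k] {p n : ℕ} [Fact p.Prime] [CharP k p]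
    {G : Type} [Group G] [Finite G] {D L : Subgroup G} (hD : IsPGroup p D)
    (hDn : Nat.card D ≤ n) (h : SplitIso p D L)
    (hin : D ⊓ Subgroup.normalizer (L : Set G) ≤ L ⊔ Subgroup.centralizer (L : Set G))
    (b : MonoidAlgebra k G) : CorP p (bnB n) b D L := by
  obtain ⟨K, _, _, d, Φ, X, π, hp2, hK, ⟨ζ, hζ, hζ1, hζθ⟩, hXI, hX2, hπ, hk, hdiag⟩ := h
  refine corP_of_bd hD hin (fun Q hQ => ?_) b
  have hQn := card_subgroupOf_le hDn hQ
  have hQp : IsPGroup p Q := (hD.comap_of_injective L.subtype L.subtype_injective).to_le hQ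
  have hfd : finrank K (Fin d → K) = d := by rw [Module.finrank_fin_fun]
  have h1 : CornerBd k Q ((Nat.card Q)! * (Nat.card Q * Nat.card Q)) := by
    refine Φ.cornerBd hp2 hK hζ hζ1 hζθ hXI hX2 π hπ hk hQp ?_
    rw [hfd]
    rcases hdiag with h | ⟨h1, h2⟩
    · exact Or.inl h
    · refine Or.inr ⟨fun x hx y hy => Subtype.ext (h1 x (hQ hx) x.2 y (hQ hy) y.2), fun x hx =>
        Subtype.ext (h2 x (hQ hx) x.2)⟩
  intro e a i he ha hea hi hei hbr
  exact (h1 e a i he ha hea hi hei hbr).trans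
    (Nat.mul_le_mul (Nat.factorial_le hQn) (Nat.mul_le_mul hQn hQn))

/-- `L` has a parabolic system with the Levi property for which `D ∩ L` is abelian and forms a Levi
pair with a unipotent radical. -/
def SplitPar (p : ℕ) {G : Type} [Group G] (D L : Subgroup G) : Prop :=
  (∀ x ∈ D, x ∈ L → ∀ y ∈ D, y ∈ L → x * y = y * x) ∧
    ∃ S : ParSys p L, S.HasLevi ∧ ∀ Q : Subgroup L, Q ≤ D.subgroupOf L →
      ∃ V ∈ S.car, IsLeviPair V Q

/-- **The corner property** of groups with a parabolic system. -/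
theorem corP_par {k : Type u} [Field k] [IsAlgClosed k] {p n : ℕ} [Fact p.Prime] [CharP k p]
    {G : Type} [Group G] [Finite G] {D L : Subgroup G} (hD : IsPGroup p D)
    (hDn : Nat.card D ≤ n) (h : SplitPar p D L)
    (hin : D ⊓ Subgroup.normalizer (L : Set G) ≤ L ⊔ Subgroup.centralizer (L : Set G))
    (b : MonoidAlgebra k G) : CorP p (bnB n) b D L := by
  obtain ⟨hab, S, hS, hQS⟩ := h
  refine corP_of_bd hD hin (fun Q hQ => ?_) b
  have hQn := card_subgroupOf_le hDn hQ
  have hQp : IsPGroup p Q := (hD.comap_of_injective L.subtype L.subtype_injective).to_le hQ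
  obtain ⟨V, hV, hpair⟩ := hQS Q hQ
  have h1 : CornerBd k Q ((Nat.card Q)! * (Nat.card Q * Nat.card Q)) :=
    corner_bd S hS hV hpair hQp fun x hx y hy =>
      Subtype.ext (hab x (hQ hx) x.2 y (hQ hy) y.2)
  intro e a i he ha hea hi hei hbr
  exact (h1 e a i he ha hea hi hei hbr).trans
    (Nat.mul_le_mul (Nat.factorial_le hQn) (Nat.mul_le_mul hQn hQn))

end Vale.Agent.P180.R2.H854
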