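import Vale.Agent.P180.R2.H854.TCor
import Vale.Agent.P180.R2.H854.FormP

/-!
P180: the corner property of the components which are classical groups (symplectic and unitary
groups in any characteristic, orthogonal groups in odd characteristic).
-/

set_option linter.all false

namespace Vale.Agent.P180.R2.H854

open Module Vale.Agent.P180 Vale.Agent.P180.R2.H799 Vale.Agent.P180.R2.H799.BN
open Vale.Agent.P180.R2.H365 Vale.Agent.P180.R2.H954

open scoped Nat

universe u

/-- The condition on the form and the group of isometries: `|K|` is odd, or `X` is the full special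
isometry group of a hermitian or alternating form. -/
def HForm.GoodX {K E : Type*} [Field K] [AddCommGroup E] [Module K E] (Φ : HForm K E)
    (X : Subgroup (SpecialLinearGroup K E)) : Prop :=
  Odd (Nat.card K) ∨ (X = Φ.Iso ∧ ((∃ a, Φ.θ a ≠ a) ∨ ∀ x, Φ.B x x = 0))

namespace HForm.GoodX

variable {K E : Type*} [Field K] [AddCommGroup E] [Module K E] {Φ : HForm K E}
  [FiniteDimensional K E] [Finite K] {X : Subgroup (SpecialLinearGroup K E)}

theorem or3 (h : Φ.GoodX X) : Odd (Nat.card K) ∨ (∃ a, Φ.θ a ≠ a) ∨ ∀ x, Φ.B x x = 0 := by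
  rcases h with h | ⟨-, h⟩
  · exact Or.inl h
  · exact Or.inr h

theorem hV (h : Φ.GoodX X) (hX2 : X.relIndex Φ.Iso ∣ 2) (F : Flag K E) :
    VF F ⊓ Φ.Iso ≤ X := by
  rcases h with h | ⟨h, -⟩
  · exact Φ.VF_iso_le h hX2 F
  · rw [h]
    exact inf_le_right

end HForm.GoodX

/-- `L` is a central quotient (modulo scalars) of a subgroup `X` of index one or two in the special
isometry group of a nondegenerate alternating, symmetric or hermitian form `B` on `K ^ d`, `K` a
finite field with a `p`-th root of unity `ζ ≠ 1` fixed by the field automorphism `θ` of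
the form (so `p` divides `q - 1`, `q` the order of the fixed field of `θ`), `p` is odd, `|K|` is
odd or `X` is the full special isometry group of an alternating or hermitian form, and the
dimension is less than `p` or `D ∩ L` is abelian of exponent dividing `|K| - 1`. -/
def SplitIsoT (p : ℕ) {G : Type} [Group G] (D L : Subgroup G) : Prop :=
  ∃ (K : Type) (_ : Field K) (_ : Finite K) (d : ℕ) (Φ : HForm K (Fin d → K))
    (X : Subgroup (SpecialLinearGroup K (Fin d → K))) (π : X →* L),
      Odd p ∧ Φ.GoodX X ∧ (∃ ζ : K, ζ ^ p = 1 ∧ ζ ≠ 1 ∧ Φ.θ ζ = ζ) ∧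
      X ≤ Φ.Iso ∧ X.relIndex Φ.Iso ∣ 2 ∧ Function.Surjective π ∧
      π.ker.map X.subtype ≤ Subgroup.center _ ∧
      (d < p ∨ ((∀ x ∈ D, x ∈ L → ∀ y ∈ D, y ∈ L → x * y = y * x) ∧
        ∀ x ∈ D, x ∈ L → x ^ (Nat.card K - 1) = 1))

/-- **The corner property** of classical groups. -/
theorem corP_isoT {k : Type u} [Field k] [IsAlgClosed k] {p n : ℕ} [Fact p.Prime] [CharP k p]
    {G : Type} [Group G] [Finite G] {D L : Subgroup G} (hD : IsPGroup p D)
    (hDn : Nat.card D ≤ n) (h : SplitIsoT p D L)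
    (hin : D ⊓ Subgroup.normalizer (L : Set G) ≤ L ⊔ Subgroup.centralizer (L : Set G))
    (b : MonoidAlgebra k G) : CorP p (bnB n) b D L := by
  obtain ⟨K, _, _, d, Φ, X, π, hp2, hK, ⟨ζ, hζ, hζ1, hζθ⟩, hXI, hX2, hπ, hk, hdiag⟩ := h
  refine corP_of_bd hD hin (fun Q hQ => ?_) b
  have hQn := card_subgroupOf_le hDn hQ
  have hQp : IsPGroup p Q := (hD.comap_of_injective L.subtype L.subtype_injective).to_le hQ
  have hfd : finrank K (Fin d → K) = d := by rw [Module.finrank_fin_fun]
  have h1 : CornerBd k Q ((Nat.card Q)! * (Nat.card Q * Nat.card Q)) := by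
    refine Φ.cornerBdT hp2 (Φ.trT hK.or3) (Φ.normCondT hK.or3) hζ hζ1 hζθ hXI hX2
      (fun F _ => hK.hV hX2 F) π hπ hk hQp ?_
    rw [hfd]
    rcases hdiag with h | ⟨h1, h2⟩
    · exact Or.inl h
    · refine Or.inr ⟨fun x hx y hy => Subtype.ext (h1 x (hQ hx) x.2 y (hQ hy) y.2), fun x hx =>
        Subtype.ext (h2 x (hQ hx) x.2)⟩
  intro e a i he ha hea hi hei hbr
  exact (h1 e a i he ha hea hi hei hbr).trans
    (Nat.mul_le_mul (Nat.factorial_le hQn) (Nat.mul_le_mul hQn hQn))

end Vale.Agent.P180.R2.H854
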