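import Vale.Agent.P180.R2.H854.FlagStar

/-!
P180: orbits of the special linear group on pairs of flags, chains of unipotent radicals, and
central subgroups.
-/

namespace Vale.Agent.P180.R2.H854

open Module

variable {K E : Type*} [Field K] [AddCommGroup E] [Module K E]

/-- The set of members of a flag. -/
def Flag.mem (F : Flag K E) : Set (Submodule K E) := Set.range F.car

section fin

variable [FiniteDimensional K E]

/-- `VF F ≤ VF H` if and only if each member of `F` is a member of `H`. -/
theorem VF_le_iff (F H : Flag K E) : VF F ≤ VF H ↔ F.mem ⊆ H.mem := by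
  constructor
  · rintro hle _ ⟨i, rfl⟩
    by_cases h0 : F i = ⊥
    · exact ⟨0, by rw [H.zero, h0]⟩
    · -- the first member of `H` containing `F i`
      classical
      obtain ⟨N, hN⟩ := H.top
      have hex : ∃ k, F i ≤ H k := ⟨N, by rw [hN]; exact le_top⟩
      have hk := Nat.find_spec hex
      have hpos : 0 < Nat.find hex := by
        rw [Nat.pos_iff_ne_zero]
        intro h
        rw [h, H.zero, le_bot_iff] at hk
        exact h0 hk
      obtain ⟨j, hj⟩ := Nat.exists_eq_succ_of_ne_zero hpos.ne'
      have hmin : ¬ F i ≤ H j := Nat.find_min hex (by omega)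
      rw [hj] at hk
      refine ⟨j + 1, le_antisymm ?_ hk⟩
      by_contra hn
      obtain ⟨y, hy, hyi⟩ := SetLike.not_le_iff_exists.mp hn
      obtain ⟨φ, hφ, hφ0⟩ := exists_dual hyi
      apply hmin
      intro w hw
      have hmem := smulRight_mem_Jr (w := w) hφ0 hw
      have h := hle (oneAdd_mem _ hmem) j y hy
      have e : (oneAdd _ hmem) y - y = w := by
        change (1 + φ.smulRight w) y - y = w
        simp [hφ]
      rwa [e] at h
  · intro hsub g hg j x hx
    by_cases h0 : x = 0
    · subst h0
      have : g (0 : E) = 0 := map_zero g.1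
      rw [this, sub_zero]
      exact (H j).zero_mem
    · classical
      obtain ⟨N, hN⟩ := F.top
      have hex : ∃ k, H (j + 1) ≤ F k := ⟨N, by rw [hN]; exact le_top⟩
      have hk := Nat.find_spec hex
      have hpos : 0 < Nat.find hex := by
        rw [Nat.pos_iff_ne_zero]
        intro h
        rw [h, F.zero, le_bot_iff] at hk
        rw [hk, Submodule.mem_bot] at hx
        exact h0 hx
      obtain ⟨i, hi⟩ := Nat.exists_eq_succ_of_ne_zero hpos.ne'
      have hmin : ¬ H (j + 1) ≤ F i := Nat.find_min hex (by omega)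
      rw [hi] at hk
      obtain ⟨j', hj'⟩ := hsub ⟨i, rfl⟩
      have hj'' : H j' = F i := hj'
      have hle : F i ≤ H j := by
        rw [← hj''] at hmin ⊢
        apply H.mono
        by_contra hlt
        exact hmin (H.mono (by omega))
      exact hle (hg i x (hk hx))

theorem VF_eq_iff (F H : Flag K E) : VF F = VF H ↔ F.mem = H.mem := by
  constructor
  · intro h
    exact Set.Subset.antisymm ((VF_le_iff F H).mp h.le) ((VF_le_iff H F).mp h.ge)
  · intro h
    exact le_antisymm ((VF_le_iff F H).mpr h.le) ((VF_le_iff H F).mpr h.ge)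

/-- The members of a flag are determined by their dimension. -/
lemma finrank_injOn (F : Flag K E) :
    Set.InjOn (fun W : Submodule K E => finrank K W) F.mem := by
  rintro _ ⟨i, rfl⟩ _ ⟨j, rfl⟩ h
  have h' : finrank K (F i) = finrank K (F j) := h
  rcases le_total i j with hij | hij
  · exact Submodule.eq_of_le_of_finrank_eq (F.mono hij) h'
  · exact (Submodule.eq_of_le_of_finrank_eq (F.mono hij) h'.symm).symm

lemma mem_finite (F : Flag K E) : F.mem.Finite := by
  apply Set.Finite.of_finite_image _ (finrank_injOn F)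
  apply (Set.finite_le_nat (finrank K E)).subset
  rintro _ ⟨W, -, rfl⟩
  exact Submodule.finrank_le W

lemma ncard_mem_le (F : Flag K E) : F.mem.ncard ≤ finrank K E + 1 := by
  rw [← Set.InjOn.ncard_image (finrank_injOn F)]
  have h : (fun W : Submodule K E => finrank K W) '' F.mem ⊆
      ((Finset.range (finrank K E + 1) : Finset ℕ) : Set ℕ) := by
    rintro _ ⟨W, -, rfl⟩
    rw [Finset.coe_range, Set.mem_Iio]
    exact Nat.lt_succ_of_le (Submodule.finrank_le W)
  refine (Set.ncard_le_ncard h (Finset.finite_toSet _)).trans ?_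
  rw [Set.ncard_coe_finset, Finset.card_range]

/-- Strict inclusions of unipotent radicals increase the number of members of the flag. -/
theorem ncard_lt_of_lt {F H : Flag K E} (h : VF F < VF H) : F.mem.ncard < H.mem.ncard := by
  apply Set.ncard_lt_ncard _ (mem_finite H)
  refine ⟨(VF_le_iff F H).mp h.le, fun h' => ?_⟩
  exact h.not_ge ((VF_le_iff H F).mpr h')

/-- (FL6) The chain length in the parabolic system. -/
theorem chain_le (c : ℕ → Subgroup (SpecialLinearGroup K E)) (r : ℕ)
    (hc : ∀ i ≤ r, c i ∈ Set.range (VF (K := K) (E := E)))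
    (hlt : ∀ i < r, c i < c (i + 1)) : r ≤ finrank K E := by
  have h : ∀ i, i ≤ r → ∀ F : Flag K E, VF F = c i → i + 1 ≤ F.mem.ncard := by
    intro i
    induction i with
    | zero =>
      intro _ F _
      have : F.mem.Nonempty := ⟨F 0, 0, rfl⟩
      have := (Set.ncard_pos (mem_finite F)).mpr this
      omega
    | succ i ih =>
      intro hi F hF
      obtain ⟨F', hF'⟩ := hc i (by omega)
      have h1 := ih (by omega) F' hF'
      have h2 := hlt i (by omega)
      rw [← hF, ← hF'] at h2
      have := ncard_lt_of_lt h2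
      omega
  obtain ⟨F, hF⟩ := hc r le_rfl
  have h1 := h r le_rfl F hF
  have h2 := ncard_mem_le F
  omega

/-- Two pairs of flags with the same dimensions are conjugate under the special linear group. -/
theorem exists_SL_of_dims (F H F' H' : Flag K E)
    (hd : ∀ i j, dims F H i j = dims F' H' i j) :
    ∃ a : SpecialLinearGroup K E, (∀ i, ∀ x ∈ F i, a x ∈ F' i) ∧ (∀ j, ∀ x ∈ H j, a x ∈ H' j) := by
  classical
  obtain ⟨N1, hN1⟩ := F.top
  obtain ⟨N2, hN2⟩ := F'.top
  obtain ⟨M1, hM1⟩ := H.top
  obtain ⟨M2, hM2⟩ := H'.top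
  set N := max N1 N2 with hNdef
  set M := max M1 M2 with hMdef
  have hN : F N = ⊤ := F.top_of_le hN1 (le_max_left _ _)
  have hN' : F' N = ⊤ := F'.top_of_le hN2 (le_max_right _ _)
  have hM : H M = ⊤ := H.top_of_le hM1 (le_max_left _ _)
  have hM' : H' M = ⊤ := H'.top_of_le hM2 (le_max_right _ _)
  obtain ⟨b, hbF, hbH⟩ := exists_adapted F H hN hM
  obtain ⟨b', hbF', hbH'⟩ := exists_adapted F' H' hN' hM'
  have hmult : ∀ i j, mult F H i j = mult F' H' i j := by
    intro i j
    have h1 := mult_eq F H i j
    have h2 := mult_eq F' H' i j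
    rw [hd, hd, hd, hd, ← h2] at h1
    exact_mod_cast h1
  let e : Idx F H N M ≃ Idx F' H' N M :=
    Equiv.sigmaCongrRight fun p => finCongr (hmult p.1 p.2)
  have he : ∀ l, (e l).1 = l.1 := fun l => rfl
  let T : E ≃ₗ[K] E := b.equiv b' e
  have hT : ∀ l, T (b l) = b' (e l) := fun l => b.equiv_apply l b' e
  -- it is enough to find a diagonal map of the inverse determinant
  have key : ∃ d : Idx F H N M → K, LinearMap.det (T : E →ₗ[K] E) * ∏ l, d l = 1 := by
    rcases isEmpty_or_nonempty (Idx F H N M) with hI | ⟨⟨l0⟩⟩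
    · refine ⟨fun _ => 1, ?_⟩
      have h1 : finrank K E = 0 := by
        rw [← card_Idx F H hN hM]
        exact Fintype.card_eq_zero
      rw [LinearMap.det_eq_one_of_finrank_eq_zero h1]
      simp
    · have h1 : LinearMap.det (T : E →ₗ[K] E) ≠ 0 := by
        exact (LinearEquiv.isUnit_det' T).ne_zero
      refine ⟨Function.update (fun _ => 1) l0 (LinearMap.det (T : E →ₗ[K] E))⁻¹, ?_⟩
      rw [Finset.prod_update_of_mem (Finset.mem_univ l0)]
      simp [h1]
  obtain ⟨d, hdet⟩ := key
  let D : E →ₗ[K] E := Matrix.toLin b b (Matrix.diagonal d)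
  have hD : ∀ l, D (b l) = d l • b l := by
    intro l
    simp only [D, Matrix.toLin_self, Matrix.diagonal_apply, ite_smul, zero_smul]
    rw [Finset.sum_ite_eq' Finset.univ l]
    simp
  have hDdet : LinearMap.det D = ∏ l, d l := by
    rw [LinearMap.det_toLin, Matrix.det_diagonal]
  have hdet' : LinearMap.det ((T : E →ₗ[K] E) ∘ₗ D) = 1 := by
    rw [LinearMap.det_comp, hDdet, hdet]
  have hval : ∀ l, ((T : E →ₗ[K] E) ∘ₗ D) (b l) = d l • b' (e l) := by
    intro l
    rw [LinearMap.comp_apply, hD, map_smul]
    congr 1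
    exact hT l
  refine ⟨mkSL ((T : E →ₗ[K] E) ∘ₗ D) hdet', ?_, ?_⟩
  · intro i
    apply hbF.forall_mem (a := (T : E →ₗ[K] E) ∘ₗ D)
    intro l hl
    rw [hval]
    apply (F' i).smul_mem
    rw [hbF'.self_mem_iff, he]
    exact hl
  · intro j
    apply hbH.forall_mem (a := (T : E →ₗ[K] E) ∘ₗ D)
    intro l hl
    rw [hval]
    apply (H' j).smul_mem
    rw [hbH'.self_mem_iff, he]
    exact hl

/-- Double cosets of stabilisers of flags are determined by the dimensions. -/
theorem rel_of_dims (F H : Flag K E) (g g' : SpecialLinearGroup K E)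
    (hd : ∀ i j, dims F (mapF g.1 H) i j = dims F (mapF g'.1 H) i j) :
    ∃ a ∈ PF F, ∃ b ∈ PF H, g' = a * g * b := by
  obtain ⟨a, ha1, ha2⟩ := exists_SL_of_dims F (mapF g.1 H) F (mapF g'.1 H) hd
  have h1 : g'⁻¹ * a * g ∈ PF H := by
    intro j x hx
    have h2 : g x ∈ mapF g.1 H j := by
      rw [mem_mapF, inv_apply_self']
      exact hx
    have h3 := ha2 j _ h2
    rw [mem_mapF] at h3
    exact h3
  refine ⟨a, ha1, (g'⁻¹ * a * g)⁻¹, (PF H).inv_mem h1, by group⟩

/-- The dimensions attached to a double coset, indexed by the members of the flags. -/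
noncomputable def dimsFun (F H : Flag K E) (g : SpecialLinearGroup K E) :
    F.mem × H.mem → Fin (finrank K E + 1) := fun p =>
  ⟨finrank K (p.1.1 ⊓ p.2.1.map (toEnd g) : Submodule K E),
    Nat.lt_succ_of_le (Submodule.finrank_le _)⟩

lemma rel_of_dimsFun (F H : Flag K E) (g g' : SpecialLinearGroup K E)
    (h : dimsFun F H g = dimsFun F H g') : ∃ a ∈ PF F, ∃ b ∈ PF H, g' = a * g * b := by
  apply rel_of_dims
  intro i j
  have h1 := congrFun h (⟨F i, i, rfl⟩, ⟨H j, j, rfl⟩)
  exact congrArg Fin.val h1

lemma dimsFun_out_injective (F H : Flag K E) :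
    Function.Injective
      (fun q : DoubleCoset.Quotient (PF F : Set (SpecialLinearGroup K E)) (PF H) =>
        dimsFun F H q.out) := by
  intro q q' h
  have h1 := rel_of_dimsFun F H _ _ h
  rw [← DoubleCoset.out_eq' (PF F) (PF H) q, ← DoubleCoset.out_eq' (PF F) (PF H) q']
  exact (DoubleCoset.eq (PF F) (PF H) _ _).mpr h1

instance finite_doubleCoset (F H : Flag K E) :
    Finite (DoubleCoset.Quotient (PF F : Set (SpecialLinearGroup K E)) (PF H)) := by
  have : Finite F.mem := mem_finite F
  have : Finite H.mem := mem_finite H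
  exact Finite.of_injective _ (dimsFun_out_injective F H)

/-- (FL6) The number of double cosets of stabilisers of flags. -/
theorem card_doubleCoset_le (F H : Flag K E) :
    Nat.card (DoubleCoset.Quotient (PF F : Set (SpecialLinearGroup K E)) (PF H)) ≤
      (finrank K E + 1) ^ (finrank K E + 1) ^ 2 := by
  have : Finite F.mem := mem_finite F
  have : Finite H.mem := mem_finite H
  refine (Nat.card_le_card_of_injective _ (dimsFun_out_injective F H)).trans ?_
  rw [Nat.card_fun, Nat.card_prod, Nat.card_fin]
  apply Nat.pow_le_pow_right (Nat.succ_pos _)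
  rw [sq]
  exact Nat.mul_le_mul (ncard_mem_le F) (ncard_mem_le H)

/-- The unipotent radicals of the special linear group: number of double cosets of the
normalisers. -/
theorem card_doubleCoset_normalizer_le {V W : Subgroup (SpecialLinearGroup K E)}
    (hV : V ∈ Set.range (VF (K := K) (E := E))) (hW : W ∈ Set.range (VF (K := K) (E := E))) :
    Nat.card (DoubleCoset.Quotient
      (Subgroup.normalizer (V : Set (SpecialLinearGroup K E)) : Set (SpecialLinearGroup K E))
      (Subgroup.normalizer (W : Set (SpecialLinearGroup K E)))) ≤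
      (finrank K E + 1) ^ (finrank K E + 1) ^ 2 := by
  obtain ⟨F, rfl⟩ := hV
  obtain ⟨H, rfl⟩ := hW
  rw [normalizer_VF, normalizer_VF]
  exact card_doubleCoset_le F H

/-- A central subgroup of the special linear group over a finite field has order prime to the
order of the field. -/
theorem coprime_center [Finite K] {Z : Subgroup (SpecialLinearGroup K E)}
    (hZ : Z ≤ Subgroup.center (SpecialLinearGroup K E)) (F : Flag K E) :
    (Nat.card (VF F)).Coprime (Nat.card Z) := by
  rw [card_VF]
  apply Nat.Coprime.pow_left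
  have h1 : Nat.card Z ∣ Nat.card (Subgroup.center (SpecialLinearGroup K E)) :=
    Subgroup.card_dvd_of_le hZ
  have h2 : Nat.card (Subgroup.center (SpecialLinearGroup K E)) ∣ Nat.card Kˣ := by
    rw [Nat.card_congr (SpecialLinearGroup.centerEquivRootsOfUnity (R := K) (V := E)).toEquiv]
    exact Subgroup.card_subgroup_dvd_card _
  have h3 : Nat.card Kˣ = Nat.card K - 1 := Nat.card_units K
  have h4 : (Nat.card K).Coprime (Nat.card K - 1) := by
    have h5 : 0 < Nat.card K := Nat.card_pos
    exact (Nat.coprime_self_sub_right h5).mpr (Nat.coprime_one_right _)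
  exact Nat.Coprime.coprime_dvd_right ((h1.trans h2).trans (h3 ▸ dvd_rfl)) h4

end fin

end Vale.Agent.P180.R2.H854
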