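import Vale.Agent.P180.R2.H854.FormPair

/-!
P180: the parabolic system of a subgroup of index at most two in a special isometry group.
-/

namespace Vale.Agent.P180.R2.H854

open Module Vale.Agent.P180.R2.H799 Vale.Agent.P180.R2.H799.BN

lemma mem_of_relIndex_dvd_two {G : Type*} [Group G] {X I : Subgroup G}
    (hX : X.relIndex I ∣ 2) {g : G} (hg : g ∈ I) {m : ℕ} (hm : Odd m) (h : g ^ m = 1) :
    g ∈ X := by
  have h2 : g ^ 2 ∈ X := by
    have h1 : (X.subgroupOf I).index ∣ 2 := hX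
    rcases (Nat.dvd_prime Nat.prime_two).mp h1 with h1 | h1
    · rw [Subgroup.index_eq_one] at h1
      have h3 : (⟨g, hg⟩ : I) ∈ X.subgroupOf I := by rw [h1]; trivial
      exact X.pow_mem h3 2
    · have h3 := Subgroup.sq_mem_of_index_two h1 (⟨g, hg⟩ : I)
      exact h3
  obtain ⟨k, rfl⟩ := hm
  rw [pow_succ, pow_mul] at h
  rw [eq_inv_of_mul_eq_one_right h]
  exact X.inv_mem (X.pow_mem h2 k)

namespace HForm

variable {K E : Type*} [Field K] [AddCommGroup E] [Module K E] (Φ : HForm K E)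
  [FiniteDimensional K E] [Finite K]

/-- The normaliser condition. -/
def NormCond : Prop := ∀ F : Flag K E, Φ.SD F → Subgroup.normalizer
  ((VF F ⊓ Φ.Iso : Subgroup (SpecialLinearGroup K E)) : Set (SpecialLinearGroup K E)) ⊓
    Φ.Iso ≤ PF F

variable {X : Subgroup (SpecialLinearGroup K E)}

lemma VF_iso_le (hK : Odd (Nat.card K)) (hX2 : X.relIndex Φ.Iso ∣ 2) (F : Flag K E) :
    VF F ⊓ Φ.Iso ≤ X := by
  rintro g ⟨hg, hgI⟩
  have hodd : Odd (Nat.card (VF F)) := by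
    rw [card_VF]
    exact hK.pow
  exact mem_of_relIndex_dvd_two hX2 hgI hodd (pow_card_VF hg)

lemma VF_inf_eq (hK : Odd (Nat.card K)) (hXI : X ≤ Φ.Iso) (hX2 : X.relIndex Φ.Iso ∣ 2)
    (F : Flag K E) : VF F ⊓ X = VF F ⊓ Φ.Iso :=
  le_antisymm (inf_le_inf_left _ hXI) (le_inf inf_le_left (Φ.VF_iso_le hK hX2 F))

theorem exists_dec_X (hK : Odd (Nat.card K)) (hXI : X ≤ Φ.Iso) (hX2 : X.relIndex Φ.Iso ∣ 2)
    {F : Flag K E} (hF : Φ.SD F)
    {B : Subgroup (SpecialLinearGroup K E)} (hB : B ≤ PF F)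
    (hBadj : ∀ h ∈ B, ∀ h' : SpecialLinearGroup K E, toEnd h' = Φ.adj (toEnd h) → h' ∈ B) :
    (VF F ⊔ B) ⊓ X ≤ (VF F ⊓ X) ⊔ (B ⊓ X) := by
  rintro g ⟨hg, hgX⟩
  have h1 := Φ.exists_dec hK hF hB hBadj ⟨hg, hXI hgX⟩
  have hn : B ⊓ Φ.Iso ≤ Subgroup.normalizer
      ((VF F ⊓ Φ.Iso : Subgroup (SpecialLinearGroup K E)) : Set (SpecialLinearGroup K E)) := by
    rintro b ⟨hb, hbI⟩
    have h2 : b ∈ Subgroup.normalizer (VF F : Set (SpecialLinearGroup K E)) := by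
      rw [normalizer_VF]
      exact hB hb
    have h3 : b ∈ Subgroup.normalizer (Φ.Iso : Set (SpecialLinearGroup K E)) :=
      Subgroup.le_normalizer hbI
    refine Subgroup.mem_normalizer_iff.mpr fun h => ?_
    rw [Subgroup.mem_inf, Subgroup.mem_inf, Subgroup.mem_normalizer_iff.mp h2 h,
      Subgroup.mem_normalizer_iff.mp h3 h]
  obtain ⟨u, hu, b, hb, rfl⟩ := (mem_sup_iff_of_le hn).mp h1
  have huX : u ∈ X := Φ.VF_iso_le hK hX2 F hu
  refine Subgroup.mul_mem_sup ⟨hu.1, huX⟩ ⟨hb.1, ?_⟩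
  have := X.mul_mem (X.inv_mem huX) hgX
  rwa [inv_mul_cancel_left] at this

lemma normalizer_inf_le (hK : Odd (Nat.card K)) (hXI : X ≤ Φ.Iso) (hX2 : X.relIndex Φ.Iso ∣ 2)
    (hnorm : Φ.NormCond) {F : Flag K E} (hF : Φ.SD F) :
    Subgroup.normalizer
      ((VF F ⊓ X : Subgroup (SpecialLinearGroup K E)) : Set (SpecialLinearGroup K E)) ⊓ X ≤
      Subgroup.normalizer (VF F : Set (SpecialLinearGroup K E)) := by
  rw [Φ.VF_inf_eq hK hXI hX2, normalizer_VF]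
  exact (inf_le_inf_left _ hXI).trans (hnorm F hF)

/-- The parabolic system of `X`. -/
noncomputable def sysX (p : ℕ) (hp : p.Prime) (hKp : ¬ p ∣ Nat.card K)
    (hK : Odd (Nat.card K)) (hnorm : Φ.NormCond) (hXI : X ≤ Φ.Iso)
    (hX2 : X.relIndex Φ.Iso ∣ 2) : H799.ParSys p X :=
  parSub (slSys K E p hp hKp) X Φ.carSD
    (by
      rintro _ ⟨F, -, rfl⟩
      exact ⟨F, rfl⟩)
    (by
      rintro _ ⟨F, hF, rfl⟩ g hg
      exact ⟨_, Φ.SD_mapF hF (hXI hg), (map_conj_VF g F).symm⟩)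
    (by
      rintro _ ⟨F, ⟨N, h0, hN, hF⟩, rfl⟩ _ ⟨H, ⟨M, m0, hM, hH⟩, rfl⟩
      refine ⟨starN F H M m0, Φ.SD_starN h0 hN hF m0 hH, ?_⟩
      rw [normalizer_VF, star_VF_aux F H hM m0])
    (by
      rintro _ ⟨F, hF, rfl⟩
      exact Φ.normalizer_inf_le hK hXI hX2 hnorm hF)
    (by
      rintro _ ⟨F, hF, rfl⟩ _ ⟨H, hH, rfl⟩
      rw [normalizer_VF]
      exact Φ.exists_dec_X hK hXI hX2 hF inf_le_left fun h hh h' e =>
        ⟨Φ.adj_PF hF hh.1 e, Φ.adj_VF hH hh.2 e⟩)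
    (by
      rintro _ ⟨F, hF, rfl⟩ _ ⟨H, hH, rfl⟩
      rw [normalizer_VF, normalizer_VF]
      exact Φ.exists_dec_X hK hXI hX2 hF inf_le_left fun h hh h' e =>
        ⟨Φ.adj_PF hF hh.1 e, Φ.adj_PF hH hh.2 e⟩)

/-- Levi pairs of the special linear group give Levi pairs of `X`. -/
theorem levi_X (hK : Odd (Nat.card K)) (hnorm : Φ.NormCond) (hXI : X ≤ Φ.Iso)
    (hX2 : X.relIndex Φ.Iso ∣ 2) {F : Flag K E} (hF : Φ.SD F)
    {Z : Subgroup (SpecialLinearGroup K E)} (hZ : Z ≤ X) (hl : IsLeviPair (VF F) Z) :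
    IsLeviPair ((VF F).subgroupOf X) (Z.subgroupOf X) := by
  have hcent : Subgroup.centralizer ((Z.subgroupOf X : Subgroup X) : Set X) =
      (Subgroup.centralizer (Z : Set (SpecialLinearGroup K E))).subgroupOf X := by
    ext x
    rw [Subgroup.mem_subgroupOf, Subgroup.mem_centralizer_iff, Subgroup.mem_centralizer_iff]
    constructor
    · intro h z hz
      exact congrArg Subtype.val (h ⟨z, hZ hz⟩ hz)
    · intro h z hz
      exact Subtype.ext (h z.1 hz)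
  obtain ⟨h1, h2⟩ := hl
  rw [normalizer_VF] at h2
  have hCP : Subgroup.centralizer (Z : Set (SpecialLinearGroup K E)) ≤ PF F :=
    h2 ▸ le_sup_right
  constructor
  · rw [hcent]
    apply Subgroup.map_injective X.subtype_injective
    rw [Subgroup.map_inf _ _ _ X.subtype_injective, map_subgroupOf_eq, map_subgroupOf_eq,
      Subgroup.map_bot, eq_bot_iff, ← h1]
    exact inf_le_inf inf_le_left inf_le_left
  · rw [hcent, normalizer_subgroupOf_eq (Φ.normalizer_inf_le hK hXI hX2 hnorm hF),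
      normalizer_VF]
    apply Subgroup.map_injective X.subtype_injective
    rw [Subgroup.map_sup, map_subgroupOf_eq, map_subgroupOf_eq, map_subgroupOf_eq, ← h2]
    apply le_antisymm
    · exact sup_le (inf_le_inf_right _ le_sup_left) (inf_le_inf_right _ le_sup_right)
    · apply Φ.exists_dec_X hK hXI hX2 hF hCP
      intro h hh h' e
      rw [Subgroup.mem_centralizer_iff] at hh ⊢
      intro z hz
      apply toEnd_injective
      have h3 := congrArg (fun a : SpecialLinearGroup K E => Φ.adj (toEnd a))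
        (hh z⁻¹ (Z.inv_mem hz))
      have h4 : Φ.adj (toEnd z⁻¹) = toEnd z := by
        rw [Φ.toEnd_inv_of_mem (hXI (hZ hz)), Φ.adj_adj]
      change Φ.adj (toEnd (z⁻¹ * h)) = Φ.adj (toEnd (h * z⁻¹)) at h3
      rw [toEnd_mul, toEnd_mul, Φ.adj_mul, Φ.adj_mul, h4, ← e] at h3
      rw [toEnd_mul, toEnd_mul]
      exact h3.symm

/-- The Levi property of `X`. -/
theorem hasLevi_X {p : ℕ} (hp : p.Prime) (hKp : ¬ p ∣ Nat.card K) (hK : Odd (Nat.card K))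
    (hnorm : Φ.NormCond) (hXI : X ≤ Φ.Iso) (hX2 : X.relIndex Φ.Iso ∣ 2) (hp2 : Odd p)
    {ζ : K} (hζ : ζ ^ p = 1) (hζ1 : ζ ≠ 1) (hζθ : Φ.θ ζ = ζ) :
    (Φ.sysX p hp hKp hK hnorm hXI hX2).HasLevi := by
  have _ : Fact p.Prime := ⟨hp⟩
  rintro _ ⟨_, ⟨F, hF, rfl⟩, rfl⟩
  obtain ⟨N, h0, hN, hFN⟩ := hF
  obtain ⟨ι, _, b, α, hb, hB⟩ := Φ.exists_sd_basis hK hN hFN
  have hl := levi_pair hb (Φ.cent_Zd_iso hp2 hb hN hFN hB hζ hζ1 hζθ)
  have hZX : Zd p b α ⊓ Φ.Iso ≤ X := by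
    rintro z ⟨hz, hzI⟩
    obtain ⟨c, hc, hcz⟩ := hz
    refine mem_of_relIndex_dvd_two hX2 hzI hp2 (sl_ext b fun l => ?_)
    rw [pow_apply_eigen (hcz l), hc, one_smul]
    rfl
  refine ⟨(Zd p b α ⊓ Φ.Iso).subgroupOf X, ?_, ?_,
    Φ.levi_X hK hnorm hXI hX2 ⟨N, h0, hN, hFN⟩ hZX hl⟩
  · have h1 : IsPGroup p (Zd p b α ⊓ Φ.Iso : Subgroup (SpecialLinearGroup K E)) :=
      (Zd_isPGroup (p := p) (b := b) (α := α)).to_le inf_le_left
    rintro ⟨x, hx⟩
    obtain ⟨k, hk⟩ := h1 ⟨x.1, hx⟩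
    refine ⟨k, ?_⟩
    have h2 : x.1 ^ p ^ k = 1 := congrArg Subtype.val hk
    apply Subtype.ext
    apply Subtype.ext
    exact h2
  · intro x hx y hy
    apply Subtype.ext
    exact Zd_comm (p := p) x.1 hx.1 y.1 hy.1

end HForm

end Vale.Agent.P180.R2.H854
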