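import Vale.Agent.P180.R2.H799.BN0

/-!
P180: the trace of a parabolic system on a subgroup.
-/

namespace Vale.Agent.P180.R2.H854

open Subgroup

variable {G : Type*} [Group G]

lemma mem_sup_iff_of_le {V X : Subgroup G} (hX : X ≤ normalizer (V : Set G)) {g : G} :
    g ∈ V ⊔ X ↔ ∃ v ∈ V, ∃ x ∈ X, v * x = g := by
  rw [← SetLike.mem_coe, Subgroup.coe_mul_of_right_le_normalizer_left V X hX, Set.mem_mul]
  rfl

lemma map_subgroupOf_eq (A X : Subgroup G) : (A.subgroupOf X).map X.subtype = A ⊓ X :=
  Subgroup.subgroupOf_map_subtype A X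

lemma subgroupOf_eq_of_inf_eq {X : Subgroup G} {A B : Subgroup G} (h : A ⊓ X = B ⊓ X) :
    A.subgroupOf X = B.subgroupOf X := by
  apply Subgroup.map_injective X.subtype_injective
  rw [map_subgroupOf_eq, map_subgroupOf_eq, h]

/-- The normaliser of a trace. -/
lemma normalizer_subgroupOf_eq {V X : Subgroup G}
    (hN : normalizer ((V ⊓ X : Subgroup G) : Set G) ⊓ X ≤ normalizer (V : Set G)) :
    normalizer ((V.subgroupOf X : Subgroup X) : Set X) =
      (normalizer (V : Set G)).subgroupOf X := by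
  have h1 : (V ⊓ X).subgroupOf X = V.subgroupOf X := Subgroup.inf_subgroupOf_right V X
  rw [← h1, ← Subgroup.subgroupOf_normalizer_eq (inf_le_right : V ⊓ X ≤ X)]
  apply subgroupOf_eq_of_inf_eq
  apply le_antisymm
  · exact le_inf hN inf_le_right
  · refine le_inf ?_ inf_le_right
    rintro g ⟨hg, hgX⟩
    refine mem_normalizer_iff.mpr fun h => ?_
    rw [Subgroup.mem_inf, Subgroup.mem_inf, ← mem_normalizer_iff.mp hg h]
    refine and_congr_right fun _ => ⟨fun hh => ?_, fun hh => ?_⟩
    · exact X.mul_mem (X.mul_mem hgX hh) (X.inv_mem hgX)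
    · have := X.mul_mem (X.mul_mem (X.inv_mem hgX) hh) hgX
      simpa [mul_assoc] using this

/-- The trace of a parabolic system on a subgroup. -/
def parSub {p : ℕ} (S : H799.ParSys p G) (X : Subgroup G) (C : Set (Subgroup G))
    (hC : C ⊆ S.car)
    (hconj : ∀ V ∈ C, ∀ g ∈ X, V.map (MulAut.conj g).toMonoidHom ∈ C)
    (hstar : ∀ V ∈ C, ∀ W ∈ C, V ⊔ (normalizer (V : Set G) ⊓ W) ∈ C)
    (hN : ∀ V ∈ C, normalizer ((V ⊓ X : Subgroup G) : Set G) ⊓ X ≤ normalizer (V : Set G))
    (h1 : ∀ V ∈ C, ∀ W ∈ C, (V ⊔ (normalizer (V : Set G) ⊓ W)) ⊓ X ≤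
      (V ⊓ X) ⊔ ((normalizer (V : Set G) ⊓ W) ⊓ X))
    (h2 : ∀ V ∈ C, ∀ W ∈ C,
      (V ⊔ (normalizer (V : Set G) ⊓ normalizer (W : Set G))) ⊓ X ≤
        (V ⊓ X) ⊔ ((normalizer (V : Set G) ⊓ normalizer (W : Set G)) ⊓ X)) :
    H799.ParSys p X where
  car := (fun V => V.subgroupOf X) '' C
  conj := by
    rintro _ ⟨V, hV, rfl⟩ g
    refine ⟨_, hconj V hV g.1 g.2, ?_⟩
    ext x
    rw [Subgroup.mem_subgroupOf]
    constructor
    · rintro ⟨v, hv, hvx⟩
      have hx : v = g.1⁻¹ * x.1 * g.1 := by
        rw [← hvx]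
        simp [mul_assoc]
      refine ⟨g⁻¹ * x * g, ?_, ?_⟩
      · rw [SetLike.mem_coe, Subgroup.mem_subgroupOf]
        have : ((g⁻¹ * x * g : X) : G) = v := by rw [hx]; rfl
        rw [this]
        exact hv
      · simp [mul_assoc]
    · rintro ⟨v, hv, rfl⟩
      exact ⟨v.1, hv, rfl⟩
  card := by
    rintro _ ⟨V, hV, rfl⟩ hd
    apply S.card V (hC hV)
    have e : Nat.card (V.subgroupOf X) = Nat.card (V ⊓ X : Subgroup G) := by
      rw [← map_subgroupOf_eq]
      exact (Subgroup.card_map_of_injective X.subtype_injective).symm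
    rw [e] at hd
    exact hd.trans (Subgroup.card_dvd_of_le inf_le_left)
  star := by
    rintro _ ⟨V, hV, rfl⟩ _ ⟨W, hW, rfl⟩
    refine ⟨_, hstar V hV W hW, ?_⟩
    rw [normalizer_subgroupOf_eq (hN V hV)]
    apply Subgroup.map_injective X.subtype_injective
    rw [map_subgroupOf_eq, Subgroup.map_sup,
      Subgroup.map_inf _ _ _ X.subtype_injective, map_subgroupOf_eq,
      map_subgroupOf_eq, map_subgroupOf_eq]
    apply le_antisymm
    · refine (h1 V hV W hW).trans (sup_le_sup_left ?_ _)
      exact le_inf (le_inf (inf_le_left.trans inf_le_left) inf_le_right)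
        (le_inf (inf_le_left.trans inf_le_right) inf_le_right)
    · refine sup_le (inf_le_inf_right _ le_sup_left) (le_inf ?_ (inf_le_left.trans inf_le_right))
      refine le_trans ?_ le_sup_right
      exact le_inf (inf_le_left.trans inf_le_left) (inf_le_right.trans inf_le_left)
  norm := by
    rintro _ ⟨V, hV, rfl⟩ _ ⟨W, hW, rfl⟩
    have hst : V.subgroupOf X ⊔ ((normalizer (V : Set G)).subgroupOf X ⊓ W.subgroupOf X) =
        (V ⊔ (normalizer (V : Set G) ⊓ W)).subgroupOf X := by
      apply Subgroup.map_injective X.subtype_injective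
      rw [map_subgroupOf_eq, Subgroup.map_sup,
        Subgroup.map_inf _ _ _ X.subtype_injective, map_subgroupOf_eq,
        map_subgroupOf_eq, map_subgroupOf_eq]
      apply le_antisymm
      · refine sup_le (inf_le_inf_right _ le_sup_left)
          (le_inf ?_ (inf_le_left.trans inf_le_right))
        refine le_trans ?_ le_sup_right
        exact le_inf (inf_le_left.trans inf_le_left) (inf_le_right.trans inf_le_left)
      · refine (h1 V hV W hW).trans (sup_le_sup_left ?_ _)
        exact le_inf (le_inf (inf_le_left.trans inf_le_left) inf_le_right)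
          (le_inf (inf_le_left.trans inf_le_right) inf_le_right)
    rw [normalizer_subgroupOf_eq (hN V hV), hst,
      normalizer_subgroupOf_eq (hN _ (hstar V hV W hW)), S.norm V (hC hV) W (hC hW),
      normalizer_subgroupOf_eq (hN W hW)]
    apply Subgroup.map_injective X.subtype_injective
    rw [map_subgroupOf_eq, Subgroup.map_sup,
      Subgroup.map_inf _ _ _ X.subtype_injective, map_subgroupOf_eq,
      map_subgroupOf_eq, map_subgroupOf_eq]
    apply le_antisymm
    · refine (h2 V hV W hW).trans (sup_le_sup_left ?_ _)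
      exact le_inf (le_inf (inf_le_left.trans inf_le_left) inf_le_right)
        (le_inf (inf_le_left.trans inf_le_right) inf_le_right)
    · refine sup_le (inf_le_inf_right _ le_sup_left) (le_inf ?_ (inf_le_left.trans inf_le_right))
      refine le_trans ?_ le_sup_right
      exact le_inf (inf_le_left.trans inf_le_left) (inf_le_right.trans inf_le_left)

/-- A subgroup containing all the unipotent radicals inherits the parabolic system. -/
def parRes {p : ℕ} (S : H799.ParSys p G) (X : Subgroup G) (hX : ∀ V ∈ S.car, V ≤ X) :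
    H799.ParSys p X :=
  parSub S X S.car subset_rfl (fun V hV g _ => S.conj V hV g) S.star
    (by
      intro V hV
      rw [inf_eq_left.mpr (hX V hV)]
      exact inf_le_left)
    (by
      intro V hV W hW
      rw [inf_eq_left.mpr (hX V hV)]
      refine inf_le_left.trans (sup_le_sup_left ?_ _)
      exact le_inf le_rfl (inf_le_right.trans (hX W hW)))
    (by
      rintro V hV W hW g ⟨hg, hgX⟩
      obtain ⟨v, hv, x, hx, rfl⟩ := (mem_sup_iff_of_le inf_le_left).mp hg
      refine Subgroup.mul_mem_sup ⟨hv, hX V hV hv⟩ ⟨hx, ?_⟩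
      have := X.mul_mem (X.inv_mem (hX V hV hv)) hgX
      rwa [inv_mul_cancel_left] at this)

end Vale.Agent.P180.R2.H854
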