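import Vale.Agent.P180.R2.H854.Form
import Vale.Agent.P180.R2.H854.ParSub

/-!
P180: square roots of selfadjoint unipotent elements and the decomposition of isometries.
-/

namespace Vale.Agent.P180.R2.H854

open Module

namespace HForm

variable {K E : Type*} [Field K] [AddCommGroup E] [Module K E] (Φ : HForm K E)
  [FiniteDimensional K E] [Finite K]

lemma adj_inv {a b : SpecialLinearGroup K E} (h : toEnd b = Φ.adj (toEnd a)) :
    toEnd b⁻¹ = Φ.adj (toEnd a⁻¹) := by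
  have h1 : toEnd b * Φ.adj (toEnd a⁻¹) = 1 := by
    rw [h, ← Φ.adj_mul, ← toEnd_mul, inv_mul_cancel, toEnd_one, Φ.adj_one]
  calc toEnd b⁻¹ = toEnd b⁻¹ * (toEnd b * Φ.adj (toEnd a⁻¹)) := by rw [h1, mul_one]
    _ = Φ.adj (toEnd a⁻¹) := by rw [← mul_assoc, ← toEnd_mul, inv_mul_cancel, toEnd_one, one_mul]

lemma toEnd_inv_of_mem {g : SpecialLinearGroup K E} (hg : g ∈ Φ.Iso) :
    toEnd g⁻¹ = Φ.adj (toEnd g) := by
  have h := Φ.mem_Iso_iff.mp hg
  calc toEnd g⁻¹ = (Φ.adj (toEnd g) * toEnd g) * toEnd g⁻¹ := by rw [h, one_mul]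
    _ = Φ.adj (toEnd g) := by rw [mul_assoc, ← toEnd_mul, mul_inv_cancel, toEnd_one, mul_one]

lemma mem_Iso_of_inv {g : SpecialLinearGroup K E} (h : toEnd g⁻¹ = Φ.adj (toEnd g)) :
    g ∈ Φ.Iso := by
  rw [Φ.mem_Iso_iff, ← h, ← toEnd_mul, inv_mul_cancel, toEnd_one]

lemma exists_adj_VF {F : Flag K E} (hF : Φ.SD F) {u : SpecialLinearGroup K E} (hu : u ∈ VF F) :
    ∃ u' ∈ VF F, toEnd u' = Φ.adj (toEnd u) := by
  have h1 : Φ.adj (toEnd u - 1) ∈ Jr F := Φ.adj_mem_Jr hF hu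
  refine ⟨oneAdd _ h1, oneAdd_mem _ h1, ?_⟩
  rw [toEnd_oneAdd, Φ.adj_sub, Φ.adj_one, add_sub_cancel]

omit [FiniteDimensional K E] [Finite K] in
lemma toEnd_pow (g : SpecialLinearGroup K E) (k : ℕ) : toEnd (g ^ k) = toEnd g ^ k := by
  induction k with
  | zero => rw [pow_zero, pow_zero, toEnd_one]
  | succ k ih => rw [pow_succ, toEnd_mul, ih, pow_succ]

omit [Finite K] in
lemma pow_card_VF {F : Flag K E} {s : SpecialLinearGroup K E} (hs : s ∈ VF F) :
    s ^ Nat.card (VF F) = 1 :=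
  congrArg Subtype.val (pow_card_eq_one' (x := (⟨s, hs⟩ : VF F)))

/-- Square roots of selfadjoint elements of the unipotent radical. -/
lemma exists_sqrt (hK : Odd (Nat.card K)) {F : Flag K E} {s : SpecialLinearGroup K E}
    (hs : s ∈ VF F) (hadj : Φ.adj (toEnd s) = toEnd s) :
    ∃ r : SpecialLinearGroup K E, r * r = s ∧ Φ.adj (toEnd r) = toEnd r ∧
      ∀ H : Subgroup (SpecialLinearGroup K E), s ∈ H → r ∈ H := by
  have hodd : Odd (Nat.card (VF F)) := by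
    rw [card_VF]
    exact hK.pow
  obtain ⟨k, hk⟩ := hodd
  refine ⟨s ^ (k + 1), ?_, ?_, fun H hH => H.pow_mem hH _⟩
  · rw [← pow_add]
    have e : k + 1 + (k + 1) = Nat.card (VF F) + 1 := by omega
    rw [e, pow_succ, pow_card_VF hs, one_mul]
  · rw [toEnd_pow, Φ.adj_pow, hadj]

/-- The decomposition of an isometry in `VF F ⊔ B`. -/
theorem exists_dec (hK : Odd (Nat.card K)) {F : Flag K E} (hF : Φ.SD F)
    {B : Subgroup (SpecialLinearGroup K E)} (hB : B ≤ PF F)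
    (hBadj : ∀ h ∈ B, ∀ h' : SpecialLinearGroup K E, toEnd h' = Φ.adj (toEnd h) → h' ∈ B) :
    (VF F ⊔ B) ⊓ Φ.Iso ≤ (VF F ⊓ Φ.Iso) ⊔ (B ⊓ Φ.Iso) := by
  rintro g ⟨hg, hgI⟩
  obtain ⟨u, hu, h, hh, rfl⟩ := (mem_sup_iff_of_le (by rwa [normalizer_VF])).mp hg
  obtain ⟨u1, hu1, hu1e⟩ := Φ.exists_adj_VF hF hu
  set g := u * h with hgdef
  have hs : u1 * u ∈ VF F := (VF F).mul_mem hu1 hu
  have hadj : Φ.adj (toEnd (u1 * u)) = toEnd (u1 * u) := by
    rw [toEnd_mul, Φ.adj_mul, hu1e, Φ.adj_adj]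
  -- the adjoint of `h`
  have hh1 : toEnd (g⁻¹ * u1⁻¹) = Φ.adj (toEnd h) := by
    have e : h = u⁻¹ * g := by rw [hgdef]; group
    rw [e, toEnd_mul u⁻¹ g, Φ.adj_mul, ← Φ.toEnd_inv_of_mem hgI, toEnd_mul, Φ.adj_inv hu1e]
  have hh1B : g⁻¹ * u1⁻¹ ∈ B := hBadj h hh _ hh1
  have hsB : u1 * u ∈ B := by
    have e : u1 * u = (h * (g⁻¹ * u1⁻¹))⁻¹ := by rw [hgdef]; group
    rw [e]
    exact B.inv_mem (B.mul_mem hh hh1B)
  obtain ⟨r, hr, hradj, hrH⟩ := Φ.exists_sqrt hK hs hadj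
  have hrV := hrH _ hs
  have hrB := hrH _ hsB
  have hu' : u * r⁻¹ ∈ Φ.Iso := by
    rw [Φ.mem_Iso_iff]
    have h1 : Φ.adj (toEnd (u * r⁻¹)) = toEnd (r⁻¹ * u1) := by
      rw [toEnd_mul, Φ.adj_mul, ← hu1e, ← Φ.adj_inv hradj.symm, toEnd_mul]
    rw [h1, ← toEnd_mul]
    have h2 : r⁻¹ * u1 * (u * r⁻¹) = 1 := by
      have : r⁻¹ * u1 * (u * r⁻¹) = r⁻¹ * (u1 * u) * r⁻¹ := by group
      rw [this, ← hr]
      group
    rw [h2, toEnd_one]
  have e : u * h = (u * r⁻¹) * (r * h) := by group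
  rw [hgdef, e]
  refine Subgroup.mul_mem_sup ⟨(VF F).mul_mem hu ((VF F).inv_mem hrV), hu'⟩
    ⟨B.mul_mem hrB hh, ?_⟩
  have e2 : r * h = (u * r⁻¹)⁻¹ * g := by rw [hgdef]; group
  rw [e2]
  exact Φ.Iso.mul_mem (Φ.Iso.inv_mem hu') hgI

lemma adj_PF {F : Flag K E} (hF : Φ.SD F) {h h' : SpecialLinearGroup K E} (hh : h ∈ PF F)
    (e : toEnd h' = Φ.adj (toEnd h)) : h' ∈ PF F := by
  rw [mem_PF_iff, e]
  exact Φ.adj_mem_Pa hF hh

lemma adj_VF {F : Flag K E} (hF : Φ.SD F) {h h' : SpecialLinearGroup K E} (hh : h ∈ VF F)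
    (e : toEnd h' = Φ.adj (toEnd h)) : h' ∈ VF F := by
  have h1 := Φ.adj_mem_Jr hF (mem_VF_iff.mp hh)
  rw [Φ.adj_sub, Φ.adj_one] at h1
  rw [mem_VF_iff, e]
  exact h1

omit [FiniteDimensional K E] [Finite K] in
lemma SD_mapF {F : Flag K E} (hF : Φ.SD F) {g : SpecialLinearGroup K E} (hg : g ∈ Φ.Iso) :
    Φ.SD (mapF g.1 F) := by
  obtain ⟨N, h0, hN, hF⟩ := hF
  refine ⟨N, h0, ?_, ?_⟩
  · rw [mapF_apply, hN, Submodule.map_top]
    exact LinearEquiv.range g.1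
  · intro i hi
    ext x
    rw [mem_mapF, ← hF i hi, Φ.mem_perp, Φ.mem_perp]
    constructor
    · intro h y hy
      have h1 := h (g y) (by rw [mem_mapF, inv_apply_self']; exact hy)
      have h2 := hg (g⁻¹ x) y
      rw [apply_inv_self', h1] at h2
      exact h2.symm
    · intro h y hy
      rw [mem_mapF] at hy
      have h1 := h _ hy
      have h2 := hg (g⁻¹ x) (g⁻¹ y)
      rw [apply_inv_self', apply_inv_self', h1] at h2
      exact h2

lemma perp_le_iff {A B : Submodule K E} : Φ.perp A ≤ Φ.perp B ↔ B ≤ A := by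
  constructor
  · intro h
    have := Φ.perp_anti h
    rwa [Φ.perp_perp, Φ.perp_perp] at this
  · exact Φ.perp_anti

lemma starN_perp {F H : Flag K E} {N M : ℕ} (hN : F N = ⊤)
    (hF : ∀ i ≤ N, Φ.perp (F i) = F (N - i)) (m0 : 0 < M)
    (hH : ∀ i ≤ M, Φ.perp (H i) = H (M - i)) : starN F H M m0 (N * M) = ⊤ ∧
      ∀ k ≤ N * M, Φ.perp (starN F H M m0 k) = starN F H M m0 (N * M - k) := by
  refine ⟨?_, ?_⟩
  · rw [starN_apply, Nat.mul_div_cancel _ m0, hN, top_sup_eq]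
  · intro k hk
    rw [starN_apply, starN_apply]
    have hkd := Nat.div_add_mod k M
    have hlt := Nat.mod_lt k m0
    set i := k / M with hi
    set j := k % M with hj
    have hmod : F i ⊔ (F (i + 1) ⊓ H j) = F (i + 1) ⊓ (F i ⊔ H j) := by
      rw [inf_comm, ← sup_inf_assoc_of_le _ (F.le_succ i), inf_comm]
    rcases Nat.eq_zero_or_pos j with hj0 | hj0
    · have hk' : k = M * i := by omega
      have hiN : i ≤ N := by
        by_contra hc
        have := Nat.mul_le_mul_left M (not_le.mp hc)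
        rw [Nat.mul_succ, mul_comm M N] at this
        omega
      have e : N * M - k = M * (N - i) := by
        rw [hk', Nat.mul_sub, mul_comm N M]
      rw [e, Nat.mul_div_cancel_left _ m0, Nat.mul_mod_right, hj0, H.zero, inf_bot_eq,
        inf_bot_eq, sup_bot_eq, sup_bot_eq, hF i hiN]
    · have hiN : i < N := by
        by_contra hc
        have := Nat.mul_le_mul_left M (not_lt.mp hc)
        rw [mul_comm M N] at this
        omega
      have e0 : N * M - k = M * (N - i - 1) + (M - j) := by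
        have h1 : M * (N - i - 1) + M * (i + 1) = N * M := by
          rw [← mul_add, mul_comm N M]
          congr 1
          omega
        rw [mul_add, mul_one] at h1
        omega
      have e1 : (N * M - k) / M = N - i - 1 := by
        rw [e0, Nat.mul_add_div m0, Nat.div_eq_of_lt (by omega), add_zero]
      have e2 : (N * M - k) % M = M - j := by
        rw [e0, Nat.mul_add_mod, Nat.mod_eq_of_lt (by omega)]
      rw [e1, e2, hmod, Φ.perp_inf, Φ.perp_sup, hF i hiN.le, hF (i + 1) hiN, hH j hlt.le]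
      have e3 : N - i - 1 + 1 = N - i := by omega
      rw [e3]
      rfl

lemma SD_starN {F H : Flag K E} {N M : ℕ} (h0 : 0 < N) (hN : F N = ⊤)
    (hF : ∀ i ≤ N, Φ.perp (F i) = F (N - i)) (m0 : 0 < M)
    (hH : ∀ i ≤ M, Φ.perp (H i) = H (M - i)) : Φ.SD (starN F H M m0) :=
  ⟨N * M, Nat.mul_pos h0 m0, Φ.starN_perp hN hF m0 hH⟩

/-- The self-dual unipotent radicals. -/
def carSD : Set (Subgroup (SpecialLinearGroup K E)) := {V | ∃ F : Flag K E, Φ.SD F ∧ VF F = V}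

/-- The trace of the parabolic system of the special linear group on the special isometry group,
if the normaliser condition is satisfied. -/
noncomputable def isoSys' (p : ℕ) (hp : p.Prime) (hKp : ¬ p ∣ Nat.card K)
    (hK : Odd (Nat.card K))
    (hnorm : ∀ F : Flag K E, Φ.SD F → Subgroup.normalizer
      ((VF F ⊓ Φ.Iso : Subgroup (SpecialLinearGroup K E)) : Set (SpecialLinearGroup K E)) ⊓
        Φ.Iso ≤ PF F) :
    H799.ParSys p Φ.Iso :=
  parSub (slSys K E p hp hKp) Φ.Iso Φ.carSD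
    (by
      rintro _ ⟨F, -, rfl⟩
      exact ⟨F, rfl⟩)
    (by
      rintro _ ⟨F, hF, rfl⟩ g hg
      exact ⟨_, Φ.SD_mapF hF hg, (map_conj_VF g F).symm⟩)
    (by
      rintro _ ⟨F, ⟨N, h0, hN, hF⟩, rfl⟩ _ ⟨H, ⟨M, m0, hM, hH⟩, rfl⟩
      refine ⟨starN F H M m0, Φ.SD_starN h0 hN hF m0 hH, ?_⟩
      rw [normalizer_VF, star_VF_aux F H hM m0])
    (by
      rintro _ ⟨F, hF, rfl⟩
      rw [normalizer_VF]
      exact hnorm F hF)
    (by
      rintro _ ⟨F, hF, rfl⟩ _ ⟨H, hH, rfl⟩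
      rw [normalizer_VF]
      exact Φ.exists_dec hK hF inf_le_left fun h hh h' e =>
        ⟨Φ.adj_PF hF hh.1 e, Φ.adj_VF hH hh.2 e⟩)
    (by
      rintro _ ⟨F, hF, rfl⟩ _ ⟨H, hH, rfl⟩
      rw [normalizer_VF, normalizer_VF]
      exact Φ.exists_dec hK hF inf_le_left fun h hh h' e =>
        ⟨Φ.adj_PF hF hh.1 e, Φ.adj_PF hH hh.2 e⟩)

end HForm

end Vale.Agent.P180.R2.H854
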