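import Vale.Agent.P180.R2.H854.TPair

/-!
P180: the parabolic system of a group of isometries of a form of trace type.
-/

namespace Vale.Agent.P180.R2.H854

open Module Vale.Agent.P180.R2.H799 Vale.Agent.P180.R2.H799.BN

universe v

namespace HForm

variable {K : Type*} {E : Type v} [Field K] [AddCommGroup E] [Module K E] (Φ : HForm K E)
  [FiniteDimensional K E] [Finite K] {X : Subgroup (SpecialLinearGroup K E)}

/-- The block diagonal part of an isometry with respect to a selfdual basis. -/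
lemma dg_mem_Iso {ι : Type*} {b : Basis ι K E} {α : ι → ℕ} {F : Flag K E} (hb : Adapted b α F)
    {N : ℕ} (hN : F N = ⊤) (hF : ∀ i ≤ N, Φ.perp (F i) = F (N - i))
    (hB : ∀ l m, α l + α m + 1 ≠ N → Φ.B (b l) (b m) = 0)
    {l g : SpecialLinearGroup K E} (hg : g ∈ Φ.Iso) (hgF : g ∈ PF F)
    (e : toEnd l = dg b α (toEnd g)) : l ∈ Φ.Iso := by
  classical
  have hα : ∀ l, α l < N := fun l => hb.self_mem_iff.mp (by rw [hN]; trivial)
  have hlow : ∀ m, g (b m) - l (b m) ∈ F (α m) := by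
    intro m
    have h1 := sub_dg_mem_Jr hb (mem_PF_iff.mp hgF) (α m) (b m)
      (hb.self_mem_iff.mpr (Nat.lt_succ_self _))
    rw [← e] at h1
    exact h1
  have hsp : ∀ m, l (b m) ∈ Submodule.span K (b '' {j | α j = α m}) := by
    intro m
    rw [Basis.mem_span_image]
    intro j hj
    have h1 : b.repr (l (b m)) j ≠ 0 := Finsupp.mem_support_iff.mp hj
    have h2 : b.repr (l (b m)) j = b.repr (dg b α (toEnd g) (b m)) j := by
      rw [← e]
      rfl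
    rw [h2, repr_dg] at h1
    split_ifs at h1 with h3
    · exact h3
    · exact absurd rfl h1
  have hlF : ∀ m, l (b m) ∈ F (α m + 1) := by
    intro m
    rw [hb (α m + 1)]
    refine Submodule.span_mono (Set.image_mono fun j hj => ?_) (hsp m)
    exact Nat.lt_succ_of_le (le_of_eq hj)
  have key : ∀ m k, Φ.B (l (b m)) (l (b k)) = Φ.B (b m) (b k) := by
    intro m k
    by_cases h : α m + α k + 1 = N
    · have h1 : Φ.B (g (b m)) (g (b k)) = Φ.B (b m) (b k) := hg (b m) (b k)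
      have h2 : Φ.B (g (b m) - l (b m)) (l (b k)) = 0 := by
        have h3 : g (b m) - l (b m) ∈ Φ.perp (F (α k + 1)) := by
          rw [hF _ (hα k)]
          have : N - (α k + 1) = α m := by omega
          rw [this]
          exact hlow m
        exact h3 _ (hlF k)
      have h4 : Φ.B (g (b m)) (g (b k) - l (b k)) = 0 := by
        have h5 : g (b k) - l (b k) ∈ Φ.perp (F (α m + 1)) := by
          rw [hF _ (hα m)]
          have : N - (α m + 1) = α k := by omega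
          rw [this]
          exact hlow k
        have h6 : g (b m) ∈ F (α m + 1) := hgF _ _ (hb.self_mem_iff.mpr (Nat.lt_succ_self _))
        exact (Φ.mem_perp'.mp h5) _ h6
      rw [Φ.sub_right, sub_eq_zero] at h4
      rw [Φ.sub_left, sub_eq_zero] at h2
      rw [← h2, ← h4, h1]
    · rw [hB m k h]
      have hle : Submodule.span K (b '' {j | α j = α k}) ≤
          Φ.perp (Submodule.span K (b '' {j | α j = α m})) := by
        rw [Submodule.span_le]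
        rintro _ ⟨j, hj, rfl⟩
        rw [SetLike.mem_coe, Φ.mem_perp']
        intro y hy
        have hle2 : Submodule.span K (b '' {j | α j = α m}) ≤ LinearMap.ker (Φ.fn (b j)) := by
          rw [Submodule.span_le]
          rintro _ ⟨i, hi, rfl⟩
          rw [SetLike.mem_coe, LinearMap.mem_ker, Φ.fn_apply]
          apply hB
          have hi' : α i = α m := hi
          have hj' : α j = α k := hj
          rw [hi', hj']
          exact h
        exact hle2 hy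
      exact (Φ.mem_perp'.mp (hle (hsp k))) _ (hsp m)
  -- from the basis to all vectors
  have h1 : ∀ k x, Φ.B (l x) (l (b k)) = Φ.B x (b k) := by
    intro k x
    have h2 : Φ.fn (l (b k)) ∘ₗ toEnd l = Φ.fn (b k) := b.ext fun m => key m k
    exact congrArg (fun f : E →ₗ[K] K => f x) h2
  intro x y
  have h2 : Φ.fn (l x) ∘ₗ toEnd l = Φ.fn x := b.ext fun m => by
    change Φ.B (l (b m)) (l x) = Φ.B (b m) x
    rw [Φ.symm (l x), Φ.symm x, h1]
  have h3 : Φ.B (l y) (l x) = Φ.B y x := congrArg (fun f : E →ₗ[K] K => f y) h2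
  rw [Φ.symm (l y), Φ.symm y, h3]

lemma dg_mem_X (hXI : X ≤ Φ.Iso) {F : Flag K E} (hV : VF F ⊓ Φ.Iso ≤ X)
    {ι : Type*} {b : Basis ι K E} {α : ι → ℕ} (hb : Adapted b α F)
    {N : ℕ} (hN : F N = ⊤) (hF : ∀ i ≤ N, Φ.perp (F i) = F (N - i))
    (hB : ∀ l m, α l + α m + 1 ≠ N → Φ.B (b l) (b m) = 0)
    (l g : SpecialLinearGroup K E) (hg : g ∈ X) (hgF : g ∈ PF F)
    (e : toEnd l = dg b α (toEnd g)) : l ∈ X := by
  have hlI := Φ.dg_mem_Iso hb hN hF hB (hXI hg) hgF e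
  obtain ⟨u, hu, hue⟩ := exists_dg hb hgF
  have h1 : l = g * u := toEnd_injective (e.trans hue.symm)
  have h2 : u ∈ Φ.Iso := by
    have : u = g⁻¹ * l := by rw [h1, inv_mul_cancel_left]
    rw [this]
    exact Φ.Iso.mul_mem (Φ.Iso.inv_mem (hXI hg)) hlI
  rw [h1]
  exact X.mul_mem hg (hV ⟨hu, h2⟩)

/-- The selfdual flags are compatible with `X`. -/
theorem flagGeo (hT : Φ.Tr) (hnorm : Φ.NormCond) (hXI : X ≤ Φ.Iso)
    (hV : ∀ F, Φ.SD F → VF F ⊓ Φ.Iso ≤ X) : FlagGeo X Φ.SD where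
  conj F hF g hg := Φ.SD_mapF hF (hXI hg)
  star := by
    rintro F ⟨N, h0, hN, hF⟩ H ⟨M, m0, hM, hH⟩
    exact ⟨M, m0, hM, Φ.SD_starN h0 hN hF m0 hH⟩
  basis := by
    rintro F hFS H ⟨M, m0, hM, hH⟩
    obtain ⟨N, h0, hN, hF⟩ := id hFS
    obtain ⟨b, hbF, hbH, hB⟩ := Φ.exists_sd_basis2T hT hN hF m0 hM hH
    exact ⟨_, inferInstance, b, _, _, hbF, hbH, Φ.dg_mem_X hXI (hV F hFS) hbF hN hF
      fun l m hlm => hB l m fun h => hlm h.1⟩
  norm F hF := by
    have e : VF F ⊓ X = VF F ⊓ Φ.Iso :=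
      le_antisymm (inf_le_inf_left _ hXI) (le_inf inf_le_left (hV F hF))
    rw [e]
    exact (inf_le_inf_left _ hXI).trans (hnorm F hF)

/-- The Levi property. -/
theorem hasLeviT {p : ℕ} (hp : p.Prime) (hKp : ¬ p ∣ Nat.card K) (hT : Φ.Tr)
    (hnorm : Φ.NormCond) (hXI : X ≤ Φ.Iso) (hX2 : X.relIndex Φ.Iso ∣ 2)
    (hV : ∀ F, Φ.SD F → VF F ⊓ Φ.Iso ≤ X) (hp2 : Odd p)
    {ζ : K} (hζ : ζ ^ p = 1) (hζ1 : ζ ≠ 1) (hζθ : Φ.θ ζ = ζ) :
    ((Φ.flagGeo hT hnorm hXI hV).sys p hp hKp).HasLevi := by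
  have _ : Fact p.Prime := ⟨hp⟩
  rintro _ ⟨_, ⟨F, hFS, rfl⟩, rfl⟩
  obtain ⟨N, h0, hN, hF⟩ := id hFS
  obtain ⟨b, hb, -, hB'⟩ := Φ.exists_sd_basis2T hT hN hF h0 hN hF
  set α : Idx F F N N → ℕ := fun l => l.1.1 with hα
  have hB : ∀ l m, α l + α m + 1 ≠ N → Φ.B (b l) (b m) = 0 :=
    fun l m hlm => hB' l m fun h => hlm h.1
  have hc := Φ.cent_Zd_iso hp2 hb hN hF hB hζ hζ1 hζθ
  have hZX : Zd p b α ⊓ Φ.Iso ≤ X := by
    rintro z ⟨hz, hzI⟩
    obtain ⟨c, hc, hcz⟩ := hz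
    refine mem_of_relIndex_dvd_two hX2 hzI hp2 (sl_ext b fun l => ?_)
    rw [pow_apply_eigen (hcz l), hc, one_smul]
    rfl
  refine ⟨(Zd p b α ⊓ Φ.Iso).subgroupOf X, ?_, ?_,
    (Φ.flagGeo hT hnorm hXI hV).levi hFS hb (Φ.dg_mem_X hXI (hV F hFS) hb hN hF hB) hZX hc⟩
  · have h1 : IsPGroup p (Zd p b α ⊓ Φ.Iso : Subgroup (SpecialLinearGroup K E)) :=
      (Zd_isPGroup (p := p) (b := b) (α := α)).to_le inf_le_left
    rintro ⟨x, hx⟩
    obtain ⟨k, hk⟩ := h1 ⟨x.1, hx⟩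
    refine ⟨k, ?_⟩
    have h2 : x.1 ^ p ^ k = 1 := congrArg Subtype.val hk
    apply Subtype.ext
    apply Subtype.ext
    exact h2
  · intro x hx y hy
    apply Subtype.ext
    exact Zd_comm (p := p) x.1 hx.1 y.1 hy.1

/-- Levi pairs of diagonalisable `p`-groups of isometries. -/
theorem exists_pairT {p : ℕ} (hp : p.Prime) (hT : Φ.Tr) (hnorm : Φ.NormCond)
    (hXI : X ≤ Φ.Iso) (hV : ∀ F, Φ.SD F → VF F ⊓ Φ.Iso ≤ X) (hp2 : Odd p)
    {ζ : K} (hζ : ζ ^ p = 1) (hζ1 : ζ ≠ 1) (hζθ : Φ.θ ζ = ζ)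
    {Q : Subgroup (SpecialLinearGroup K E)} (hQX : Q ≤ X) (hQp : IsPGroup p Q)
    (h : Submodule.span K (EV Q) = ⊤) :
    ∃ F : Flag K E, Φ.SD F ∧ IsLeviPair ((VF F).subgroupOf X) (Q.subgroupOf X) := by
  obtain ⟨F, N, ι, _, b, α, h0, hN, hF, hb, hB, hc⟩ :=
    Φ.exists_sd_pairT hp hp2 hζ hζ1 hζθ (hQX.trans hXI) hQp h
  have hFS : Φ.SD F := ⟨N, h0, hN, hF⟩
  exact ⟨F, hFS, (Φ.flagGeo hT hnorm hXI hV).levi hFS hb
    (Φ.dg_mem_X hXI (hV F hFS) hb hN hF hB) hQX hc⟩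

end HForm

end Vale.Agent.P180.R2.H854
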