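import Vale.Agent.P180.R2.H854.FormNorm
import Vale.Agent.P180.R2.H799.BNL2

/-!
P180: selfdual bases adapted to a selfdual flag, and the Levi property of the special isometry
groups.
-/

namespace Vale.Agent.P180.R2.H854

open Module Vale.Agent.P180.R2.H799 Vale.Agent.P180.R2.H799.BN

namespace HForm

variable {K E : Type*} [Field K] [AddCommGroup E] [Module K E] (Φ : HForm K E)
  [FiniteDimensional K E] [Finite K]

omit [FiniteDimensional K E] [Finite K] in
lemma ext_basis {ι : Type*} (b : Basis ι K E) {a a' : End K E}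
    (h : ∀ l m, Φ.B (b l) (a (b m)) = Φ.B (b l) (a' (b m))) : a = a' := by
  refine b.ext fun m => ?_
  apply Φ.eq_of_right
  intro x
  have h1 : Φ.fn (a (b m)) = Φ.fn (a' (b m)) := b.ext fun l => h l m
  exact congrArg (fun f : E →ₗ[K] K => f x) h1

/-- A selfdual flag has an adapted basis with Gram matrix concentrated on the dual pairs of
levels. -/
theorem exists_sd_basis (hK : Odd (Nat.card K)) {F : Flag K E} {N : ℕ}
    (hN : F N = ⊤) (hF : ∀ i ≤ N, Φ.perp (F i) = F (N - i)) :
    ∃ (ι : Type) (_ : Fintype ι) (b : Basis ι K E) (α : ι → ℕ), Adapted b α F ∧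
      ∀ l m, α l + α m + 1 ≠ N → Φ.B (b l) (b m) = 0 := by
  classical
  obtain ⟨b, hb, -⟩ := exists_adapted F F hN hN
  set α : Idx F F N N → ℕ := fun l => l.1.1 with hα
  have hαN : ∀ l, α l < N := fun l => l.1.1.2
  -- the endomorphism `t`
  let d : Idx F F N N → Idx F F N N → K := fun l m =>
    if α l + α m + 1 = N then Φ.B (b l) (b m) else 0
  have hex : ∀ m, ∃ z, ∀ l, Φ.B (b l) z = d l m := by
    intro m
    obtain ⟨z, hz⟩ := Φ.exists_riesz (b.constr K (fun l => d l m))
    refine ⟨z, fun l => ?_⟩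
    rw [← hz, b.constr_basis]
  choose z hz using hex
  let t : End K E := b.constr K z
  have ht : ∀ l m, Φ.B (b l) (t (b m)) = d l m := by
    intro l m
    have : t (b m) = z m := b.constr_basis K z m
    rw [this, hz]
  have hsymm : ∀ l m, d m l = Φ.ε * Φ.θ (d l m) := by
    intro l m
    simp only [d]
    by_cases h : α l + α m + 1 = N
    · rw [if_pos h, if_pos (by omega), Φ.symm]
    · rw [if_neg h, if_neg (by omega), map_zero, mul_zero]
  have hadj : Φ.adj t = t := by
    apply Φ.ext_basis b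
    intro l m
    rw [← Φ.adj_right, Φ.symm (b m), ht, ht, ← hsymm]
  have ht1 : t - 1 ∈ Jr F := by
    intro i
    apply hb.forall_mem
    intro m hm
    have hm' : α m ≤ i := Nat.lt_succ_iff.mp hm
    apply F.mono hm'
    have e : F (α m) = Φ.perp (F (N - α m)) := by
      rw [hF (N - α m) (Nat.sub_le _ _)]
      congr 1
      have := hαN m
      omega
    rw [e, Φ.mem_perp']
    intro y hy
    have h1 : ∀ y ∈ F (N - α m), Φ.fn ((t - 1) (b m)) y = 0 := by
      intro y hy
      rw [hb (N - α m)] at hy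
      have hle : Submodule.span K (b '' {l | α l < N - α m}) ≤
          LinearMap.ker (Φ.fn ((t - 1) (b m))) := by
        rw [Submodule.span_le]
        rintro _ ⟨l, hl, rfl⟩
        rw [SetLike.mem_coe, LinearMap.mem_ker, Φ.fn_apply, LinearMap.sub_apply,
          End.one_apply, Φ.sub_right, ht]
        simp only [d]
        by_cases h : α l + α m + 1 = N
        · rw [if_pos h, sub_self]
        · rw [if_neg h, zero_sub, neg_eq_zero]
          have hl' : α l < N - α m := hl
          have h2 : b l ∈ F (N - (α m + 1)) := hb.self_mem_iff.mpr (by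
            show α l < _
            omega)
          rw [← hF (α m + 1) (hαN m)] at h2
          exact h2 (b m) (hb.self_mem_iff.mpr (Nat.lt_succ_self _))
      exact hle hy
    exact h1 y hy
  -- the square root
  have hs : oneAdd _ ht1 ∈ VF F := oneAdd_mem _ ht1
  have hst : toEnd (oneAdd _ ht1) = t := by rw [toEnd_oneAdd, add_sub_cancel]
  obtain ⟨r, hr, hradj, hrH⟩ := Φ.exists_sqrt hK hs (by rw [hst]; exact hadj)
  have hrV := hrH _ hs
  have hrr : toEnd r * toEnd r = t := by rw [← toEnd_mul, hr, hst]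
  refine ⟨Idx F F N N, inferInstance, b.map r.1, α, ?_, ?_⟩
  · intro i
    have h1 : mapF r.1 F i = F i := by rw [mapF_eq_of_mem (VF_le_PF F hrV)]
    rw [← h1, mapF_apply, hb i, Submodule.map_span, ← Set.image_comp]
    congr 1
  · intro l m hlm
    rw [Basis.map_apply, Basis.map_apply]
    change Φ.B (toEnd r (b l)) (toEnd r (b m)) = 0
    rw [Φ.adj_right, hradj, ← End.mul_apply, hrr, ht]
    simp only [d]
    rw [if_neg hlm]

lemma finrank_perp (W : Submodule K E) :
    finrank K (Φ.perp W) = finrank K W.dualAnnihilator := by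
  have hfin : Finite E := Module.finite_of_finite K
  have e : Φ.perp W ≃ W.dualAnnihilator := by
    refine Equiv.ofBijective (fun u => ⟨Φ.fn u.1, ?_⟩) ⟨?_, ?_⟩
    · rw [Submodule.mem_dualAnnihilator]
      intro w hw
      exact (Φ.mem_perp'.mp u.2) w hw
    · intro u v huv
      apply Subtype.ext
      apply Φ.eq_of_right
      intro x
      have h1 := congrArg Subtype.val huv
      exact congrArg (fun f : E →ₗ[K] K => f x) h1
    · rintro ⟨φ, hφ⟩
      obtain ⟨u, hu⟩ := Φ.exists_riesz φ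
      refine ⟨⟨u, ?_⟩, ?_⟩
      · rw [Φ.mem_perp']
        intro w hw
        rw [← hu]
        exact (Submodule.mem_dualAnnihilator φ).mp hφ w hw
      · apply Subtype.ext
        ext x
        exact (hu x).symm
  have h1 := Nat.card_congr e
  rw [Module.natCard_eq_pow_finrank (K := K) (V := Φ.perp W),
    Module.natCard_eq_pow_finrank (K := K) (V := W.dualAnnihilator)] at h1
  exact Nat.pow_right_injective (Finite.one_lt_card_iff_nontrivial.mpr inferInstance) h1

lemma finrank_add_finrank_perp (W : Submodule K E) :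
    finrank K W + finrank K (Φ.perp W) = finrank K E := by
  rw [Φ.finrank_perp, Subspace.finrank_add_finrank_dualAnnihilator_eq]

omit [FiniteDimensional K E] [Finite K] in
lemma finrank_eq_card {ι : Type*} [Fintype ι] {b : Basis ι K E} {α : ι → ℕ} {F : Flag K E}
    (hb : Adapted b α F) (i : ℕ) :
    finrank K (F i) = (Finset.univ.filter fun l => α l < i).card := by
  classical
  rw [hb i]
  have h1 : LinearIndependent K (fun l : {l // α l < i} => b l) :=
    b.linearIndependent.comp _ Subtype.val_injective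
  have h2 : b '' {l | α l < i} = Set.range (fun l : {l // α l < i} => b l) := by
    ext x
    constructor
    · rintro ⟨l, hl, rfl⟩
      exact ⟨⟨l, hl⟩, rfl⟩
    · rintro ⟨⟨l, hl⟩, rfl⟩
      exact ⟨l, hl, rfl⟩
  rw [h2, finrank_span_eq_card h1, Fintype.card_subtype]

/-- The dual levels have the same number of basis vectors. -/
lemma card_level {ι : Type*} [Fintype ι] {b : Basis ι K E} {α : ι → ℕ} {F : Flag K E}
    (hb : Adapted b α F) {N : ℕ} (hF : ∀ i ≤ N, Φ.perp (F i) = F (N - i)) {i : ℕ} (hi : i < N) :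
    (Finset.univ.filter fun l => α l = N - 1 - i).card =
      (Finset.univ.filter fun l => α l = i).card := by
  classical
  have hstep : ∀ j, finrank K (F (j + 1)) = finrank K (F j) +
      (Finset.univ.filter fun l => α l = j).card := by
    intro j
    rw [finrank_eq_card hb, finrank_eq_card hb, ← Finset.card_union_of_disjoint]
    · congr 1
      ext l
      simp only [Finset.mem_union, Finset.mem_filter, Finset.mem_univ, true_and]
      omega
    · rw [Finset.disjoint_filter]
      intro l _ h1 h2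
      omega
  have h1 := hstep i
  have h2 := hstep (N - 1 - i)
  have h3 := Φ.finrank_add_finrank_perp (F i)
  have h4 := Φ.finrank_add_finrank_perp (F (i + 1))
  rw [hF i hi.le] at h3
  rw [hF (i + 1) hi] at h4
  have e1 : N - 1 - i + 1 = N - i := by omega
  have e2 : N - 1 - i = N - (i + 1) := by omega
  rw [e1] at h2
  rw [e2] at h2 ⊢
  omega

/-- The determinant of a diagonal isometry. -/
lemma prod_eq_one {ι : Type*} [Fintype ι] {b : Basis ι K E} {α : ι → ℕ} {F : Flag K E}
    (hb : Adapted b α F) {N : ℕ} (hN : F N = ⊤) (hF : ∀ i ≤ N, Φ.perp (F i) = F (N - i))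
    {p : ℕ} (hp2 : Odd p) (c : ℕ → K) (hc : ∀ i, c i ^ p = 1)
    (hcc : ∀ i < N, c i * c (N - 1 - i) = 1) : ∏ l, c (α l) = 1 := by
  classical
  have hα : ∀ l, α l < N := fun l => hb.self_mem_iff.mp (by rw [hN]; trivial)
  have h1 : ∏ l, c (α l) = ∏ i ∈ Finset.range N,
      c i ^ (Finset.univ.filter fun l => α l = i).card := by
    rw [← Finset.prod_fiberwise_of_maps_to (s := Finset.univ) (t := Finset.range N) (g := α)
      (fun l _ => Finset.mem_range.mpr (hα l))]
    refine Finset.prod_congr rfl fun i _ => ?_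
    rw [Finset.prod_congr rfl (g := fun _ => c i), Finset.prod_const]
    intro l hl
    rw [(Finset.mem_filter.mp hl).2]
  have h2 : ∏ l, c (α l) = ∏ i ∈ Finset.range N,
      c (N - 1 - i) ^ (Finset.univ.filter fun l => α l = i).card := by
    rw [h1, ← Finset.prod_range_reflect]
    refine Finset.prod_congr rfl fun i hi => ?_
    rw [Φ.card_level hb hF (Finset.mem_range.mp hi)]
  have h3 : (∏ l, c (α l)) ^ 2 = 1 := by
    rw [sq]
    nth_rewrite 1 [h1]
    rw [h2, ← Finset.prod_mul_distrib]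
    apply Finset.prod_eq_one
    intro i hi
    rw [← mul_pow, hcc i (Finset.mem_range.mp hi), one_pow]
  have h4 : (∏ l, c (α l)) ^ p = 1 := by
    rw [← Finset.prod_pow]
    apply Finset.prod_eq_one
    intro l _
    exact hc _
  obtain ⟨k, hk⟩ := hp2
  rw [hk, pow_succ, pow_mul, h3, one_pow, one_mul] at h4
  exact h4

omit [FiniteDimensional K E] [Finite K] in
lemma exists_char {p : ℕ} (hp2 : Odd p) {ζ : K} (hζ : ζ ^ p = 1) (hζ1 : ζ ≠ 1)
    (hζθ : Φ.θ ζ = ζ) {N i i' : ℕ} (hi : i < N) (hi' : i' < N) (hne : i ≠ i') :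
    ∃ c : ℕ → K, (∀ j, c j ^ p = 1) ∧ (∀ j, Φ.θ (c j) = c j) ∧
      (∀ j < N, c j * c (N - 1 - j) = 1) ∧ c i ≠ c i' := by
  have hp0 : p ≠ 0 := by
    rintro rfl
    simp at hp2
  have hζ0 : ζ ≠ 0 := by
    rintro rfl
    rw [zero_pow hp0] at hζ
    exact zero_ne_one hζ
  have hζ2 : ζ⁻¹ ≠ ζ := by
    intro h
    have h2 : ζ ^ 2 = 1 := by
      rw [sq]
      nth_rewrite 1 [← h]
      exact inv_mul_cancel₀ hζ0
    obtain ⟨k, hk⟩ := hp2
    rw [hk, pow_succ, pow_mul, h2, one_pow, one_mul] at hζ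
    exact hζ1 hζ
  have hζi1 : ζ⁻¹ ≠ 1 := by
    intro h
    exact hζ1 (inv_eq_one.mp h)
  -- the function attached to a level which is not selfdual
  let c : ℕ → ℕ → K := fun a j => if j = a then ζ else if j = N - 1 - a then ζ⁻¹ else 1
  have hc1 : ∀ a j, c a j ^ p = 1 := by
    intro a j
    simp only [c]
    split_ifs
    · exact hζ
    · rw [inv_pow, hζ, inv_one]
    · exact one_pow p
  have hc2 : ∀ a j, Φ.θ (c a j) = c a j := by
    intro a j
    simp only [c]
    split_ifs
    · exact hζθ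
    · rw [map_inv₀, hζθ]
    · exact map_one _
  have hc3 : ∀ a < N, a ≠ N - 1 - a → ∀ j < N, c a j * c a (N - 1 - j) = 1 := by
    intro a ha haa j hj
    simp only [c]
    by_cases h1 : j = a
    · rw [if_pos h1, if_neg (by omega), if_pos (by omega), mul_inv_cancel₀ hζ0]
    · by_cases h2 : j = N - 1 - a
      · rw [if_neg h1, if_pos h2, if_pos (by omega), inv_mul_cancel₀ hζ0]
      · rw [if_neg h1, if_neg h2, if_neg (by omega), if_neg (by omega), one_mul]
  by_cases h : i = N - 1 - i
  · refine ⟨c i', hc1 i', hc2 i', hc3 i' hi' (by omega), ?_⟩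
    simp only [c]
    rw [if_neg hne, if_neg (by omega), if_true]
    exact hζ1.symm
  · refine ⟨c i, hc1 i, hc2 i, hc3 i hi h, ?_⟩
    simp only [c]
    rw [if_true, if_neg hne.symm]
    split_ifs
    · exact hζ2.symm
    · exact hζ1

/-- The centraliser of the diagonal isometries of order `p`. -/
theorem cent_Zd_iso {ι : Type*} [Fintype ι] {p : ℕ} [Fact p.Prime] (hp2 : Odd p)
    {b : Basis ι K E} {α : ι → ℕ} {F : Flag K E} (hb : Adapted b α F) {N : ℕ} (hN : F N = ⊤)
    (hF : ∀ i ≤ N, Φ.perp (F i) = F (N - i))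
    (hB : ∀ l m, α l + α m + 1 ≠ N → Φ.B (b l) (b m) = 0)
    {ζ : K} (hζ : ζ ^ p = 1) (hζ1 : ζ ≠ 1) (hζθ : Φ.θ ζ = ζ) (g : SpecialLinearGroup K E) :
    g ∈ Subgroup.centralizer ((Zd p b α ⊓ Φ.Iso : Subgroup (SpecialLinearGroup K E)) :
      Set (SpecialLinearGroup K E)) ↔ BD b α g := by
  classical
  rw [Subgroup.mem_centralizer_iff]
  constructor
  · intro h l m hm
    by_contra hne
    have hα : ∀ l, α l < N := fun l => hb.self_mem_iff.mp (by rw [hN]; trivial)
    obtain ⟨c, hc1, hc2, hc3, hc4⟩ := Φ.exists_char hp2 hζ hζ1 hζθ (hα m) (hα l) hne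
    obtain ⟨z, hz⟩ := exists_diag b (fun l => c (α l)) (Φ.prod_eq_one hb hN hF hp2 c hc1 hc3)
    have hzI : z ∈ Φ.Iso := by
      rw [Φ.mem_Iso_iff]
      apply Φ.ext_basis b
      intro l m
      rw [End.mul_apply, ← Φ.adj_right, End.one_apply, toEnd_apply, toEnd_apply, hz, hz,
        Φ.smul_left, Φ.smul_right, hc2]
      by_cases hlm : α l + α m + 1 = N
      · have e : α m = N - 1 - α l := by omega
        rw [e, ← mul_assoc, hc3 _ (hα l), one_mul]
      · rw [hB l m hlm, mul_zero, mul_zero]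
    have h2 := coeff_of_comm hz (h z ⟨⟨c, hc1, hz⟩, hzI⟩) l m hm
    exact hc4 h2
  · rintro hg z ⟨⟨c, hc, hz⟩, -⟩
    exact comm_of_BD (c := fun l => c (α l)) hg hz fun l m h => by simp only [h]

/-- Levi pairs of the special linear group give Levi pairs of the special isometry group. -/
theorem levi_iso (hK : Odd (Nat.card K))
    (hnorm : ∀ F : Flag K E, Φ.SD F → Subgroup.normalizer
      ((VF F ⊓ Φ.Iso : Subgroup (SpecialLinearGroup K E)) : Set (SpecialLinearGroup K E)) ⊓
        Φ.Iso ≤ PF F) {F : Flag K E} (hF : Φ.SD F)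
    {Z : Subgroup (SpecialLinearGroup K E)} (hZ : Z ≤ Φ.Iso) (hl : IsLeviPair (VF F) Z) :
    IsLeviPair ((VF F).subgroupOf Φ.Iso) (Z.subgroupOf Φ.Iso) := by
  have hcent : Subgroup.centralizer ((Z.subgroupOf Φ.Iso : Subgroup Φ.Iso) : Set Φ.Iso) =
      (Subgroup.centralizer (Z : Set (SpecialLinearGroup K E))).subgroupOf Φ.Iso := by
    ext x
    rw [Subgroup.mem_subgroupOf, Subgroup.mem_centralizer_iff, Subgroup.mem_centralizer_iff]
    constructor
    · intro h z hz
      exact congrArg Subtype.val (h ⟨z, hZ hz⟩ hz)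
    · intro h z hz
      exact Subtype.ext (h z.1 hz)
  obtain ⟨h1, h2⟩ := hl
  rw [normalizer_VF] at h2
  have hCP : Subgroup.centralizer (Z : Set (SpecialLinearGroup K E)) ≤ PF F :=
    h2 ▸ le_sup_right
  constructor
  · rw [hcent]
    apply Subgroup.map_injective Φ.Iso.subtype_injective
    rw [Subgroup.map_inf _ _ _ Φ.Iso.subtype_injective, map_subgroupOf_eq, map_subgroupOf_eq,
      Subgroup.map_bot, eq_bot_iff, ← h1]
    exact inf_le_inf inf_le_left inf_le_left
  · rw [hcent, normalizer_subgroupOf_eq (by rw [normalizer_VF]; exact hnorm F hF),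
      normalizer_VF]
    apply Subgroup.map_injective Φ.Iso.subtype_injective
    rw [Subgroup.map_sup, map_subgroupOf_eq, map_subgroupOf_eq, map_subgroupOf_eq, ← h2]
    apply le_antisymm
    · exact sup_le (inf_le_inf_right _ le_sup_left) (inf_le_inf_right _ le_sup_right)
    · apply Φ.exists_dec hK hF hCP
      intro h hh h' e
      rw [Subgroup.mem_centralizer_iff] at hh ⊢
      intro z hz
      apply toEnd_injective
      have h3 := congrArg (fun a : SpecialLinearGroup K E => Φ.adj (toEnd a))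
        (hh z⁻¹ (Z.inv_mem hz))
      have h4 : Φ.adj (toEnd z⁻¹) = toEnd z := by
        rw [Φ.toEnd_inv_of_mem (hZ hz), Φ.adj_adj]
      change Φ.adj (toEnd (z⁻¹ * h)) = Φ.adj (toEnd (h * z⁻¹)) at h3
      rw [toEnd_mul, toEnd_mul, Φ.adj_mul, Φ.adj_mul, h4, ← e] at h3
      rw [toEnd_mul, toEnd_mul]
      exact h3.symm

/-- The Levi property of the special isometry groups. -/
theorem hasLevi' {p : ℕ} (hp : p.Prime) (hKp : ¬ p ∣ Nat.card K) (hK : Odd (Nat.card K))
    (hnorm : ∀ F : Flag K E, Φ.SD F → Subgroup.normalizer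
      ((VF F ⊓ Φ.Iso : Subgroup (SpecialLinearGroup K E)) : Set (SpecialLinearGroup K E)) ⊓
        Φ.Iso ≤ PF F) (hp2 : Odd p)
    {ζ : K} (hζ : ζ ^ p = 1) (hζ1 : ζ ≠ 1) (hζθ : Φ.θ ζ = ζ) :
    (Φ.isoSys' p hp hKp hK hnorm).HasLevi := by
  have _ : Fact p.Prime := ⟨hp⟩
  rintro _ ⟨_, ⟨F, hF, rfl⟩, rfl⟩
  obtain ⟨N, h0, hN, hFN⟩ := hF
  obtain ⟨ι, _, b, α, hb, hB⟩ := Φ.exists_sd_basis hK hN hFN
  have hl := levi_pair hb (Φ.cent_Zd_iso hp2 hb hN hFN hB hζ hζ1 hζθ)
  refine ⟨(Zd p b α ⊓ Φ.Iso).subgroupOf Φ.Iso, ?_, ?_,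
    Φ.levi_iso hK hnorm ⟨N, h0, hN, hFN⟩ inf_le_right hl⟩
  · have h1 : IsPGroup p (Zd p b α ⊓ Φ.Iso : Subgroup (SpecialLinearGroup K E)) :=
      (Zd_isPGroup (p := p) (b := b) (α := α)).to_le inf_le_left
    rintro ⟨x, hx⟩
    obtain ⟨k, hk⟩ := h1 ⟨x.1, hx⟩
    refine ⟨k, ?_⟩
    have h2 : x.1 ^ p ^ k = 1 := congrArg Subtype.val hk
    apply Subtype.ext
    apply Subtype.ext
    exact h2
  · intro x hx y hy
    apply Subtype.ext
    exact Zd_comm (p := p) x.1 hx.1 y.1 hy.1

end HForm

end Vale.Agent.P180.R2.H854
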