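import Vale.Agent.P180.R2.H854.FormDec

/-!
P180: Siegel transformations, and the members of a self-dual flag in terms of the isometries in
its unipotent radical.
-/

namespace Vale.Agent.P180.R2.H854

open Module

lemma two_ne_zero_of_odd {K : Type*} [Field K] [Finite K] (hK : Odd (Nat.card K)) :
    (2 : K) ≠ 0 := by
  classical
  have := Fintype.ofFinite K
  apply Ring.two_ne_zero
  intro h
  have h1 := FiniteField.even_card_iff_char_two.mp h
  rw [Nat.card_eq_fintype_card, Nat.odd_iff] at hK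
  omega

namespace HForm

variable {K E : Type*} [Field K] [AddCommGroup E] [Module K E] (Φ : HForm K E)

/-- The skew-adjoint map `x ↦ B(x, u) w - θ(ε) B(x, w) u`. -/
def sg (u w : E) : End K E := (Φ.fn u).smulRight w - (Φ.θ Φ.ε) • (Φ.fn w).smulRight u

lemma sg_apply (u w x : E) :
    Φ.sg u w x = Φ.B x u • w - (Φ.θ Φ.ε * Φ.B x w) • u := by
  simp [sg, smul_smul]

lemma sg_w {u w : E} (hww : Φ.B w w = 0) (hwu : Φ.B w u = 0) : Φ.sg u w w = 0 := by
  rw [sg_apply, hww, hwu]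
  simp

lemma sg_u {u w : E} (hwu : Φ.B w u = 0) : Φ.sg u w u = Φ.B u u • w := by
  rw [sg_apply, Φ.eq_zero_comm hwu]
  simp

lemma sg_sg {u w : E} (hww : Φ.B w w = 0) (hwu : Φ.B w u = 0) (x : E) :
    Φ.sg u w (Φ.sg u w x) = -(Φ.θ Φ.ε * Φ.B x w * Φ.B u u) • w := by
  rw [Φ.sg_apply u w x, map_sub, map_smul, map_smul, Φ.sg_w hww hwu, Φ.sg_u hwu, smul_zero,
    zero_sub, smul_smul, neg_smul]

lemma sg_cube {u w : E} (hww : Φ.B w w = 0) (hwu : Φ.B w u = 0) :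
    Φ.sg u w * (Φ.sg u w * Φ.sg u w) = 0 := by
  ext x
  rw [End.mul_apply, End.mul_apply, Φ.sg_sg hww hwu x, map_smul, Φ.sg_w hww hwu, smul_zero]
  rfl

variable [FiniteDimensional K E] [Finite K]

lemma adj_sg (u w : E) : Φ.adj (Φ.sg u w) = -Φ.sg u w := by
  symm
  apply Φ.eq_adj
  intro x y
  rw [LinearMap.neg_apply, Φ.neg_right, sg_apply, sg_apply, Φ.sub_left, Φ.sub_right,
    Φ.smul_left, Φ.smul_left, Φ.smul_right, Φ.smul_right, map_mul, Φ.θθ, Φ.symm y w, Φ.symm y u]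
  have h : Φ.θ Φ.ε * Φ.ε = 1 := by rw [mul_comm]; exact Φ.εε
  linear_combination (-Φ.B x w * Φ.θ (Φ.B y u)) * h

omit [FiniteDimensional K E] [Finite K] in
/-- The member `F i` of a self-dual flag, if it is isotropic, gives elements of the radical. -/
lemma sg_mem {F : Flag K E} {N : ℕ} (hF : ∀ i ≤ N, Φ.perp (F i) = F (N - i)) {i : ℕ}
    (hi : i ≤ N) {u w : E} (hw : w ∈ F i)
    (hu : u ∈ Φ.perp (F i)) : Φ.sg u w ∈ Jr F := by
  intro k x hx
  rw [sg_apply]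
  apply (F k).sub_mem
  · rcases Nat.lt_or_ge k i with h | h
    · have h1 : Φ.B x u = 0 := (Φ.mem_perp'.mp hu) x (F.mono h hx)
      rw [h1, zero_smul]
      exact (F k).zero_mem
    · exact (F k).smul_mem _ (F.mono h hw)
  · rcases Nat.lt_or_ge k (N - i) with h | h
    · have h1 : x ∈ Φ.perp (F i) := by
        rw [hF i hi]
        exact F.mono h hx
      rw [h1 w hw, mul_zero, zero_smul]
      exact (F k).zero_mem
    · rw [hF i hi] at hu
      exact (F k).smul_mem _ (F.mono h hu)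

/-- Siegel transformations. -/
theorem exists_siegel {F : Flag K E} {N : ℕ} (hF : ∀ i ≤ N, Φ.perp (F i) = F (N - i)) {i : ℕ}
    (hi : i ≤ N) (hiso : F i ≤ Φ.perp (F i)) {u w : E} (hw : w ∈ F i)
    (hu : u ∈ Φ.perp (F i)) :
    ∃ v ∈ VF F ⊓ Φ.Iso, ∀ y, v y - y = (2 : K) • (Φ.B y u • w - (Φ.θ Φ.ε * Φ.B y w) • u -
      (Φ.θ Φ.ε * Φ.B y w * Φ.B u u) • w) := by
  have hww : Φ.B w w = 0 := hiso hw w hw
  have hwu : Φ.B w u = 0 := (Φ.mem_perp'.mp hu) w hw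
  set n := Φ.sg u w with hn
  have hnJ : n ∈ Jr F := Φ.sg_mem hF hi hw hu
  have hm : (2 : K) • n + (2 : K) • (n * n) ∈ Jr F :=
    (Jr F).add_mem ((Jr F).smul_mem _ hnJ) ((Jr F).smul_mem _ (Jr_mul hnJ (Jr_le_Pa F hnJ)))
  have hcube : n * (n * n) = 0 := Φ.sg_cube hww hwu
  have hcube' : n * n * n = 0 := by rw [mul_assoc, hcube]
  refine ⟨oneAdd _ hm, ⟨oneAdd_mem _ hm, ?_⟩, ?_⟩
  · change oneAdd _ hm ∈ Φ.Iso
    rw [Φ.mem_Iso_iff, toEnd_oneAdd, Φ.adj_add, Φ.adj_one, Φ.adj_add, Φ.adj_smul, Φ.adj_smul,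
      Φ.adj_mul, Φ.adj_sg, ← hn]
    have h2 : Φ.θ 2 = 2 := map_ofNat Φ.θ 2
    rw [h2]
    have e : (1 + ((2 : K) • -n + (2 : K) • (-n * -n))) * (1 + ((2 : K) • n + (2 : K) • (n * n))) =
        1 + (4 : K) • (n * (n * n) * n) := by
      simp only [mul_add, add_mul, one_mul, mul_one, smul_neg, neg_mul, mul_neg, neg_neg,
        smul_mul_assoc, mul_smul_comm, mul_assoc]
      module
    rw [e, hcube, zero_mul, smul_zero, add_zero]
  · intro y
    change (1 + ((2 : K) • n + (2 : K) • (n * n))) y - y = _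
    rw [LinearMap.add_apply, End.one_apply, add_sub_cancel_left, LinearMap.add_apply,
      LinearMap.smul_apply, LinearMap.smul_apply, End.mul_apply, hn, Φ.sg_sg hww hwu,
      Φ.sg_apply, ← smul_add, neg_smul, ← sub_eq_add_neg]

/-- The basic data obtained from an inclusion of the isometries of unipotent radicals. -/
theorem exists_level_data (hK : Odd (Nat.card K)) {F F2 : Flag K E} {N : ℕ}
    (hF : ∀ i ≤ N, Φ.perp (F i) = F (N - i)) (hle : VF F ⊓ Φ.Iso ≤ VF F2) {i : ℕ}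
    (hi : i ≤ N) (hiso : F i ≤ Φ.perp (F i)) (hmem : F i ∉ F2.mem) :
    ∃ j, F i ≤ F2 (j + 1) ∧ ¬ F i ≤ F2 j ∧ ∀ y ∈ F2 (j + 1), y ∉ F i →
      (∀ w ∈ F i, ∀ u ∈ Φ.perp (F i), Φ.B y u • w - (Φ.θ Φ.ε * Φ.B y w) • u -
        (Φ.θ Φ.ε * Φ.B y w * Φ.B u u) • w ∈ F2 j) ∧
      (∀ w ∈ F i, Φ.B y w = 0 → w ∈ F2 j) := by
  classical
  have h20 := two_ne_zero_of_odd hK
  have h0 : F i ≠ ⊥ := by
    intro h
    exact hmem ⟨0, by rw [F2.zero, h]⟩
  obtain ⟨N2, hN2⟩ := F2.top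
  have hex : ∃ k, F i ≤ F2 k := ⟨N2, by rw [hN2]; exact le_top⟩
  have hk := Nat.find_spec hex
  have hpos : 0 < Nat.find hex := by
    rw [Nat.pos_iff_ne_zero]
    intro h
    rw [h, F2.zero, le_bot_iff] at hk
    exact h0 hk
  obtain ⟨j, hj⟩ := Nat.exists_eq_succ_of_ne_zero hpos.ne'
  have hmin : ¬ F i ≤ F2 j := Nat.find_min hex (by omega)
  rw [hj] at hk
  refine ⟨j, hk, hmin, ?_⟩
  intro y hy hyi
  have key : ∀ w ∈ F i, ∀ u ∈ Φ.perp (F i), Φ.B y u • w - (Φ.θ Φ.ε * Φ.B y w) • u -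
        (Φ.θ Φ.ε * Φ.B y w * Φ.B u u) • w ∈ F2 j := by
    intro w hw u hu
    obtain ⟨v, hv, hve⟩ := Φ.exists_siegel hF hi hiso hw hu
    have h1 := hle hv j y hy
    rw [hve] at h1
    have h2 := (F2 j).smul_mem (2 : K)⁻¹ h1
    rwa [smul_smul, inv_mul_cancel₀ h20, one_smul] at h2
  refine ⟨key, ?_⟩
  intro w hw hyw
  -- a vector `u0` orthogonal to `F i` and not to `y`
  have h1 : y ∉ Φ.perp (Φ.perp (F i)) := by rwa [Φ.perp_perp]
  have h2 : ∃ u ∈ Φ.perp (F i), Φ.B y u ≠ 0 := by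
    by_contra hc
    push Not at hc
    exact h1 hc
  obtain ⟨u, hu, hyu⟩ := h2
  have h3 := key w hw u hu
  rw [hyw, mul_zero, zero_smul, sub_zero, zero_mul, zero_smul, sub_zero] at h3
  have h4 := (F2 j).smul_mem (Φ.B y u)⁻¹ h3
  rwa [smul_smul, inv_mul_cancel₀ hyu, one_smul] at h4

/-- The non-orthogonal case: members of the flag. -/
theorem mem_of_isotropic (hK : Odd (Nat.card K)) (hne : ∃ c, Φ.θ c ≠ Φ.θ Φ.ε * c)
    {F F2 : Flag K E} {N : ℕ}
    (hF : ∀ i ≤ N, Φ.perp (F i) = F (N - i)) (hle : VF F ⊓ Φ.Iso ≤ VF F2) {i : ℕ}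
    (hi : i ≤ N) (hiso : F i ≤ Φ.perp (F i)) : F i ∈ F2.mem := by
  by_contra hmem
  obtain ⟨j, hj1, hj2, hdata⟩ := Φ.exists_level_data hK hF hle hi hiso hmem
  have h1 : ¬ F2 (j + 1) ≤ F i := fun h => hmem ⟨j + 1, le_antisymm h hj1⟩
  obtain ⟨y, hy, hyi⟩ := SetLike.not_le_iff_exists.mp h1
  obtain ⟨key, hw0⟩ := hdata y hy hyi
  obtain ⟨w, hw, hwj⟩ := SetLike.not_le_iff_exists.mp hj2
  have hyw : Φ.B y w ≠ 0 := fun h => hwj (hw0 w hw h)
  obtain ⟨c, hc⟩ := hne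
  have h2 := key w hw (c • w) (hiso ((F i).smul_mem c hw))
  have hww : Φ.B w w = 0 := hiso hw w hw
  rw [Φ.smul_right, Φ.smul_left, Φ.smul_right, hww, mul_zero, mul_zero, mul_zero, zero_smul,
    sub_zero, smul_smul, ← sub_smul] at h2
  have h3 : Φ.θ c * Φ.B y w - Φ.θ Φ.ε * Φ.B y w * c ≠ 0 := by
    have : Φ.θ c * Φ.B y w - Φ.θ Φ.ε * Φ.B y w * c = (Φ.θ c - Φ.θ Φ.ε * c) * Φ.B y w := by ring
    rw [this]
    exact mul_ne_zero (sub_ne_zero.mpr hc) hyw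
  have h4 := (F2 j).smul_mem (Φ.θ c * Φ.B y w - Φ.θ Φ.ε * Φ.B y w * c)⁻¹ h2
  rw [smul_smul, inv_mul_cancel₀ h3, one_smul] at h4
  exact hwj h4

/-- From isotropic members to all members. -/
lemma mem_of_forall_isotropic {F F2 : Flag K E} (hF : Φ.SD F) (hF2 : Φ.SD F2)
    (h : ∀ N, (∀ i ≤ N, Φ.perp (F i) = F (N - i)) → ∀ i ≤ N, F i ≤ Φ.perp (F i) →
      F i ∈ F2.mem) : F.mem ⊆ F2.mem := by
  obtain ⟨N, h0, hN, hF⟩ := hF
  obtain ⟨N2, h02, hN2, hF2⟩ := hF2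
  have h1 := h N hF
  rintro _ ⟨i, rfl⟩
  rcases Nat.lt_or_ge N i with hi | hi
  · refine ⟨N2, ?_⟩
    rw [hN2]
    exact (F.top_of_le hN hi.le).symm
  · rcases le_total i (N - i) with h2 | h2
    · refine h1 i hi ?_
      rw [hF i hi]
      exact F.mono h2
    · have h2 := F.mono h2
      have h3 : F (N - i) ≤ Φ.perp (F (N - i)) := by
        rw [hF (N - i) (Nat.sub_le _ _)]
        have : N - (N - i) = i := by omega
        rwa [this]
      obtain ⟨k, hk⟩ := h1 (N - i) (Nat.sub_le _ _) h3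
      have hk' : F2 k = F (N - i) := hk
      have h4 : Φ.perp (F2 k) = F i := by
        rw [hk', hF (N - i) (Nat.sub_le _ _)]
        have : N - (N - i) = i := by omega
        rw [this]
      rcases Nat.lt_or_ge N2 k with h5 | h5
      · rw [F2.top_of_le hN2 h5.le, Φ.perp_top] at h4
        exact ⟨0, by rw [F2.zero]; exact h4⟩
      · rw [hF2 k h5] at h4
        exact ⟨_, h4⟩

omit [Finite K] in
lemma le_mapF_of_normalizer {F : Flag K E} {x : SpecialLinearGroup K E}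
    (hx : x ∈ Subgroup.normalizer
      ((VF F ⊓ Φ.Iso : Subgroup (SpecialLinearGroup K E)) : Set (SpecialLinearGroup K E))) :
    VF F ⊓ Φ.Iso ≤ VF (mapF x.1 F) := by
  intro v hv
  have h1 := (Subgroup.mem_normalizer_iff.mp (inv_mem hx) v).mp hv
  have h2 := conj_mem_VF (g := x) h1.1
  have e : x * (x⁻¹ * v * x⁻¹⁻¹) * x⁻¹ = v := by group
  rwa [e] at h2

omit [Finite K] in
lemma mem_PF_of_mem_subset {F : Flag K E} {x : SpecialLinearGroup K E}
    (h : F.mem ⊆ (mapF x.1 F).mem) : x ∈ PF F := by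
  intro i y hy
  obtain ⟨k, hk⟩ := h ⟨i, rfl⟩
  have hk' : mapF x.1 F k = F i := hk
  have h1 : finrank K (F k) = finrank K (F i) := by
    rw [← hk', mapF_apply]
    exact (LinearEquiv.finrank_map_eq x.1 (F k)).symm
  have h2 : F k = F i := finrank_injOn F ⟨k, rfl⟩ ⟨i, rfl⟩ h1
  have h3 : x y ∈ mapF x.1 F k := by
    rw [mem_mapF, inv_apply_self', h2]
    exact hy
  rwa [hk'] at h3

/-- The normaliser condition in the symplectic and unitary cases. -/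
theorem normalizer_le (hK : Odd (Nat.card K)) (hne : ∃ c, Φ.θ c ≠ Φ.θ Φ.ε * c)
    (F : Flag K E) (hF : Φ.SD F) : Subgroup.normalizer
      ((VF F ⊓ Φ.Iso : Subgroup (SpecialLinearGroup K E)) : Set (SpecialLinearGroup K E)) ⊓
        Φ.Iso ≤ PF F := by
  rintro x ⟨hx, hxI⟩
  apply mem_PF_of_mem_subset
  have hle := Φ.le_mapF_of_normalizer hx
  apply Φ.mem_of_forall_isotropic hF (Φ.SD_mapF hF hxI)
  intro N hN i hi hiso
  exact Φ.mem_of_isotropic hK hne hN hle hi hiso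

/-- The parabolic system of the special isometry group of a symplectic or unitary form over a
finite field of odd order. -/
noncomputable def isoSys (p : ℕ) (hp : p.Prime) (hKp : ¬ p ∣ Nat.card K)
    (hK : Odd (Nat.card K)) (hne : ∃ c, Φ.θ c ≠ Φ.θ Φ.ε * c) : H799.ParSys p Φ.Iso :=
  Φ.isoSys' p hp hKp hK (Φ.normalizer_le hK hne)

end HForm

end Vale.Agent.P180.R2.H854
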