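import Vale.Agent.P180.R2.H854.FormX

/-!
P180: the normaliser condition in the orthogonal case.
-/

namespace Vale.Agent.P180.R2.H854

open Module Vale.Agent.P180.R2.H799 Vale.Agent.P180.R2.H799.BN

namespace HForm

variable {K E : Type*} [Field K] [AddCommGroup E] [Module K E] (Φ : HForm K E)
  [FiniteDimensional K E] [Finite K]

/-- An isometry of a symmetric form stabilising a Lagrangian subspace has determinant one. -/
theorem det_eq_one_of_lagrangian (hθ : ∀ c, Φ.θ c = c) {A : Submodule K E}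
    (hA : Φ.perp A = A) {g : End K E} (hg : ∀ x y, Φ.B (g x) (g y) = Φ.B x y)
    (hgA : A ≤ A.comap g) : LinearMap.det g = 1 := by
  have hdim : finrank K (E ⧸ A) = finrank K (Dual K A) := by
    have h1 := Φ.finrank_add_finrank_perp A
    rw [hA] at h1
    have h2 := A.finrank_quotient_add_finrank
    rw [Subspace.dual_finrank_eq]
    omega
  -- the pairing
  let ψ0 : E →ₗ[K] Dual K A :=
    { toFun := fun v => (Φ.fn v).domRestrict A
      map_add' := by
        intro v w
        ext a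
        exact Φ.add_right a v w
      map_smul' := by
        intro c v
        ext a
        change Φ.B a (c • v) = c * Φ.B a v
        rw [Φ.smul_right, hθ] }
  have hψ0 : ∀ v (a : A), ψ0 v a = Φ.B a v := fun _ _ => rfl
  have hker : A ≤ LinearMap.ker ψ0 := by
    intro v hv
    rw [LinearMap.mem_ker]
    ext a
    rw [hψ0]
    have h1 : v ∈ Φ.perp A := by rw [hA]; exact hv
    exact (Φ.mem_perp'.mp h1) a a.2
  let ψ1 : E ⧸ A →ₗ[K] Dual K A := A.liftQ ψ0 hker
  have hinj : Function.Injective ψ1 := by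
    rw [← LinearMap.ker_eq_bot, LinearMap.ker_eq_bot']
    intro q hq
    induction q using Submodule.Quotient.induction_on with
    | _ v =>
      rw [Submodule.Quotient.mk_eq_zero, ← hA, Φ.mem_perp']
      intro a ha
      exact congrArg (fun f : Dual K A => f ⟨a, ha⟩) hq
  let ψ : (E ⧸ A) ≃ₗ[K] Dual K A := ψ1.linearEquivOfInjective hinj hdim
  have hψ : ∀ v (a : A), ψ (Submodule.Quotient.mk v) a = Φ.B a v := fun _ _ => rfl
  set gA : A →ₗ[K] A := g.restrict hgA with hgAdef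
  set gQ : (E ⧸ A) →ₗ[K] (E ⧸ A) := A.mapQ A g hgA with hgQdef
  have hcomp : gA.dualMap ∘ₗ (ψ : (E ⧸ A) →ₗ[K] Dual K A) ∘ₗ gQ =
      (ψ : (E ⧸ A) →ₗ[K] Dual K A) := by
    ext v a
    change ψ (Submodule.Quotient.mk (g v)) (gA a) = ψ (Submodule.Quotient.mk v) a
    rw [hψ, hψ]
    exact hg a v
  have h1 : ((ψ.symm : Dual K A →ₗ[K] (E ⧸ A)) ∘ₗ gA.dualMap ∘ₗ (ψ : (E ⧸ A) →ₗ[K] Dual K A)) ∘ₗ
      gQ = LinearMap.id := by
    ext v
    have h2 := congrArg (fun f : (E ⧸ A) →ₗ[K] Dual K A => ψ.symm (f (Submodule.Quotient.mk v)))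
      hcomp
    exact h2.trans (ψ.symm_apply_apply _)
  have h3 : LinearMap.det ((ψ.symm : Dual K A →ₗ[K] (E ⧸ A)) ∘ₗ gA.dualMap ∘ₗ
      (ψ : (E ⧸ A) →ₗ[K] Dual K A)) = LinearMap.det gA := by
    rw [← LinearMap.det_dualMap gA]
    exact LinearMap.det_conj gA.dualMap ψ.symm
  have h4 := congrArg LinearMap.det h1
  rw [LinearMap.det_comp, h3, LinearMap.det_id] at h4
  rw [LinearMap.det_eq_det_mul_det A g hgA]
  exact h4

/-- An element of the special orthogonal group stabilising a hyperplane of a Lagrangian subspace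
stabilises the Lagrangian subspace. -/
theorem map_lagrangian (hK : Odd (Nat.card K)) (hθ : ∀ c, Φ.θ c = c) (hε : Φ.ε = 1)
    {A T : Submodule K E} (hA : Φ.perp A = A) (hTA : T ≤ A)
    (hT : finrank K A ≤ finrank K T + 1) {x : SpecialLinearGroup K E} (hx : x ∈ Φ.Iso)
    (hxT : ∀ t ∈ T, x t ∈ T) : ∀ a ∈ A, x a ∈ A := by
  have h20 := two_ne_zero_of_odd hK
  have hcomm : ∀ v w, Φ.B v w = Φ.B w v := by
    intro v w
    rw [Φ.symm w v, hε, hθ, one_mul]
  have hAiso : ∀ v ∈ A, ∀ w ∈ A, Φ.B v w = 0 := by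
    intro v hv w hw
    rw [← hA] at hv
    exact hv w hw
  set A2 : Submodule K E := A.map (toEnd x) with hA2
  have hfin : finrank K A2 = finrank K A := LinearEquiv.finrank_map_eq x.1 A
  by_cases hcase : A2 ≤ A
  · intro a ha
    exact hcase ⟨a, ha, rfl⟩
  exfalso
  have hA2iso : ∀ v ∈ A2, ∀ w ∈ A2, Φ.B v w = 0 := by
    rintro _ ⟨v, hv, rfl⟩ _ ⟨w, hw, rfl⟩
    exact (hx v w).trans (hAiso v hv w hw)
  have hTA2 : T ≤ A2 := by
    intro t ht
    have h1 := inv_mem_of_forall hxT t ht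
    exact ⟨x⁻¹ t, hTA h1, apply_inv_self' x t⟩
  have hcase' : ¬ A ≤ A2 := by
    intro h
    exact hcase (Submodule.eq_of_le_of_finrank_eq h hfin.symm).ge
  obtain ⟨e, heA, heA2⟩ := SetLike.not_le_iff_exists.mp hcase'
  obtain ⟨f0, hf0A2, hf0A⟩ := SetLike.not_le_iff_exists.mp hcase
  have hspan : ∀ (B : Submodule K E) (v : E), T ≤ B → v ∈ B → v ∉ T →
      finrank K B ≤ finrank K T + 1 → T ⊔ Submodule.span K {v} = B := by
    intro B v hTB hvB hvT hfB
    apply Submodule.eq_of_le_of_finrank_le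
    · exact sup_le hTB ((Submodule.span_singleton_le_iff_mem v B).mpr hvB)
    · have h1 : T < T ⊔ Submodule.span K {v} := by
        refine lt_of_le_of_ne le_sup_left fun h => hvT ?_
        rw [h]
        exact Submodule.mem_sup_right (Submodule.mem_span_singleton_self v)
      have h2 := Submodule.finrank_lt_finrank_of_lt h1
      omega
  have heT : e ∉ T := fun h => heA2 (hTA2 h)
  have hf0T : f0 ∉ T := fun h => hf0A (hTA h)
  have hAe := hspan A e hTA heA heT hT
  have hA2f := hspan A2 f0 hTA2 hf0A2 hf0T (by rw [hfin]; exact hT)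
  have hef0 : Φ.B e f0 ≠ 0 := by
    intro h0
    apply hf0A
    rw [← hA, Φ.mem_perp']
    intro a ha
    rw [← hAe] at ha
    obtain ⟨t, ht, s, hs, rfl⟩ := Submodule.mem_sup.mp ha
    obtain ⟨c, rfl⟩ := Submodule.mem_span_singleton.mp hs
    rw [Φ.add_left, Φ.smul_left, h0, mul_zero, add_zero]
    exact hA2iso t (hTA2 ht) f0 hf0A2
  set f := (Φ.B e f0)⁻¹ • f0 with hf
  have hfA2 : f ∈ A2 := A2.smul_mem _ hf0A2
  have hef : Φ.B e f = 1 := by
    rw [hf, Φ.smul_right, hθ, inv_mul_cancel₀ hef0]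
  have hfT : f ∉ T := by
    intro h
    apply hf0T
    have := T.smul_mem (Φ.B e f0) h
    rwa [hf, smul_smul, mul_inv_cancel₀ hef0, one_smul] at this
  have hA2f' := hspan A2 f hTA2 hfA2 hfT (by rw [hfin]; exact hT)
  set d := e - f with hd
  have hee : Φ.B e e = 0 := hAiso e heA e heA
  have hff : Φ.B f f = 0 := hA2iso f hfA2 f hfA2
  have hfe : Φ.B f e = 1 := by rw [hcomm, hef]
  have hfd : Φ.B f d = 1 := by rw [hd, Φ.sub_right, hfe, hff, sub_zero]
  have hdd : Φ.B d d = -2 := by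
    rw [hd, Φ.sub_left, Φ.sub_right, Φ.sub_right, hee, hff, hef, hfe]
    ring
  have htd : ∀ t ∈ T, Φ.B t d = 0 := by
    intro t ht
    rw [hd, Φ.sub_right, hAiso t (hTA ht) e heA, hA2iso t (hTA2 ht) f hfA2, sub_zero]
  set s : End K E := LinearMap.transvection (Φ.fn d) d with hs
  have hsv : ∀ v, s v = v + Φ.B v d • d := fun _ => rfl
  have hsdet : LinearMap.det s = -1 := by
    rw [hs, LinearMap.transvection.det, Φ.fn_apply, hdd]
    ring
  have hsiso : ∀ v w, Φ.B (s v) (s w) = Φ.B v w := by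
    intro v w
    rw [hsv, hsv, Φ.add_left, Φ.add_right, Φ.add_right, Φ.smul_left, Φ.smul_left, Φ.smul_right,
      Φ.smul_right, hθ, hdd, hcomm d w]
    ring
  have hsA2 : ∀ v ∈ A2, s v ∈ A := by
    intro v hv
    rw [← hA2f'] at hv
    obtain ⟨t, ht, u, hu, rfl⟩ := Submodule.mem_sup.mp hv
    obtain ⟨c, rfl⟩ := Submodule.mem_span_singleton.mp hu
    rw [map_add, map_smul, hsv t, htd t ht, zero_smul, add_zero, hsv f, hfd, one_smul]
    refine A.add_mem (hTA ht) (A.smul_mem _ ?_)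
    rw [hd, add_sub_cancel]
    exact heA
  have hfinal := Φ.det_eq_one_of_lagrangian hθ hA (g := s * toEnd x)
    (fun v w => (hsiso _ _).trans (hx v w)) (fun a ha => hsA2 _ ⟨a, ha, rfl⟩)
  have h5 : LinearMap.det (s * toEnd x) = LinearMap.det s * LinearMap.det (toEnd x) :=
    map_mul LinearMap.det s (toEnd x)
  have h6 : LinearMap.det (toEnd x) = 1 := SpecialLinearGroup.det_eq_one x
  rw [h5, h6, hsdet, mul_one] at hfinal
  apply h20
  linear_combination -hfinal

/-- The orthogonal case: isotropic members of the flag which are not Lagrangian. -/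
theorem lagrangian_of_not_mem (hK : Odd (Nat.card K)) (hθ : ∀ c, Φ.θ c = c) (hε : Φ.ε = 1)
    {F F2 : Flag K E} {N : ℕ}
    (hF : ∀ i ≤ N, Φ.perp (F i) = F (N - i)) (hle : VF F ⊓ Φ.Iso ≤ VF F2) {i : ℕ}
    (hi : i ≤ N) (hiso : F i ≤ Φ.perp (F i)) (hmem : F i ∉ F2.mem) : Φ.perp (F i) = F i := by
  have h20 := two_ne_zero_of_odd hK
  have hcomm : ∀ v w, Φ.B v w = Φ.B w v := by
    intro v w
    rw [Φ.symm w v, hε, hθ, one_mul]
  have hθε : Φ.θ Φ.ε = 1 := by rw [hθ, hε]
  obtain ⟨j, hj1, hj2, hdata⟩ := Φ.exists_level_data hK hF hle hi hiso hmem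
  have h1 : ¬ F2 (j + 1) ≤ F i := fun h => hmem ⟨j + 1, le_antisymm h hj1⟩
  obtain ⟨y, hy, hyi⟩ := SetLike.not_le_iff_exists.mp h1
  obtain ⟨key, hw0⟩ := hdata y hy hyi
  obtain ⟨w, hw, hwj⟩ := SetLike.not_le_iff_exists.mp hj2
  have hyw : Φ.B y w ≠ 0 := fun h => hwj (hw0 w hw h)
  rw [hθε] at key
  -- the vectors orthogonal to `F i` and to `y`
  have hT : ∀ u ∈ Φ.perp (F i), Φ.B y u = 0 → u ∈ F2 j ∧ Φ.B u u = 0 := by
    intro u hu hyu
    have h2 := key w hw u hu
    have h3 := key w hw (-u) ((Φ.perp (F i)).neg_mem hu)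
    rw [hyu, zero_smul, zero_sub, one_mul] at h2
    rw [Φ.neg_right, hyu, neg_zero, zero_smul, zero_sub, one_mul, Φ.neg_left, Φ.neg_right,
      neg_neg, smul_neg, neg_neg] at h3
    have h4 : ((2 : K) * Φ.B y w) • u ∈ F2 j := by
      have h5 := (F2 j).sub_mem h3 h2
      have e : Φ.B y w • u - (Φ.B y w * Φ.B u u) • w -
          (-(Φ.B y w • u) - (Φ.B y w * Φ.B u u) • w) = ((2 : K) * Φ.B y w) • u := by
        module
      rwa [e] at h5
    have h6 : u ∈ F2 j := by
      have h7 := (F2 j).smul_mem ((2 : K) * Φ.B y w)⁻¹ h4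
      rwa [smul_smul, inv_mul_cancel₀ (mul_ne_zero h20 hyw), one_smul] at h7
    refine ⟨h6, ?_⟩
    by_contra huu
    apply hwj
    have h8 : (Φ.B y w * Φ.B u u) • w ∈ F2 j := by
      have h9 := (F2 j).add_mem h2 ((F2 j).smul_mem (Φ.B y w) h6)
      have e : -(Φ.B y w • u) - (Φ.B y w * Φ.B u u) • w + Φ.B y w • u =
          -((Φ.B y w * Φ.B u u) • w) := by module
      rw [e] at h9
      exact neg_mem_iff.mp h9
    have h10 := (F2 j).smul_mem (Φ.B y w * Φ.B u u)⁻¹ h8
    rwa [smul_smul, inv_mul_cancel₀ (mul_ne_zero hyw huu), one_smul] at h10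
  -- `T` is totally isotropic
  have hTT : ∀ u ∈ Φ.perp (F i), Φ.B y u = 0 → ∀ v ∈ Φ.perp (F i), Φ.B y v = 0 →
      Φ.B u v = 0 := by
    intro u hu hyu v hv hyv
    have h2 := (hT (u + v) ((Φ.perp (F i)).add_mem hu hv) (by rw [Φ.add_right, hyu, hyv,
      add_zero])).2
    rw [Φ.add_left, Φ.add_right, Φ.add_right, (hT u hu hyu).2, (hT v hv hyv).2, hcomm v u,
      zero_add, add_zero, ← two_mul] at h2
    exact (mul_eq_zero.mp h2).resolve_left h20
  refine le_antisymm ?_ hiso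
  intro z hz
  -- reduce to vectors orthogonal to `y`
  set c := Φ.B y z / Φ.B y w with hc
  have hz' : z - c • w ∈ Φ.perp (F i) := (Φ.perp (F i)).sub_mem hz
    ((Φ.perp (F i)).smul_mem _ (hiso hw))
  have hyz' : Φ.B y (z - c • w) = 0 := by
    rw [Φ.sub_right, Φ.smul_right, hθ, hc, div_mul_cancel₀ _ hyw, sub_self]
  have hzz : z - c • w ∈ Φ.perp (Φ.perp (F i)) := by
    intro v hv
    set c' := Φ.B y v / Φ.B y w with hc'
    have hv' : v - c' • w ∈ Φ.perp (F i) := (Φ.perp (F i)).sub_mem hv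
      ((Φ.perp (F i)).smul_mem _ (hiso hw))
    have hyv' : Φ.B y (v - c' • w) = 0 := by
      rw [Φ.sub_right, Φ.smul_right, hθ, hc', div_mul_cancel₀ _ hyw, sub_self]
    have h2 := hTT _ hz' hyz' _ hv' hyv'
    have h3 : Φ.B (z - c • w) w = 0 := hz' w hw
    have e : v = (v - c' • w) + c' • w := by rw [sub_add_cancel]
    rw [e, Φ.add_right, h2, Φ.smul_right, h3, mul_zero, add_zero]
  rw [Φ.perp_perp] at hzz
  have e : z = (z - c • w) + c • w := by rw [sub_add_cancel]
  rw [e]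
  exact (F i).add_mem hzz ((F i).smul_mem _ hw)

/-- The normaliser condition in the orthogonal case. -/
theorem normCond_orth (hK : Odd (Nat.card K)) (hθ : ∀ c, Φ.θ c = c) (hε : Φ.ε = 1) :
    Φ.NormCond := by
  classical
  rintro F hF x ⟨hx, hxI⟩
  apply mem_PF_of_mem_subset
  have hle := Φ.le_mapF_of_normalizer hx
  have hF2 := Φ.SD_mapF hF hxI
  set F2 := mapF x.1 F with hF2def
  apply Φ.mem_of_forall_isotropic hF hF2
  intro N hN i hi hiso
  by_contra hmem
  have hLag := Φ.lagrangian_of_not_mem hK hθ hε hN hle hi hiso hmem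
  obtain ⟨j, hj1, hj2, hdata⟩ := Φ.exists_level_data hK hN hle hi hiso hmem
  have hne : ¬ F2 (j + 1) ≤ F i := fun h => hmem ⟨j + 1, le_antisymm h hj1⟩
  have hAiso : ∀ v ∈ F i, ∀ w ∈ F i, Φ.B v w = 0 := fun v hv w hw => hiso hv w hw
  -- the hyperplane `T`
  set T := Φ.perp (F2 (j + 1)) with hT
  have hTA : T ≤ F i := by
    rw [← hLag]
    exact Φ.perp_anti hj1
  obtain ⟨y, hy, hyi⟩ := SetLike.not_le_iff_exists.mp hne
  have hAT : ∀ w ∈ F i, w ∈ F2 j → w ∈ T := by
    intro w hw hwj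
    rw [hT, Φ.mem_perp']
    intro s hs
    by_cases hsi : s ∈ F i
    · exact hAiso s hsi w hw
    · by_contra hsw
      apply hj2
      intro w' hw'
      set c := Φ.B s w' / Φ.B s w with hc
      have h1 : Φ.B s (w' - c • w) = 0 := by
        rw [Φ.sub_right, Φ.smul_right, hθ, hc, div_mul_cancel₀ _ hsw, sub_self]
      have h2 := (hdata s hs hsi).2 (w' - c • w)
        ((F i).sub_mem hw' ((F i).smul_mem _ hw)) h1
      have e : w' = (w' - c • w) + c • w := by rw [sub_add_cancel]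
      rw [e]
      exact (F2 j).add_mem h2 ((F2 j).smul_mem _ hwj)
  have hcodim : finrank K (F i) ≤ finrank K T + 1 := by
    -- the linear form `B y ·` on `F i` has its kernel in `T`
    let φ : F i →ₗ[K] K := (Φ.fn y).domRestrict (F i)
    have h1 := LinearMap.finrank_range_add_finrank_ker φ
    have h2 : finrank K (LinearMap.range φ) ≤ 1 := by
      refine (Submodule.finrank_le _).trans ?_
      rw [finrank_self]
    have h3 : finrank K (LinearMap.ker φ) ≤ finrank K T := by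
      rw [LinearEquiv.finrank_eq (Submodule.equivSubtypeMap (F i) (LinearMap.ker φ))]
      apply Submodule.finrank_mono
      rintro _ ⟨w, hw, rfl⟩
      have hw' : Φ.B w y = 0 := hw
      exact hAT w w.2 ((hdata y hy hyi).2 w w.2 (Φ.eq_zero_comm hw'))
    omega
  have hTlt : T < F i := by
    refine lt_of_le_of_ne hTA fun h => hne ?_
    have h1 : Φ.perp T = Φ.perp (F i) := by rw [h]
    rw [hT, Φ.perp_perp, hLag] at h1
    exact h1.le
  have hTfin := Submodule.finrank_lt_finrank_of_lt hTlt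
  -- `T` is a member of `F2`
  have hTmem : T ∈ F2.mem := by
    obtain ⟨N2, h02, hN2, hF2N⟩ := hF2
    rcases Nat.lt_or_ge N2 (j + 1) with h5 | h5
    · rw [hT, F2.top_of_le hN2 h5.le, Φ.perp_top]
      exact ⟨0, F2.zero⟩
    · rw [hT, hF2N _ h5]
      exact ⟨_, rfl⟩
  obtain ⟨k, hk⟩ := hTmem
  have hk' : F2 k = T := hk
  -- the corresponding member of `F`
  have hfk : finrank K (F k) = finrank K T := by
    rw [← hk', hF2def, mapF_apply]
    exact (LinearEquiv.finrank_map_eq x.1 (F k)).symm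
  have hki : k < i := by
    by_contra h
    have := Submodule.finrank_mono (F.mono (not_lt.mp h))
    omega
  have hFk_le : F k ≤ F i := F.mono hki.le
  have hFkiso : F k ≤ Φ.perp (F k) :=
    hFk_le.trans (hiso.trans (Φ.perp_anti hFk_le))
  have hFkmem : F k ∈ F2.mem := by
    by_contra hc
    have h1 := Φ.lagrangian_of_not_mem hK hθ hε hN hle (hki.le.trans hi) hFkiso hc
    have h2 : F i ≤ F k := by
      have := Φ.perp_anti hFk_le
      rwa [h1, hLag] at this
    have := Submodule.finrank_mono h2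
    omega
  have hFkT : F k = T := finrank_injOn F2 hFkmem ⟨k, hk⟩ hfk
  have hxT : ∀ t ∈ T, x t ∈ T := by
    intro t ht
    have h1 : x t ∈ F2 k := by
      rw [hF2def, mem_mapF, inv_apply_self', hFkT]
      exact ht
    rwa [hk'] at h1
  have hxA := Φ.map_lagrangian hK hθ hε hLag hTA hcodim hxI hxT
  apply hmem
  refine ⟨i, ?_⟩
  rw [hF2def, mapF_apply]
  apply Submodule.eq_of_le_of_finrank_eq
  · rintro _ ⟨a, ha, rfl⟩
    exact hxA a ha
  · exact LinearEquiv.finrank_map_eq x.1 (F i)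

/-- The normaliser condition holds for all forms. -/
theorem normCond (hK : Odd (Nat.card K)) : Φ.NormCond := by
  by_cases hne : ∃ c, Φ.θ c ≠ Φ.θ Φ.ε * c
  · exact Φ.normalizer_le hK hne
  · push Not at hne
    have h1 : Φ.θ Φ.ε = 1 := by
      have := hne 1
      rw [map_one, mul_one] at this
      exact this.symm
    have hθ : ∀ c, Φ.θ c = c := by
      intro c
      rw [hne c, h1, one_mul]
    exact Φ.normCond_orth hK hθ (by rw [← hθ Φ.ε, h1])

end HForm

end Vale.Agent.P180.R2.H854
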