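import Vale.Agent.P180.R2.H854.TD3
import Vale.Agent.P180.R2.H954.Hf9

/-!
P180: the corner property of the classical groups of bounded rank, for all linear primes:
symplectic and unitary groups in any characteristic, orthogonal groups in odd characteristic.
-/

set_option linter.all false

namespace Vale.Agent.P180.R2.H854.TD

open Module Subgroup Vale.Agent.P180 Vale.Agent.P180.H768.Gd Vale.Agent.P180.R2.H799
  Vale.Agent.P180.R2.H854 Vale.Agent.P180.R2.H954 Vale.Agent.P180.R2.H954.Hc
  Vale.Agent.P180.R2.H471.Hc Vale.Agent.P180.R2.H471.Hd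

universe u

section Ker

variable {K E : Type} [Field K] [AddCommGroup E] [Module K E] [FiniteDimensional K E] [Finite K]

/-- Scalar isometries of `p`-power order are trivial, for a linear prime `p`. -/
theorem scalar_eq_one_lin {p : ℕ} (hp : p.Prime) (hpK : ¬ p ∣ Nat.card K) (Φ : HForm K E)
    (hlin : ∀ j : ℕ, (∀ c, Φ.θ c = c ^ (ringChar K ^ j)) → ¬ p ∣ ringChar K ^ j + 1)
    {z : SpecialLinearGroup K E} (hzI : z ∈ Φ.Iso)
    (hzc : z ∈ Subgroup.center (SpecialLinearGroup K E)) {m : ℕ} (hz : z ^ p ^ m = 1) :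
    z = 1 := by
  obtain ⟨c, -, hc⟩ := SpecialLinearGroup.mem_center_iff.mp hzc
  have hzx : ∀ x, z x = c • x := fun x => congrArg (fun f : E →ₗ[K] E => f x) hc
  have hall : ∀ x, z x = x := by
    intro x
    by_cases hx : x = 0
    · rw [hzx, hx, smul_zero]
    · have h1 := BN.pow_apply_eigen (hzx x) (p ^ m)
      rw [hz, one_apply'] at h1
      have h2 : (c ^ p ^ m - 1) • x = 0 := by rw [sub_smul, one_smul, ← h1, sub_self]
      have h3 : c ^ p ^ m = 1 := sub_eq_zero.mp ((smul_eq_zero.mp h2).resolve_right hx)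
      have h4 : ∃ y, Φ.B x y ≠ 0 := by
        by_contra h
        push Not at h
        exact hx (Φ.nondeg x h)
      obtain ⟨y, hy⟩ := h4
      have h5 := hzI x y
      rw [hzx, hzx, Φ.smul_left, Φ.smul_right, ← mul_assoc] at h5
      have h6 : c * Φ.θ c = 1 := mul_right_cancel₀ hy (by rw [h5, one_mul])
      rw [hzx, eq_one_of_norm hp hpK Φ.θ Φ.θθ hlin h3 h6, one_smul]
  apply SpecialLinearGroup.ext
  intro x
  rw [hall x, one_apply']

theorem ker_coprime_lin {p : ℕ} [Fact p.Prime] (hpK : ¬ p ∣ Nat.card K) {Φ : HForm K E}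
    (hlin : ∀ j : ℕ, (∀ c, Φ.θ c = c ^ (ringChar K ^ j)) → ¬ p ∣ ringChar K ^ j + 1)
    {X : Subgroup (SpecialLinearGroup K E)} (hXI : X ≤ Φ.Iso) {L : Type} [Group L] {π : X →* L}
    (hk : π.ker.map X.subtype ≤ Subgroup.center (SpecialLinearGroup K E)) :
    ¬ p ∣ Nat.card π.ker := by
  have hp : p.Prime := Fact.out
  have hfG : Finite (SpecialLinearGroup K E) := BN.finite_sl
  intro h
  obtain ⟨z, hz⟩ := exists_prime_orderOf_dvd_card' (G := π.ker) p h
  have h1 : z ^ p = 1 := by rw [← hz]; exact pow_orderOf_eq_one z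
  have h2 : (z.1.1 : SpecialLinearGroup K E) ^ p ^ 1 = 1 := by
    rw [pow_one]
    exact congrArg (fun w : π.ker => (w.1.1 : SpecialLinearGroup K E)) h1
  have h3 := scalar_eq_one_lin hp hpK Φ hlin (hXI z.1.2) (hk ⟨z.1, z.2, rfl⟩) h2
  have h4 : z = 1 := Subtype.ext (Subtype.ext h3)
  rw [h4, orderOf_one] at hz
  exact hp.one_lt.ne hz

end Ker

/-- `L` is a central quotient (modulo scalars) of a subgroup `X` of index one or two in the special
isometry group of a nondegenerate alternating, symmetric or hermitian form on `K ^ d`, `d ≤ m`, `K` a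
finite field, `|K|` is odd or `X` is the full special isometry group of an alternating or hermitian
form, `p` does not divide `|K|` and is linear for the form: `p` does
not divide `r ^ j + 1` whenever the field automorphism `θ` of the form is `c ↦ c ^ (r ^ j)`, `r` the
characteristic of `K` (for `θ = 1` and `q = |K|` this means that the order of `q` modulo `p` is odd;
for `|K| = q ^ 2`, `θ` of order two, that the order of `-q` modulo `p` is even), and the dimension is
less than `p` or `D ∩ L` is abelian. -/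
def LinIsoA (p m : ℕ) {G : Type} [Group G] (D L : Subgroup G) : Prop :=
  ∃ (K : Type) (_ : Field K) (_ : Finite K) (d : ℕ) (Φ : HForm K (Fin d → K))
    (X : Subgroup (SpecialLinearGroup K (Fin d → K))) (π : X →* L),
      Φ.GoodX X ∧ X ≤ Φ.Iso ∧ X.relIndex Φ.Iso ∣ 2 ∧ Function.Surjective π ∧
      π.ker.map X.subtype ≤ Subgroup.center _ ∧ d ≤ m ∧ ¬ p ∣ Nat.card K ∧
      (∀ j : ℕ, (∀ c, Φ.θ c = c ^ (ringChar K ^ j)) → ¬ p ∣ ringChar K ^ j + 1) ∧
      (d < p ∨ ∀ x ∈ D, x ∈ L → ∀ y ∈ D, y ∈ L → x * y = y * x)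

/-- **The corner property** of the classical groups of bounded rank, for linear primes. -/
theorem corP_linIsoA {k : Type u} [Field k] [IsAlgClosed k] {p m n : ℕ} [Fact p.Prime]
    [CharP k p] {G : Type} [Group G] [Finite G] {D L : Subgroup G} (hD : IsPGroup p D)
    (hDn : Nat.card D ≤ n) (h : LinIsoA p m D L)
    (hin : D ⊓ Subgroup.normalizer (L : Set G) ≤ L ⊔ Subgroup.centralizer (L : Set G))
    (b : MonoidAlgebra k G) : H365.CorP p (bdF p m n) b D L := by
  obtain ⟨K, _, _, d, Φ, X, π, hK, hXI, hX2, hπ, hk, hd, hpK, hlin, hab⟩ := h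
  have hp : p.Prime := Fact.out
  have hfG : Finite (SpecialLinearGroup K (Fin d → K)) := BN.finite_sl
  have hkc := ker_central hk
  have hkp := ker_coprime_lin hpK hlin hXI hk
  have hab' : ∀ x ∈ D, x ∈ L → ∀ y ∈ D, y ∈ L → x * y = y * x := by
    rcases hab with hlt | hab
    · intro x hxD hxL y hyD hyL
      have hDL : IsPGroup p (D.subgroupOf L) :=
        hD.comap_of_injective L.subtype L.subtype_injective
      obtain ⟨Q, hQ, hQD⟩ := BN.exists_lift (p := p) π hπ hDL
      have hx : (⟨x, hxL⟩ : L) ∈ Q.map π := by rw [hQD]; exact hxD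
      have hy : (⟨y, hyL⟩ : L) ∈ Q.map π := by rw [hQD]; exact hyD
      obtain ⟨x', hx', hxe⟩ := hx
      obtain ⟨y', hy', hye⟩ := hy
      have h0 : x' * y' = y' * x' := Subtype.ext (comm_of_lt hpK hlt (hQ.map X.subtype) x'.1
        ⟨x', hx', rfl⟩ y'.1 ⟨y', hy', rfl⟩)
      have h1 := congrArg π h0
      rw [map_mul, map_mul, hxe, hye] at h1
      exact congrArg Subtype.val h1
    · exact hab
  refine corP_of_oneBd hD hDn hab' hin (fun Q hQ hQn hQab => ?_) b
  refine oneBd_lift π hπ hkc hkp hQ hQn hQab fun R hR hRn hRab => ?_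
  have hV : ∀ F, Φ.SD F → VF F ⊓ Φ.Iso ≤ X := fun F _ => hK.hV hX2 F
  have hT := Φ.trT hK.or3
  have hnorm := Φ.normCondT hK.or3
  exact oneBd_formT hT hnorm hXI hX2 hV hpK
    (fun S hS hSab => exists_leviD' hp Φ hXI hX2 hV hpK hlin hS hSab)
    (rkCondT hT hnorm hXI hV) (by rw [Module.finrank_fin_fun]; exact hd) hR hRn hRab

end Vale.Agent.P180.R2.H854.TD
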