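import Vale.Agent.P180.R2.H854.FormLevi

/-!
P180: selfdual bases adapted to a pair of selfdual flags.
-/

namespace Vale.Agent.P180.R2.H854

open Module

namespace HForm

variable {K E : Type*} [Field K] [AddCommGroup E] [Module K E] (Φ : HForm K E)
  [FiniteDimensional K E] [Finite K]

/-- Partial Gram matrices give unipotent endomorphisms. -/
lemma gram_mem {ι : Type*} {b : Basis ι K E} {γ : ι → ℕ} {G : Flag K E} (hb : Adapted b γ G)
    {N : ℕ} (hN : G N = ⊤) (hG : ∀ i ≤ N, Φ.perp (G i) = G (N - i)) {t : End K E}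
    (h1 : ∀ l m, Φ.B (b l) (t (b m)) = Φ.B (b l) (b m) ∨ Φ.B (b l) (t (b m)) = 0)
    (h2 : ∀ l m, γ l + γ m + 1 = N → Φ.B (b l) (t (b m)) = Φ.B (b l) (b m)) :
    t - 1 ∈ Jr G := by
  have hγ : ∀ l, γ l < N := fun l => hb.self_mem_iff.mp (by rw [hN]; trivial)
  intro i
  apply hb.forall_mem
  intro m hm
  have hm' : γ m ≤ i := Nat.lt_succ_iff.mp hm
  apply G.mono hm'
  have e : G (γ m) = Φ.perp (G (N - γ m)) := by
    rw [hG (N - γ m) (Nat.sub_le _ _)]
    congr 1
    have := hγ m
    omega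
  rw [e, Φ.mem_perp']
  intro y hy
  have h3 : ∀ y ∈ G (N - γ m), Φ.fn ((t - 1) (b m)) y = 0 := by
    intro y hy
    rw [hb (N - γ m)] at hy
    have hle : Submodule.span K (b '' {l | γ l < N - γ m}) ≤
        LinearMap.ker (Φ.fn ((t - 1) (b m))) := by
      rw [Submodule.span_le]
      rintro _ ⟨l, hl, rfl⟩
      have hl' : γ l < N - γ m := hl
      rw [SetLike.mem_coe, LinearMap.mem_ker, Φ.fn_apply, LinearMap.sub_apply,
        End.one_apply, Φ.sub_right]
      by_cases h : γ l + γ m + 1 = N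
      · rw [h2 l m h, sub_self]
      · have h4 : b l ∈ G (N - (γ m + 1)) := hb.self_mem_iff.mpr (by omega)
        rw [← hG (γ m + 1) (hγ m)] at h4
        have h5 : Φ.B (b l) (b m) = 0 :=
          h4 (b m) (hb.self_mem_iff.mpr (Nat.lt_succ_self _))
        rcases h1 l m with h6 | h6
        · rw [h6, sub_self]
        · rw [h6, h5, sub_self]
    exact hle hy
  exact h3 y hy

/-- Two selfdual flags have a common adapted basis with Gram matrix concentrated on the dual pairs
of levels. -/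
theorem exists_sd_basis2 (hK : Odd (Nat.card K)) {F H : Flag K E} {N M : ℕ}
    (h0 : 0 < N) (hN : F N = ⊤) (hF : ∀ i ≤ N, Φ.perp (F i) = F (N - i))
    (m0 : 0 < M) (hM : H M = ⊤) (hH : ∀ i ≤ M, Φ.perp (H i) = H (M - i)) :
    ∃ b : Basis (Idx F H N M) K E, Adapted b (fun l => l.1.1) F ∧ Adapted b (fun l => l.1.2) H ∧
      ∀ l m : Idx F H N M, ¬ ((l.1.1 : ℕ) + m.1.1 + 1 = N ∧ (l.1.2 : ℕ) + m.1.2 + 1 = M) →
        Φ.B (b l) (b m) = 0 := by
  classical
  obtain ⟨b, hbF, hbH⟩ := exists_adapted F H hN hM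
  set α : Idx F H N M → ℕ := fun l => l.1.1 with hα
  set β : Idx F H N M → ℕ := fun l => l.1.2 with hβ
  have hαN : ∀ l, α l < N := fun l => l.1.1.2
  have hβM : ∀ l, β l < M := fun l => l.1.2.2
  -- the endomorphism `t`
  let d : Idx F H N M → Idx F H N M → K := fun l m =>
    if α l + α m + 1 = N ∧ β l + β m + 1 = M then Φ.B (b l) (b m) else 0
  have hex : ∀ m, ∃ z, ∀ l, Φ.B (b l) z = d l m := by
    intro m
    obtain ⟨z, hz⟩ := Φ.exists_riesz (b.constr K (fun l => d l m))
    refine ⟨z, fun l => ?_⟩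
    rw [← hz, b.constr_basis]
  choose z hz using hex
  let t : End K E := b.constr K z
  have ht : ∀ l m, Φ.B (b l) (t (b m)) = d l m := by
    intro l m
    have : t (b m) = z m := b.constr_basis K z m
    rw [this, hz]
  have hsymm : ∀ l m, d m l = Φ.ε * Φ.θ (d l m) := by
    intro l m
    simp only [d]
    by_cases h : α l + α m + 1 = N ∧ β l + β m + 1 = M
    · rw [if_pos h, if_pos (by omega), Φ.symm]
    · rw [if_neg h, if_neg (by omega), map_zero, mul_zero]
  have hadj : Φ.adj t = t := by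
    apply Φ.ext_basis b
    intro l m
    rw [← Φ.adj_right, Φ.symm (b m), ht, ht, ← hsymm]
  have h1 : ∀ l m, Φ.B (b l) (t (b m)) = Φ.B (b l) (b m) ∨ Φ.B (b l) (t (b m)) = 0 := by
    intro l m
    rw [ht]
    simp only [d]
    by_cases h : α l + α m + 1 = N ∧ β l + β m + 1 = M
    · rw [if_pos h]; exact Or.inl rfl
    · rw [if_neg h]; exact Or.inr rfl
  have hdual : ∀ l m, Φ.B (b l) (b m) ≠ 0 → N ≤ α l + α m + 1 ∧ M ≤ β l + β m + 1 := by
    intro l m hlm
    constructor
    · by_contra hlt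
      apply hlm
      have h4 : b l ∈ F (N - (α m + 1)) := hbF.self_mem_iff.mpr (by
        have : α l < N - (α m + 1) := by omega
        exact this)
      rw [← hF (α m + 1) (hαN m)] at h4
      exact h4 (b m) (hbF.self_mem_iff.mpr (Nat.lt_succ_self _))
    · by_contra hlt
      apply hlm
      have h4 : b l ∈ H (M - (β m + 1)) := hbH.self_mem_iff.mpr (by
        have : β l < M - (β m + 1) := by omega
        exact this)
      rw [← hH (β m + 1) (hβM m)] at h4
      exact h4 (b m) (hbH.self_mem_iff.mpr (Nat.lt_succ_self _))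
  -- the two product flags
  have hb1 := adapted_starN hbF hbH M hM m0
  have hb2 := adapted_starN hbH hbF N hN h0
  have e1 : ∀ l m, α l * M + β l + (α m * M + β m) + 1 = N * M →
      Φ.B (b l) (t (b m)) = Φ.B (b l) (b m) := by
    intro l m hlm
    rw [ht]
    simp only [d]
    by_cases hB : Φ.B (b l) (b m) = 0
    · rw [hB]; simp
    · obtain ⟨h3, h4⟩ := hdual l m hB
      rw [if_pos]
      have h5 : (α l + α m + 1) * M + (β l + β m + 1) = N * M + M := by
        rw [← hlm]; ring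
      have h6 : N * M ≤ (α l + α m + 1) * M := Nat.mul_le_mul_right M h3
      have h7 : β l + β m + 1 = M := by omega
      refine ⟨?_, h7⟩
      have h8 : (α l + α m + 1) * M = N * M := by omega
      exact Nat.eq_of_mul_eq_mul_right m0 h8
  have e2 : ∀ l m, β l * N + α l + (β m * N + α m) + 1 = M * N →
      Φ.B (b l) (t (b m)) = Φ.B (b l) (b m) := by
    intro l m hlm
    rw [ht]
    simp only [d]
    by_cases hB : Φ.B (b l) (b m) = 0
    · rw [hB]; simp
    · obtain ⟨h3, h4⟩ := hdual l m hB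
      rw [if_pos]
      have h5 : (β l + β m + 1) * N + (α l + α m + 1) = M * N + N := by
        rw [← hlm]; ring
      have h6 : M * N ≤ (β l + β m + 1) * N := Nat.mul_le_mul_right N h4
      have h7 : α l + α m + 1 = N := by omega
      refine ⟨h7, ?_⟩
      have h8 : (β l + β m + 1) * N = M * N := by omega
      exact Nat.eq_of_mul_eq_mul_right h0 h8
  obtain ⟨hG1N, hG1⟩ := Φ.starN_perp hN hF m0 hH
  obtain ⟨hG2N, hG2⟩ := Φ.starN_perp hM hH h0 hF
  have t1 : t - 1 ∈ Jr (starN F H M m0) := Φ.gram_mem hb1 hG1N hG1 h1 e1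
  have t2 : t - 1 ∈ Jr (starN H F N h0) := Φ.gram_mem hb2 hG2N hG2 h1 e2
  -- the square root
  have hs : oneAdd _ t1 ∈ VF (starN F H M m0) := oneAdd_mem _ t1
  have hst : toEnd (oneAdd _ t1) = t := by rw [toEnd_oneAdd, add_sub_cancel]
  have hs2 : oneAdd _ t1 ∈ VF (starN H F N h0) := by
    rw [mem_VF_iff, hst]
    exact t2
  obtain ⟨r, hr, hradj, hrH⟩ := Φ.exists_sqrt hK hs (by rw [hst]; exact hadj)
  have hrF : r ∈ PF F := PF_star_le m0 (VF_le_PF _ (hrH _ hs))
  have hrH' : r ∈ PF H := PF_star_le h0 (VF_le_PF _ (hrH _ hs2))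
  have hrr : toEnd r * toEnd r = t := by rw [← toEnd_mul, hr, hst]
  refine ⟨b.map r.1, ?_, ?_, ?_⟩
  · intro i
    have h3 : mapF r.1 F i = F i := by rw [mapF_eq_of_mem hrF]
    rw [← h3, mapF_apply, hbF i, Submodule.map_span, ← Set.image_comp]
    congr 1
  · intro i
    have h3 : mapF r.1 H i = H i := by rw [mapF_eq_of_mem hrH']
    rw [← h3, mapF_apply, hbH i, Submodule.map_span, ← Set.image_comp]
    congr 1
  · intro l m hlm
    rw [Basis.map_apply, Basis.map_apply]
    change Φ.B (toEnd r (b l)) (toEnd r (b m)) = 0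
    rw [Φ.adj_right, hradj, ← End.mul_apply, hrr, ht]
    simp only [d]
    rw [if_neg hlm]

end HForm

end Vale.Agent.P180.R2.H854
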