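import Vale.Agent.P180.R2.H854.Flag

/-!
P180: a basis adapted to two flags of subspaces.
-/

namespace Vale.Agent.P180.R2.H854

open Module

variable {K E : Type*} [Field K] [AddCommGroup E] [Module K E]

/-- The basis `b` is adapted to the flag `F`, the `l`-th vector having level `α l`. -/
def Adapted {ι : Type*} (b : Basis ι K E) (α : ι → ℕ) (F : Flag K E) : Prop :=
  ∀ i, F i = Submodule.span K (b '' {l | α l < i})

section adapted

variable {ι : Type*} {b : Basis ι K E} {α : ι → ℕ} {F : Flag K E}

lemma Adapted.mem_iff (h : Adapted b α F) {i : ℕ} {x : E} :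
    x ∈ F i ↔ ∀ l, b.repr x l ≠ 0 → α l < i := by
  rw [h i, Basis.mem_span_image]
  constructor
  · intro hs l hl
    exact hs (Finsupp.mem_support_iff.mpr hl)
  · intro hs l hl
    exact hs l (Finsupp.mem_support_iff.mp hl)

lemma Adapted.self_mem_iff (h : Adapted b α F) {i : ℕ} {l : ι} : b l ∈ F i ↔ α l < i := by
  classical
  rw [h.mem_iff]
  constructor
  · intro hs
    exact hs l (by simp)
  · intro hl m hm
    rw [Basis.repr_self, Finsupp.single_apply] at hm
    split_ifs at hm with e
    · rwa [← e]
    · exact absurd rfl hm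

lemma Adapted.forall_mem (h : Adapted b α F) {i : ℕ} {a : End K E} {W : Submodule K E}
    (ha : ∀ l, α l < i → a (b l) ∈ W) : ∀ x ∈ F i, a x ∈ W := by
  intro x hx
  rw [h i] at hx
  have hle : Submodule.span K (b '' {l | α l < i}) ≤ W.comap a := by
    rw [Submodule.span_le]
    rintro _ ⟨l, hl, rfl⟩
    exact ha l hl
  exact hle hx

lemma Adapted.mem_Pa_iff (h : Adapted b α F) {a : End K E} :
    a ∈ Pa F ↔ ∀ l m, b.repr (a (b l)) m ≠ 0 → α m ≤ α l := by
  constructor
  · intro ha l m hm
    have h1 : b l ∈ F (α l + 1) := h.self_mem_iff.mpr (Nat.lt_succ_self _)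
    exact Nat.lt_succ_iff.mp (h.mem_iff.mp (ha _ _ h1) m hm)
  · intro ha i
    apply h.forall_mem
    intro l hl
    rw [h.mem_iff]
    intro m hm
    exact lt_of_le_of_lt (ha l m hm) hl

lemma Adapted.mem_Jr_iff (h : Adapted b α F) {a : End K E} :
    a ∈ Jr F ↔ ∀ l m, b.repr (a (b l)) m ≠ 0 → α m < α l := by
  constructor
  · intro ha l m hm
    have h1 : b l ∈ F (α l + 1) := h.self_mem_iff.mpr (Nat.lt_succ_self _)
    exact h.mem_iff.mp (ha _ _ h1) m hm
  · intro ha i
    apply h.forall_mem
    intro l hl
    rw [h.mem_iff]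
    intro m hm
    exact lt_of_lt_of_le (ha l m hm) (Nat.lt_succ_iff.mp hl)

end adapted

/-- A complement of `A` in `B`, given by a family of vectors of the right size. -/
lemma exists_family [FiniteDimensional K E] {A B : Submodule K E} (hAB : A ≤ B) :
    ∃ c : Fin (finrank K B - finrank K A) → E,
      (∀ t, c t ∈ B) ∧ B ≤ Submodule.span K (Set.range c) ⊔ A := by
  obtain ⟨C', hC'⟩ := exists_isCompl A
  set C : Submodule K E := C' ⊓ B with hC
  have h1 : A ⊔ C = B := by
    rw [hC, ← sup_inf_assoc_of_le C' hAB, hC'.sup_eq_top, top_inf_eq]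
  have h2 : A ⊓ C = ⊥ := by
    rw [hC, ← inf_assoc, hC'.inf_eq_bot, bot_inf_eq]
  have h3 : finrank K C = finrank K B - finrank K A := by
    have := Submodule.finrank_sup_add_finrank_inf_eq A C
    rw [h1, h2, finrank_bot] at this
    omega
  let e := Module.finBasisOfFinrankEq K C h3
  refine ⟨fun t => (e t : E), fun t => ?_, ?_⟩
  · exact (inf_le_right : C' ⊓ B ≤ B) (e t).2
  · have h4 : Submodule.span K (Set.range fun t => (e t : E)) = C := by
      have h5 := e.span_eq
      have h6 := congrArg (Submodule.map C.subtype) h5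
      rw [Submodule.map_span, ← Set.range_comp, Submodule.map_subtype_top] at h6
      exact h6
    rw [h4, sup_comm, h1]

/-- The multiplicities of a pair of flags. -/
noncomputable def mult (F H : Flag K E) (i j : ℕ) : ℕ :=
  finrank K (F (i + 1) ⊓ H (j + 1) : Submodule K E) -
    finrank K ((F i ⊓ H (j + 1)) ⊔ (F (i + 1) ⊓ H j) : Submodule K E)

/-- The dimensions of the intersections of a pair of flags. -/
noncomputable def dims (F H : Flag K E) (i j : ℕ) : ℕ :=
  finrank K (F i ⊓ H j : Submodule K E)

lemma mult_eq [FiniteDimensional K E] (F H : Flag K E) (i j : ℕ) :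
    (mult F H i j : ℤ) = (dims F H (i + 1) (j + 1) - dims F H (i + 1) j) -
      (dims F H i (j + 1) - dims F H i j) := by
  have h1 : (F i ⊓ H (j + 1)) ⊓ (F (i + 1) ⊓ H j) = F i ⊓ H j := by
    apply le_antisymm
    · exact le_inf (inf_le_left.trans inf_le_left) (inf_le_right.trans inf_le_right)
    · exact le_inf (inf_le_inf_left _ (H.le_succ j)) (inf_le_inf_right _ (F.le_succ i))
  have h2 := Submodule.finrank_sup_add_finrank_inf_eq (F i ⊓ H (j + 1)) (F (i + 1) ⊓ H j)
  rw [h1] at h2
  have h3 : (F i ⊓ H (j + 1)) ⊔ (F (i + 1) ⊓ H j) ≤ F (i + 1) ⊓ H (j + 1) :=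
    sup_le (inf_le_inf_right _ (F.le_succ i)) (inf_le_inf_left _ (H.le_succ j))
  have h4 := Submodule.finrank_mono h3
  unfold mult dims
  omega

lemma sum_mult [FiniteDimensional K E] (F H : Flag K E) {N M : ℕ} (hN : F N = ⊤)
    (hM : H M = ⊤) :
    ∑ i ∈ Finset.range N, ∑ j ∈ Finset.range M, mult F H i j = finrank K E := by
  have h0 : ∀ i, dims F H i 0 = 0 := by
    intro i
    unfold dims
    rw [H.zero, inf_bot_eq, finrank_bot]
  have h0' : ∀ j, dims F H 0 j = 0 := by
    intro j
    unfold dims
    rw [F.zero, bot_inf_eq, finrank_bot]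
  have h1 : ∀ i, ∑ j ∈ Finset.range M, (mult F H i j : ℤ) =
      dims F H (i + 1) M - dims F H i M := by
    intro i
    simp_rw [mult_eq]
    rw [Finset.sum_sub_distrib, Finset.sum_range_sub (fun j => (dims F H (i + 1) j : ℤ)),
      Finset.sum_range_sub (fun j => (dims F H i j : ℤ)), h0, h0]
    ring
  have h2 : ∑ i ∈ Finset.range N, ∑ j ∈ Finset.range M, (mult F H i j : ℤ) = dims F H N M := by
    simp_rw [h1]
    rw [Finset.sum_range_sub (fun i => (dims F H i M : ℤ)), h0']
    simp
  have h3 : dims F H N M = finrank K E := by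
    unfold dims
    rw [hN, hM, top_inf_eq, finrank_top]
  rw [h3] at h2
  exact_mod_cast h2

/-- The index type of an adapted basis of a pair of flags. -/
abbrev Idx (F H : Flag K E) (N M : ℕ) : Type :=
  Σ p : Fin N × Fin M, Fin (mult F H p.1 p.2)

lemma card_Idx [FiniteDimensional K E] (F H : Flag K E) {N M : ℕ} (hN : F N = ⊤)
    (hM : H M = ⊤) : Fintype.card (Idx F H N M) = finrank K E := by
  rw [Fintype.card_sigma, ← sum_mult F H hN hM, Fintype.sum_prod_type]
  simp only [Fintype.card_fin]
  rw [Finset.sum_range]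
  refine Finset.sum_congr rfl fun i _ => ?_
  rw [Finset.sum_range]

/-- Two flags have a common adapted basis, with prescribed multiplicities. -/
theorem exists_adapted [FiniteDimensional K E] (F H : Flag K E) {N M : ℕ} (hN : F N = ⊤)
    (hM : H M = ⊤) :
    ∃ b : Basis (Idx F H N M) K E, Adapted b (fun l => l.1.1) F ∧
      Adapted b (fun l => l.1.2) H := by
  have hex : ∀ i j, ∃ c : Fin (mult F H i j) → E, (∀ t, c t ∈ F (i + 1) ⊓ H (j + 1)) ∧
      F (i + 1) ⊓ H (j + 1) ≤
        Submodule.span K (Set.range c) ⊔ ((F i ⊓ H (j + 1)) ⊔ (F (i + 1) ⊓ H j)) := by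
    intro i j
    exact exists_family
      (sup_le (inf_le_inf_right _ (F.le_succ i)) (inf_le_inf_left _ (H.le_succ j)))
  choose c hc1 hc2 using hex
  let v : Idx F H N M → E := fun l => c l.1.1 l.1.2 l.2
  -- spanning
  have hspan : ∀ i j, i ≤ N → j ≤ M →
      F i ⊓ H j ≤ Submodule.span K (v '' {l | (l.1.1 : ℕ) < i ∧ (l.1.2 : ℕ) < j}) := by
    intro i
    induction i with
    | zero =>
      intro j _ _
      rw [F.zero, bot_inf_eq]
      exact bot_le
    | succ i ih =>
      intro j
      induction j with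
      | zero =>
        intro _ _
        rw [H.zero, inf_bot_eq]
        exact bot_le
      | succ j jh =>
        intro hi hj
        refine (hc2 i j).trans (sup_le ?_ (sup_le ?_ ?_))
        · rw [Submodule.span_le]
          rintro _ ⟨t, rfl⟩
          apply Submodule.subset_span
          exact ⟨⟨(⟨i, by omega⟩, ⟨j, by omega⟩), t⟩, by simp, rfl⟩
        · refine (ih (j + 1) (by omega) hj).trans (Submodule.span_mono (Set.image_mono ?_))
          rintro l ⟨h1, h2⟩
          exact ⟨by omega, h2⟩
        · refine (jh hi (by omega)).trans (Submodule.span_mono (Set.image_mono ?_))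
          rintro l ⟨h1, h2⟩
          exact ⟨h1, by omega⟩
  have htop : ⊤ ≤ Submodule.span K (Set.range v) := by
    have h := hspan N M le_rfl le_rfl
    rw [hN, hM, top_inf_eq] at h
    exact h.trans (Submodule.span_mono (Set.image_subset_range _ _))
  let b : Basis (Idx F H N M) K E :=
    basisOfTopLeSpanOfCardEqFinrank v htop (card_Idx F H hN hM)
  have hb : ⇑b = v := coe_basisOfTopLeSpanOfCardEqFinrank v htop (card_Idx F H hN hM)
  refine ⟨b, ?_, ?_⟩
  · intro i
    rw [hb]
    apply le_antisymm
    · rcases Nat.lt_or_ge N i with h | h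
      · have e : {l : Idx F H N M | (l.1.1 : ℕ) < i} = Set.univ := by
          ext l
          simp only [Set.mem_ofPred_eq, Set.mem_univ, iff_true]
          exact l.1.1.2.trans h
        rw [e, Set.image_univ]
        exact le_top.trans htop
      · have h1 := hspan i M h le_rfl
        rw [hM, inf_top_eq] at h1
        refine h1.trans (Submodule.span_mono (Set.image_mono ?_))
        rintro l ⟨h2, -⟩
        exact h2
    · rw [Submodule.span_le]
      rintro _ ⟨l, hl, rfl⟩
      exact F.mono hl (hc1 _ _ l.2).1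
  · intro j
    rw [hb]
    apply le_antisymm
    · rcases Nat.lt_or_ge M j with h | h
      · have e : {l : Idx F H N M | (l.1.2 : ℕ) < j} = Set.univ := by
          ext l
          simp only [Set.mem_ofPred_eq, Set.mem_univ, iff_true]
          exact l.1.2.2.trans h
        rw [e, Set.image_univ]
        exact le_top.trans htop
      · have h1 := hspan N j le_rfl h
        rw [hN, top_inf_eq] at h1
        refine h1.trans (Submodule.span_mono (Set.image_mono ?_))
        rintro l ⟨-, h2⟩
        exact h2
    · rw [Submodule.span_le]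
      rintro _ ⟨l, hl, rfl⟩
      exact H.mono hl (hc1 _ _ l.2).2

end Vale.Agent.P180.R2.H854
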