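import Mathlib

/-!
P180: flags of subspaces of a finite-dimensional vector space `E`, the stabiliser `PF F` of a flag
`F` in the special linear group of `E` and its unipotent radical `VF F`.
-/

namespace Vale.Agent.P180.R2.H854

open Module

/-- A flag of subspaces indexed by the natural numbers, with repetitions allowed. -/
structure Flag (K E : Type*) [Field K] [AddCommGroup E] [Module K E] where
  /-- the members of the flag -/
  car : ℕ → Submodule K E
  mono : Monotone car
  zero : car 0 = ⊥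
  top : ∃ N, car N = ⊤

variable {K E : Type*} [Field K] [AddCommGroup E] [Module K E]

instance : CoeFun (Flag K E) (fun _ => ℕ → Submodule K E) := ⟨Flag.car⟩

lemma Flag.ext' {F H : Flag K E} (h : ∀ i, F i = H i) : F = H := by
  cases F; cases H; congr; funext i; exact h i

lemma Flag.le_succ (F : Flag K E) (i : ℕ) : F i ≤ F (i + 1) := F.mono (Nat.le_succ i)

lemma Flag.top_of_le (F : Flag K E) {N M : ℕ} (h : F N = ⊤) (hNM : N ≤ M) : F M = ⊤ :=
  top_le_iff.mp (h ▸ F.mono hNM)

/-- The endomorphisms mapping `F (i + 1)` into `F i`. -/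
def Jr (F : Flag K E) : Submodule K (End K E) where
  carrier := {a | ∀ i, ∀ x ∈ F (i + 1), a x ∈ F i}
  zero_mem' := by intro i x _; simp
  add_mem' := by
    intro a b ha hb i x hx
    exact (F i).add_mem (ha i x hx) (hb i x hx)
  smul_mem' := by
    intro c a ha i x hx
    exact (F i).smul_mem c (ha i x hx)

/-- The endomorphisms mapping `F i` into `F i`. -/
def Pa (F : Flag K E) : Submodule K (End K E) where
  carrier := {a | ∀ i, ∀ x ∈ F i, a x ∈ F i}
  zero_mem' := by intro i x _; simp
  add_mem' := by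
    intro a b ha hb i x hx
    exact (F i).add_mem (ha i x hx) (hb i x hx)
  smul_mem' := by
    intro c a ha i x hx
    exact (F i).smul_mem c (ha i x hx)

lemma mem_Jr {F : Flag K E} {a : End K E} : a ∈ Jr F ↔ ∀ i, ∀ x ∈ F (i + 1), a x ∈ F i := Iff.rfl

lemma mem_Pa {F : Flag K E} {a : End K E} : a ∈ Pa F ↔ ∀ i, ∀ x ∈ F i, a x ∈ F i := Iff.rfl

lemma one_mem_Pa (F : Flag K E) : (1 : End K E) ∈ Pa F := fun _ _ hx => hx

lemma Pa_mul {F : Flag K E} {a b : End K E} (ha : a ∈ Pa F) (hb : b ∈ Pa F) : a * b ∈ Pa F :=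
  fun i x hx => ha i _ (hb i x hx)

lemma Jr_mul {F : Flag K E} {a b : End K E} (ha : a ∈ Jr F) (hb : b ∈ Pa F) : a * b ∈ Jr F :=
  fun i x hx => ha i _ (hb (i + 1) x hx)

lemma Jr_le_Pa (F : Flag K E) : Jr F ≤ Pa F := by
  intro a ha i x hx
  exact ha i x (F.le_succ i hx)

lemma Jr_pow {F : Flag K E} {a : End K E} (ha : a ∈ Jr F) (k : ℕ) :
    ∀ i, ∀ x ∈ F (i + k), (a ^ k) x ∈ F i := by
  induction k with
  | zero => intro i x hx; simpa using hx
  | succ k ih =>
    intro i x hx
    rw [pow_succ, End.mul_apply]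
    refine ih i _ (ha (i + k) x ?_)
    rwa [← add_assoc] at hx

lemma Jr_nilpotent {F : Flag K E} {a : End K E} (ha : a ∈ Jr F) : IsNilpotent a := by
  obtain ⟨N, hN⟩ := F.top
  refine ⟨N, ?_⟩
  ext x
  have h := Jr_pow ha N 0 x (by rw [zero_add, hN]; trivial)
  rw [F.zero] at h
  simpa using h

lemma mul_apply' (g h : SpecialLinearGroup K E) (x : E) : (g * h) x = g (h x) := rfl

lemma one_apply' (x : E) : (1 : SpecialLinearGroup K E) x = x := rfl

/-- The underlying endomorphism. -/
def toEnd (g : SpecialLinearGroup K E) : End K E := (g : E →ₗ[K] E)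

@[simp] lemma toEnd_apply (g : SpecialLinearGroup K E) (x : E) : toEnd g x = g x := rfl

lemma toEnd_mul (g h : SpecialLinearGroup K E) : toEnd (g * h) = toEnd g * toEnd h := rfl

lemma toEnd_one : toEnd (1 : SpecialLinearGroup K E) = 1 := rfl

lemma toEnd_injective : Function.Injective (toEnd (K := K) (E := E)) := by
  intro g h hgh
  ext x
  exact congrArg (fun a : End K E => a x) hgh

/-- The image of a flag under a linear automorphism. -/
def mapF (g : E ≃ₗ[K] E) (F : Flag K E) : Flag K E where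
  car i := (F i).map (g : E →ₗ[K] E)
  mono := by
    intro i j hij
    exact Submodule.map_mono (F.mono hij)
  zero := by simp [F.zero]
  top := by
    obtain ⟨N, hN⟩ := F.top
    exact ⟨N, by simp [hN]⟩

lemma mapF_apply (g : E ≃ₗ[K] E) (F : Flag K E) (i : ℕ) :
    mapF g F i = (F i).map (g : E →ₗ[K] E) := rfl

lemma mapF_mapF (g h : E ≃ₗ[K] E) (F : Flag K E) : mapF g (mapF h F) = mapF (g * h) F := by
  apply Flag.ext'
  intro i
  rw [mapF_apply, mapF_apply, mapF_apply, ← Submodule.map_comp]
  rfl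

lemma mapF_one (F : Flag K E) : mapF 1 F = F := by
  apply Flag.ext'
  intro i
  rw [mapF_apply]
  exact Submodule.map_id _

lemma exists_dual {W : Submodule K E} {y : E} (hy : y ∉ W) :
    ∃ φ : E →ₗ[K] K, φ y = 1 ∧ ∀ x ∈ W, φ x = 0 := by
  obtain ⟨f, hf, hW⟩ := Submodule.exists_le_ker_of_notMem hy
  refine ⟨(f y)⁻¹ • f, ?_, ?_⟩
  · simp [inv_mul_cancel₀ hf]
  · intro x hx
    have : f x = 0 := hW hx
    simp [this]

/-- Rank one elements of the radical. -/
lemma smulRight_mem_Jr {F : Flag K E} {φ : E →ₗ[K] K} {w : E} {j : ℕ}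
    (hφ : ∀ x ∈ F j, φ x = 0) (hw : w ∈ F j) : φ.smulRight w ∈ Jr F := by
  intro k x hx
  rw [LinearMap.smulRight_apply]
  rcases Nat.lt_or_ge k j with h | h
  · rw [hφ x (F.mono h hx), zero_smul]
    exact (F k).zero_mem
  · exact (F k).smul_mem _ (F.mono h hw)

lemma exists_level (F : Flag K E) {y : E} {i : ℕ} (hy : y ∉ F i) :
    ∃ j, i ≤ j ∧ y ∉ F j ∧ y ∈ F (j + 1) := by
  classical
  obtain ⟨N, hN⟩ := F.top
  have hex : ∃ k, y ∈ F k := ⟨N, by rw [hN]; trivial⟩
  have hk := Nat.find_spec hex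
  have hlt : i < Nat.find hex := by
    by_contra hle
    exact hy (F.mono (not_lt.mp hle) hk)
  refine ⟨Nat.find hex - 1, by omega, ?_, ?_⟩
  · exact Nat.find_min hex (by omega)
  · have : Nat.find hex - 1 + 1 = Nat.find hex := by omega
    rwa [this]

lemma inv_apply_self' (g : SpecialLinearGroup K E) (x : E) : g⁻¹ (g x) = x := by
  rw [← mul_apply', inv_mul_cancel, one_apply']

lemma apply_inv_self' (g : SpecialLinearGroup K E) (x : E) : g (g⁻¹ x) = x := by
  rw [← mul_apply', mul_inv_cancel, one_apply']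

lemma mem_mapF {g : SpecialLinearGroup K E} {F : Flag K E} {i : ℕ} {x : E} :
    x ∈ mapF g.1 F i ↔ g⁻¹ x ∈ F i := by
  constructor
  · rintro ⟨y, hy, rfl⟩
    have : g⁻¹ ((g.1 : E →ₗ[K] E) y) = y := inv_apply_self' g y
    rwa [this]
  · intro h
    exact ⟨g⁻¹ x, h, apply_inv_self' g x⟩

section fin

variable [FiniteDimensional K E]

lemma det_one_add {a : End K E} (h : IsNilpotent a) : LinearMap.det (1 + a) = 1 := by
  have h1 : LinearMap.charpoly (-a) = Polynomial.X ^ finrank K E :=
    IsNilpotent.charpoly_eq_X_pow_finrank h.neg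
  have h2 := LinearMap.eval_charpoly (-a) 1
  rw [h1] at h2
  simpa using h2.symm

/-- An endomorphism of determinant one as an element of the special linear group. -/
noncomputable def mkSL (a : End K E) (h : LinearMap.det a = 1) : SpecialLinearGroup K E :=
  ⟨LinearMap.equivOfDetNeZero a (by simp [h]), by
    ext; simp [LinearEquiv.coe_det, h]⟩

@[simp] lemma mkSL_apply (a : End K E) (h : LinearMap.det a = 1) (x : E) : mkSL a h x = a x := rfl

@[simp] lemma toEnd_mkSL (a : End K E) (h : LinearMap.det a = 1) : toEnd (mkSL a h) = a := rfl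

/-- An element of the special linear group stabilising a subspace maps it onto itself. -/
lemma inv_mem_of_forall {W : Submodule K E} {g : SpecialLinearGroup K E}
    (h : ∀ x ∈ W, g x ∈ W) : ∀ x ∈ W, g⁻¹ x ∈ W := by
  have h1 : W.map (toEnd g) ≤ W := by
    rintro _ ⟨x, hx, rfl⟩
    exact h x hx
  have h2 : W.map (toEnd g) = W :=
    Submodule.eq_of_le_of_finrank_eq h1 (LinearEquiv.finrank_map_eq g.1 W)
  intro x hx
  rw [← h2] at hx
  obtain ⟨y, hy, rfl⟩ := hx
  rw [toEnd_apply, inv_apply_self']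
  exact hy

/-- The stabiliser of a flag in the special linear group. -/
def PF (F : Flag K E) : Subgroup (SpecialLinearGroup K E) where
  carrier := {g | ∀ i, ∀ x ∈ F i, g x ∈ F i}
  one_mem' := fun i x hx => hx
  mul_mem' := by
    intro a b ha hb i x hx
    exact ha i _ (hb i x hx)
  inv_mem' := by
    intro a ha i
    exact inv_mem_of_forall (ha i)

/-- The unipotent radical of the stabiliser of a flag. -/
def VF (F : Flag K E) : Subgroup (SpecialLinearGroup K E) where
  carrier := {g | ∀ i, ∀ x ∈ F (i + 1), g x - x ∈ F i}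
  one_mem' := by
    intro i x _
    simp
  mul_mem' := by
    intro a b ha hb i x hx
    have h1 : b x ∈ F (i + 1) := by
      have := (F (i + 1)).add_mem (F.le_succ i (hb i x hx)) hx
      rwa [sub_add_cancel] at this
    have h2 := (F i).add_mem (ha i _ h1) (hb i x hx)
    rwa [sub_add_sub_cancel] at h2
  inv_mem' := by
    intro a ha i x hx
    have h0 : ∀ j, ∀ x ∈ F j, a x ∈ F j := by
      intro j x hx
      have := (F j).add_mem (ha j x (F.le_succ j hx)) hx
      rwa [sub_add_cancel] at this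
    have h1 : a⁻¹ x ∈ F (i + 1) := inv_mem_of_forall (h0 (i + 1)) x hx
    have h2 := (F i).neg_mem (ha i _ h1)
    rwa [apply_inv_self', neg_sub] at h2

lemma mem_PF {F : Flag K E} {g : SpecialLinearGroup K E} :
    g ∈ PF F ↔ ∀ i, ∀ x ∈ F i, g x ∈ F i := Iff.rfl

lemma mem_VF {F : Flag K E} {g : SpecialLinearGroup K E} :
    g ∈ VF F ↔ ∀ i, ∀ x ∈ F (i + 1), g x - x ∈ F i := Iff.rfl

lemma mem_PF_iff {F : Flag K E} {g : SpecialLinearGroup K E} :
    g ∈ PF F ↔ toEnd g ∈ Pa F := Iff.rfl

lemma mem_VF_iff {F : Flag K E} {g : SpecialLinearGroup K E} :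
    g ∈ VF F ↔ toEnd g - 1 ∈ Jr F := Iff.rfl

lemma VF_le_PF (F : Flag K E) : VF F ≤ PF F := by
  intro g hg j x hx
  have := (F j).add_mem (hg j x (F.le_succ j hx)) hx
  rwa [sub_add_cancel] at this

/-- The element `1 + a` for `a` in the radical. -/
noncomputable def oneAdd {F : Flag K E} (a : End K E) (ha : a ∈ Jr F) : SpecialLinearGroup K E :=
  mkSL (1 + a) (det_one_add (Jr_nilpotent ha))

lemma toEnd_oneAdd {F : Flag K E} (a : End K E) (ha : a ∈ Jr F) :
    toEnd (oneAdd a ha) = 1 + a := rfl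

lemma oneAdd_mem {F : Flag K E} (a : End K E) (ha : a ∈ Jr F) : oneAdd a ha ∈ VF F := by
  rw [mem_VF_iff, toEnd_oneAdd, add_sub_cancel_left]
  exact ha

/-- `VF F` is in bijection with the radical. -/
noncomputable def VFEquiv (F : Flag K E) : VF F ≃ Jr F where
  toFun g := ⟨toEnd g.1 - 1, g.2⟩
  invFun a := ⟨oneAdd a.1 a.2, oneAdd_mem a.1 a.2⟩
  left_inv g := by
    apply Subtype.ext
    apply toEnd_injective
    simp [toEnd_oneAdd]
  right_inv a := by
    apply Subtype.ext
    simp [toEnd_oneAdd]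

/-- (FL3) The order of `VF F` is a power of the order of the field. -/
theorem card_VF (F : Flag K E) : Nat.card (VF F) = Nat.card K ^ finrank K (Jr F) := by
  rw [Nat.card_congr (VFEquiv F), Module.natCard_eq_pow_finrank (K := K)]

lemma conj_mem_VF {g v : SpecialLinearGroup K E} {F : Flag K E} (hv : v ∈ VF F) :
    g * v * g⁻¹ ∈ VF (mapF g.1 F) := by
  intro i x hx
  rw [mem_mapF] at hx ⊢
  have h := hv i _ hx
  have e : g⁻¹ ((g * v * g⁻¹) x - x) = v (g⁻¹ x) - g⁻¹ x := by
    rw [mul_apply', mul_apply']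
    have := map_sub (g⁻¹).1 (g (v (g⁻¹ x))) x
    refine this.trans ?_
    congr 1
    exact inv_apply_self' g _
  rw [e]
  exact h

/-- (FL4) The conjugates of `VF F`. -/
theorem map_conj_VF (g : SpecialLinearGroup K E) (F : Flag K E) :
    (VF F).map (MulAut.conj g).toMonoidHom = VF (mapF g.1 F) := by
  apply le_antisymm
  · rintro _ ⟨v, hv, rfl⟩
    exact conj_mem_VF hv
  · intro v hv
    refine ⟨g⁻¹ * v * g, ?_, ?_⟩
    · have h := conj_mem_VF (g := g⁻¹) hv
      rw [mapF_mapF] at h
      have e : (g⁻¹).1 * g.1 = 1 := by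
        rw [← SpecialLinearGroup.coe_mul, inv_mul_cancel]; rfl
      rw [e, mapF_one, inv_inv] at h
      exact h
    · simp [mul_assoc]

lemma mapF_eq_of_mem {g : SpecialLinearGroup K E} {F : Flag K E} (hg : g ∈ PF F) :
    mapF g.1 F = F := by
  apply Flag.ext'
  intro i
  ext x
  rw [mem_mapF]
  constructor
  · intro h
    have := hg i _ h
    rwa [apply_inv_self'] at this
  · intro h
    exact (PF F).inv_mem hg i x h

/-- Characterisation of `F (i + 1)` by `VF F` and `F i`. -/
lemma mem_succ_of_forall {F : Flag K E} {i : ℕ} (hi : ¬ F (i + 1) ≤ F i) {y : E}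
    (hy : ∀ v ∈ VF F, v y - y ∈ F i) : y ∈ F (i + 1) := by
  by_contra hn
  obtain ⟨w, hw, hwi⟩ := SetLike.not_le_iff_exists.mp hi
  obtain ⟨j, hij, hj, -⟩ := exists_level F hn
  obtain ⟨φ, hφ, hφ0⟩ := exists_dual hj
  have hmem := smulRight_mem_Jr (w := w) hφ0 (F.mono hij hw)
  have h := hy _ (oneAdd_mem _ hmem)
  apply hwi
  have e : (oneAdd _ hmem) y - y = w := by
    change (1 + φ.smulRight w) y - y = w
    simp [hφ]
  rwa [e] at h

/-- (FL1) The normaliser of `VF F` is `PF F`. -/
theorem normalizer_VF (F : Flag K E) :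
    Subgroup.normalizer (VF F : Set (SpecialLinearGroup K E)) = PF F := by
  apply le_antisymm
  · intro g hg
    have hg' : ∀ v ∈ VF F, g⁻¹ * v * g ∈ VF F := by
      intro v hv
      have h := (Subgroup.mem_normalizer_iff.mp
        ((Subgroup.normalizer (VF F : Set (SpecialLinearGroup K E))).inv_mem hg) v).mp hv
      rwa [inv_inv] at h
    intro i
    induction i with
    | zero =>
      intro x hx
      rw [F.zero] at hx ⊢
      rw [Submodule.mem_bot] at hx
      subst hx
      have : g (0 : E) = 0 := map_zero g.1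
      simp [this]
    | succ i ih =>
      by_cases hi : F (i + 1) ≤ F i
      · have e : F (i + 1) = F i := le_antisymm hi (F.le_succ i)
        rw [e]
        exact ih
      · intro x hx
        apply mem_succ_of_forall hi
        intro v hv
        have h := ih _ (hg' v hv i x hx)
        have e : g ((g⁻¹ * v * g) x - x) = v (g x) - g x := by
          have := map_sub g.1 ((g⁻¹ * v * g) x) x
          refine this.trans ?_
          congr 1
          rw [mul_apply', mul_apply']
          exact apply_inv_self' g _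
        rwa [e] at h
  · intro g hg
    rw [Subgroup.mem_normalizer_iff_map_conj_eq]
    have h := map_conj_VF g F
    rw [mapF_eq_of_mem hg] at h
    exact h

end fin

end Vale.Agent.P180.R2.H854
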