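import Vale.Agent.P180.R2.H854.FlagStar

/-!
P180: flags, their stabilisers and unipotent radicals in the general linear group `E ≃ₗ[K] E`, and
the parabolic system of the general linear group.
-/

namespace Vale.Agent.P180.R2.H854.GL

open Module Vale.Agent.P180.R2.H854

variable {K E : Type*} [Field K] [AddCommGroup E] [Module K E]

/-- The underlying endomorphism. -/
def tE (g : E ≃ₗ[K] E) : End K E := (g : E →ₗ[K] E)

@[simp] lemma tE_apply (g : E ≃ₗ[K] E) (x : E) : tE g x = g x := rfl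

lemma tE_mul (g h : E ≃ₗ[K] E) : tE (g * h) = tE g * tE h := rfl

lemma tE_one : tE (1 : E ≃ₗ[K] E) = 1 := rfl

lemma tE_injective : Function.Injective (tE (K := K) (E := E)) := by
  intro g h hgh
  ext x
  exact congrArg (fun a : End K E => a x) hgh

lemma mul_apply (g h : E ≃ₗ[K] E) (x : E) : (g * h) x = g (h x) := rfl

lemma one_apply (x : E) : (1 : E ≃ₗ[K] E) x = x := rfl

lemma inv_apply_self (g : E ≃ₗ[K] E) (x : E) : g⁻¹ (g x) = x := by
  rw [← mul_apply, inv_mul_cancel, one_apply]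

lemma apply_inv_self (g : E ≃ₗ[K] E) (x : E) : g (g⁻¹ x) = x := by
  rw [← mul_apply, mul_inv_cancel, one_apply]

lemma mem_mapF {g : E ≃ₗ[K] E} {F : Flag K E} {i : ℕ} {x : E} :
    x ∈ mapF g F i ↔ g⁻¹ x ∈ F i := by
  constructor
  · rintro ⟨y, hy, rfl⟩
    have : g⁻¹ ((g : E →ₗ[K] E) y) = y := inv_apply_self g y
    rwa [this]
  · intro h
    exact ⟨g⁻¹ x, h, apply_inv_self g x⟩

section fin

variable [FiniteDimensional K E]

/-- An automorphism stabilising a subspace maps it onto itself. -/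
lemma inv_mem_of_forall {W : Submodule K E} {g : E ≃ₗ[K] E}
    (h : ∀ x ∈ W, g x ∈ W) : ∀ x ∈ W, g⁻¹ x ∈ W := by
  have h1 : W.map (tE g) ≤ W := by
    rintro _ ⟨x, hx, rfl⟩
    exact h x hx
  have h2 : W.map (tE g) = W :=
    Submodule.eq_of_le_of_finrank_eq h1 (LinearEquiv.finrank_map_eq g W)
  intro x hx
  rw [← h2] at hx
  obtain ⟨y, hy, rfl⟩ := hx
  rw [tE_apply, inv_apply_self]
  exact hy

/-- The stabiliser of a flag in the general linear group. -/
def PG (F : Flag K E) : Subgroup (E ≃ₗ[K] E) where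
  carrier := {g | ∀ i, ∀ x ∈ F i, g x ∈ F i}
  one_mem' := fun i x hx => hx
  mul_mem' := by
    intro a b ha hb i x hx
    exact ha i _ (hb i x hx)
  inv_mem' := by
    intro a ha i
    exact inv_mem_of_forall (ha i)

/-- The unipotent radical of the stabiliser of a flag in the general linear group. -/
def VG (F : Flag K E) : Subgroup (E ≃ₗ[K] E) where
  carrier := {g | ∀ i, ∀ x ∈ F (i + 1), g x - x ∈ F i}
  one_mem' := by
    intro i x _
    simp
  mul_mem' := by
    intro a b ha hb i x hx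
    have h1 : b x ∈ F (i + 1) := by
      have := (F (i + 1)).add_mem (F.le_succ i (hb i x hx)) hx
      rwa [sub_add_cancel] at this
    have h2 := (F i).add_mem (ha i _ h1) (hb i x hx)
    rwa [sub_add_sub_cancel] at h2
  inv_mem' := by
    intro a ha i x hx
    have h0 : ∀ j, ∀ x ∈ F j, a x ∈ F j := by
      intro j x hx
      have := (F j).add_mem (ha j x (F.le_succ j hx)) hx
      rwa [sub_add_cancel] at this
    have h1 : a⁻¹ x ∈ F (i + 1) := inv_mem_of_forall (h0 (i + 1)) x hx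
    have h2 := (F i).neg_mem (ha i _ h1)
    rwa [apply_inv_self, neg_sub] at h2

lemma mem_PG {F : Flag K E} {g : E ≃ₗ[K] E} : g ∈ PG F ↔ ∀ i, ∀ x ∈ F i, g x ∈ F i := Iff.rfl

lemma mem_VG {F : Flag K E} {g : E ≃ₗ[K] E} :
    g ∈ VG F ↔ ∀ i, ∀ x ∈ F (i + 1), g x - x ∈ F i := Iff.rfl

lemma mem_PG_iff {F : Flag K E} {g : E ≃ₗ[K] E} : g ∈ PG F ↔ tE g ∈ Pa F := Iff.rfl

lemma mem_VG_iff {F : Flag K E} {g : E ≃ₗ[K] E} : g ∈ VG F ↔ tE g - 1 ∈ Jr F := Iff.rfl

lemma VG_le_PG (F : Flag K E) : VG F ≤ PG F := by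
  intro g hg j x hx
  have := (F j).add_mem (hg j x (F.le_succ j hx)) hx
  rwa [sub_add_cancel] at this

/-- The element `1 + a` for `a` in the radical. -/
noncomputable def oneAddG {F : Flag K E} (a : End K E) (ha : a ∈ Jr F) : E ≃ₗ[K] E :=
  (oneAdd a ha).1

lemma tE_oneAddG {F : Flag K E} (a : End K E) (ha : a ∈ Jr F) :
    tE (oneAddG a ha) = 1 + a := rfl

lemma oneAddG_mem {F : Flag K E} (a : End K E) (ha : a ∈ Jr F) : oneAddG a ha ∈ VG F := by
  rw [mem_VG_iff, tE_oneAddG, add_sub_cancel_left]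
  exact ha

/-- The unipotent radical is the image of the one of the special linear group. -/
lemma VG_eq_map (F : Flag K E) :
    VG F = (VF F).map (SpecialLinearGroup.toLinearEquiv (R := K) (V := E)) := by
  apply le_antisymm
  · intro g hg
    refine ⟨oneAdd _ (mem_VG_iff.mp hg), oneAdd_mem _ _, ?_⟩
    apply tE_injective
    change toEnd (oneAdd _ (mem_VG_iff.mp hg)) = tE g
    rw [toEnd_oneAdd, add_sub_cancel]
  · rintro _ ⟨v, hv, rfl⟩
    exact hv

lemma det_of_mem_VG {F : Flag K E} {g : E ≃ₗ[K] E} (hg : g ∈ VG F) :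
    LinearEquiv.det g = 1 := by
  rw [VG_eq_map] at hg
  obtain ⟨v, -, rfl⟩ := hg
  exact v.2

theorem card_VG (F : Flag K E) : Nat.card (VG F) = Nat.card K ^ finrank K (Jr F) := by
  rw [VG_eq_map, ← card_VF]
  apply Subgroup.card_map_of_injective
  exact Subtype.val_injective

lemma conj_mem_VG {g v : E ≃ₗ[K] E} {F : Flag K E} (hv : v ∈ VG F) :
    g * v * g⁻¹ ∈ VG (mapF g F) := by
  intro i x hx
  rw [mem_mapF] at hx ⊢
  have h := hv i _ hx
  have e : g⁻¹ ((g * v * g⁻¹) x - x) = v (g⁻¹ x) - g⁻¹ x := by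
    rw [mul_apply, mul_apply, map_sub, inv_apply_self]
  rw [e]
  exact h

/-- The conjugates of `VG F`. -/
theorem map_conj_VG (g : E ≃ₗ[K] E) (F : Flag K E) :
    (VG F).map (MulAut.conj g).toMonoidHom = VG (mapF g F) := by
  apply le_antisymm
  · rintro _ ⟨v, hv, rfl⟩
    exact conj_mem_VG hv
  · intro v hv
    refine ⟨g⁻¹ * v * g, ?_, ?_⟩
    · have h := conj_mem_VG (g := g⁻¹) hv
      rw [mapF_mapF, inv_mul_cancel, mapF_one, inv_inv] at h
      exact h
    · simp [mul_assoc]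

lemma mapF_eq_of_mem {g : E ≃ₗ[K] E} {F : Flag K E} (hg : g ∈ PG F) : mapF g F = F := by
  apply Flag.ext'
  intro i
  ext x
  rw [mem_mapF]
  constructor
  · intro h
    have := hg i _ h
    rwa [apply_inv_self] at this
  · intro h
    exact (PG F).inv_mem hg i x h

/-- Characterisation of `F (i + 1)` by `VG F` and `F i`. -/
lemma mem_succ_of_forall {F : Flag K E} {i : ℕ} (hi : ¬ F (i + 1) ≤ F i) {y : E}
    (hy : ∀ v ∈ VG F, v y - y ∈ F i) : y ∈ F (i + 1) :=
  H854.mem_succ_of_forall hi fun v hv => hy v.1 hv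

/-- The normaliser of `VG F` is `PG F`. -/
theorem normalizer_VG (F : Flag K E) :
    Subgroup.normalizer (VG F : Set (E ≃ₗ[K] E)) = PG F := by
  apply le_antisymm
  · intro g hg
    have hg' : ∀ v ∈ VG F, g⁻¹ * v * g ∈ VG F := by
      intro v hv
      have h := (Subgroup.mem_normalizer_iff.mp
        ((Subgroup.normalizer (VG F : Set (E ≃ₗ[K] E))).inv_mem hg) v).mp hv
      rwa [inv_inv] at h
    intro i
    induction i with
    | zero =>
      intro x hx
      rw [F.zero] at hx ⊢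
      rw [Submodule.mem_bot] at hx
      subst hx
      simp
    | succ i ih =>
      by_cases hi : F (i + 1) ≤ F i
      · have e : F (i + 1) = F i := le_antisymm hi (F.le_succ i)
        rw [e]
        exact ih
      · intro x hx
        apply mem_succ_of_forall hi
        intro v hv
        have h := ih _ (hg' v hv i x hx)
        have e : g ((g⁻¹ * v * g) x - x) = v (g x) - g x := by
          rw [map_sub, mul_apply, mul_apply, apply_inv_self]
        rwa [e] at h
  · intro g hg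
    rw [Subgroup.mem_normalizer_iff_map_conj_eq]
    have h := map_conj_VG g F
    rw [mapF_eq_of_mem hg] at h
    exact h

lemma PG_star_le {F H : Flag K E} {M : ℕ} (h0 : 0 < M) :
    PG (starN F H M h0) ≤ PG F := by
  intro g hg i x hx
  have h := hg (i * M) x
  rw [starN_apply, Nat.mul_div_cancel _ h0, Nat.mul_mod_left, H.zero, inf_bot_eq,
    sup_bot_eq] at h
  exact h hx

/-- Removing a radical part from an element of the stabiliser. -/
lemma exists_factor {F : Flag K E} {g : E ≃ₗ[K] E} (hg : g ∈ PG F) {a1 : End K E}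
    (h1 : a1 ∈ Jr F) : ∃ u ∈ VG F, tE (u * g) = tE g - a1 := by
  have h2 : -(a1 * tE g⁻¹) ∈ Jr F :=
    (Jr F).neg_mem (Jr_mul h1 (mem_PG_iff.mp ((PG F).inv_mem hg)))
  refine ⟨oneAddG _ h2, oneAddG_mem _ h2, ?_⟩
  rw [tE_mul, tE_oneAddG, add_mul, one_mul, neg_mul, mul_assoc, ← tE_mul,
    inv_mul_cancel, tE_one, mul_one, sub_eq_add_neg]

/-- The radical and the stabiliser of the product of two flags in terms of endomorphisms. -/
lemma Jr_le_star {F H : Flag K E} {M : ℕ} (hM : H M = ⊤) (h0 : 0 < M) :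
    Jr F ≤ Jr (starN F H M h0) := by
  obtain ⟨N, hN⟩ := F.top
  obtain ⟨b, hbF, hbH⟩ := exists_adapted F H hN hM
  have hb := adapted_starN hbF hbH M hM h0
  intro a ha
  rw [hbF.mem_Jr_iff] at ha
  rw [hb.mem_Jr_iff]
  intro l m hm
  have h1 := ha l m hm
  have h2 := Nat.mul_le_mul_right M (Nat.succ_le_of_lt h1)
  rw [Nat.succ_mul] at h2
  have h3 : ((m.1.2 : ℕ)) < M := m.1.2.2
  omega

lemma Pa_inf_Jr_le_star {F H : Flag K E} {M : ℕ} (hM : H M = ⊤) (h0 : 0 < M) :
    Pa F ⊓ Jr H ≤ Jr (starN F H M h0) := by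
  obtain ⟨N, hN⟩ := F.top
  obtain ⟨b, hbF, hbH⟩ := exists_adapted F H hN hM
  have hb := adapted_starN hbF hbH M hM h0
  rintro a ⟨h1, h2⟩
  have h1' : a ∈ Pa F := h1
  have h2' : a ∈ Jr H := h2
  rw [hbF.mem_Pa_iff] at h1'
  rw [hbH.mem_Jr_iff] at h2'
  rw [hb.mem_Jr_iff]
  intro l m hm
  have h3 := Nat.mul_le_mul_right M (h1' l m hm)
  have h4 := h2' l m hm
  omega

lemma Pa_inf_Pa_le_star {F H : Flag K E} {M : ℕ} (hM : H M = ⊤) (h0 : 0 < M) :
    Pa F ⊓ Pa H ≤ Pa (starN F H M h0) := by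
  obtain ⟨N, hN⟩ := F.top
  obtain ⟨b, hbF, hbH⟩ := exists_adapted F H hN hM
  have hb := adapted_starN hbF hbH M hM h0
  rintro a ⟨h1, h2⟩
  have h1' : a ∈ Pa F := h1
  have h2' : a ∈ Pa H := h2
  rw [hbF.mem_Pa_iff] at h1'
  rw [hbH.mem_Pa_iff] at h2'
  rw [hb.mem_Pa_iff]
  intro l m hm
  have h3 := Nat.mul_le_mul_right M (h1' l m hm)
  have h4 := h2' l m hm
  omega

lemma VG_le_star {F H : Flag K E} {M : ℕ} (hM : H M = ⊤) (h0 : 0 < M) :
    VG F ≤ VG (starN F H M h0) := by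
  intro g hg
  rw [mem_VG_iff] at hg ⊢
  exact Jr_le_star hM h0 hg

theorem star_VG (F H : Flag K E) {M : ℕ} (hM : H M = ⊤) (h0 : 0 < M) :
    VG F ⊔ (PG F ⊓ VG H) = VG (starN F H M h0) := by
  apply le_antisymm
  · refine sup_le (VG_le_star hM h0) ?_
    rintro g ⟨h1, h2⟩
    have h1' : tE g - 1 ∈ Pa F := (Pa F).sub_mem h1 (one_mem_Pa F)
    exact Pa_inf_Jr_le_star hM h0 ⟨h1', h2⟩
  · intro g hg
    have hg1 : tE g - 1 ∈ Jr (starN F H M h0) := hg
    obtain ⟨a1, a2, e, h1, h2, -, h4⟩ := exists_decomp hM h0 (Jr_le_Pa _ hg1)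
    have hgF : g ∈ PG F := PG_star_le h0 (VG_le_PG _ hg)
    obtain ⟨u, hu, hug⟩ := exists_factor hgF h1
    have h5 : tE (u * g) - 1 = a2 := by
      rw [hug]
      have : tE g = 1 + (a1 + a2) := by rw [← e]; abel
      rw [this]
      abel
    have h6 : u * g ∈ PG F ⊓ VG H := by
      refine ⟨?_, ?_⟩
      · exact (PG F).mul_mem (VG_le_PG F hu) hgF
      · change u * g ∈ VG H
        rw [mem_VG_iff, h5]
        exact h4 hg1
    have h7 : g = u⁻¹ * (u * g) := by group
    rw [h7]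
    exact mul_mem (Subgroup.mem_sup_left ((VG F).inv_mem hu)) (Subgroup.mem_sup_right h6)

theorem star_PG (F H : Flag K E) {M : ℕ} (hM : H M = ⊤) (h0 : 0 < M) :
    PG (starN F H M h0) = VG F ⊔ (PG F ⊓ PG H) := by
  apply le_antisymm
  · intro g hg
    obtain ⟨a1, a2, e, h1, h2, h3, -⟩ := exists_decomp hM h0 (mem_PG_iff.mp hg)
    have hgF : g ∈ PG F := PG_star_le h0 hg
    obtain ⟨u, hu, hug⟩ := exists_factor hgF h1
    have h5 : tE (u * g) = a2 := by
      rw [hug, e]
      abel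
    have h6 : u * g ∈ PG F ⊓ PG H := by
      refine ⟨?_, ?_⟩
      · change u * g ∈ PG F
        rw [mem_PG_iff, h5]
        exact h2
      · change u * g ∈ PG H
        rw [mem_PG_iff, h5]
        exact h3
    have h7 : g = u⁻¹ * (u * g) := by group
    rw [h7]
    exact mul_mem (Subgroup.mem_sup_left ((VG F).inv_mem hu)) (Subgroup.mem_sup_right h6)
  · refine sup_le ((VG_le_star hM h0).trans (VG_le_PG _)) ?_
    rintro g ⟨h1, h2⟩
    exact Pa_inf_Pa_le_star hM h0 ⟨h1, h2⟩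

/-- The parabolic system of the general linear group. -/
noncomputable def glSys (K E : Type*) [Field K] [AddCommGroup E] [Module K E]
    [FiniteDimensional K E] (p : ℕ) (hp : p.Prime) (hK : ¬ p ∣ Nat.card K) :
    H799.ParSys p (E ≃ₗ[K] E) where
  car := Set.range VG
  conj := by
    rintro _ ⟨F, rfl⟩ g
    exact ⟨_, (map_conj_VG g F).symm⟩
  card := by
    rintro _ ⟨F, rfl⟩ hd
    rw [card_VG] at hd
    exact hK (hp.dvd_of_dvd_pow hd)
  star := by
    rintro _ ⟨F, rfl⟩ _ ⟨H, rfl⟩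
    obtain ⟨M, h0, hM⟩ := exists_pos_top H
    rw [normalizer_VG, star_VG F H hM h0]
    exact ⟨_, rfl⟩
  norm := by
    rintro _ ⟨F, rfl⟩ _ ⟨H, rfl⟩
    obtain ⟨M, h0, hM⟩ := exists_pos_top H
    rw [normalizer_VG, star_VG F H hM h0, normalizer_VG, normalizer_VG, star_PG F H hM h0]

end fin

end Vale.Agent.P180.R2.H854.GL
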