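import Vale.Agent.P180.R2.H799.BN0

/-!
P180: the quotient of a parabolic system by a central subgroup of coprime order.
-/

namespace Vale.Agent.P180.R2.H854

open Subgroup

variable {G : Type*} [Group G]

lemma conj_mem_of_coprime {Z V : Subgroup G} [Z.Normal] (hZ : Z ≤ center G)
    (hV : (Nat.card V).Coprime (Nat.card Z)) {g : G}
    (hg : QuotientGroup.mk' Z g ∈ normalizer (V.map (QuotientGroup.mk' Z) : Set (G ⧸ Z))) :
    ∀ v ∈ V, g * v * g⁻¹ ∈ V := by
  intro v hv
  have h1 : QuotientGroup.mk' Z v ∈ V.map (QuotientGroup.mk' Z) := ⟨v, hv, rfl⟩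
  have h2 := (mem_normalizer_iff.mp hg _).mp h1
  obtain ⟨v', hv', he⟩ := h2
  rw [← map_inv, ← map_mul, ← map_mul] at he
  have hz : v'⁻¹ * (g * v * g⁻¹) ∈ Z := QuotientGroup.eq.mp he
  set z := v'⁻¹ * (g * v * g⁻¹) with hzdef
  have hgv : g * v * g⁻¹ = v' * z := by rw [hzdef]; group
  have hcomm : Commute v' z := (mem_center_iff.mp (hZ hz) v')
  have hp : ∀ x ∈ V, x ^ Nat.card V = 1 := by
    intro x hx
    exact congrArg Subtype.val (pow_card_eq_one' (x := (⟨x, hx⟩ : V)))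
  have h3 : z ^ Nat.card V = 1 := by
    have h4 : (g * v * g⁻¹) ^ Nat.card V = 1 := by
      rw [conj_pow, hp v hv, mul_one, mul_inv_cancel]
    rw [hgv, hcomm.mul_pow, hp v' hv', one_mul] at h4
    exact h4
  have h5 : z ^ Nat.card Z = 1 := by
    exact congrArg Subtype.val (pow_card_eq_one' (x := (⟨z, hz⟩ : Z)))
  have h6 : z = 1 := by
    have := Nat.dvd_gcd (orderOf_dvd_of_pow_eq_one h3) (orderOf_dvd_of_pow_eq_one h5)
    rw [hV.gcd_eq_one, Nat.dvd_one, orderOf_eq_one_iff] at this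
    exact this
  rw [hgv, h6, mul_one]
  exact hv'

/-- The normaliser of the image of `V` is the image of the normaliser. -/
theorem normalizer_map_mk {Z V : Subgroup G} [Z.Normal] (hZ : Z ≤ center G)
    (hV : (Nat.card V).Coprime (Nat.card Z)) :
    normalizer (V.map (QuotientGroup.mk' Z) : Set (G ⧸ Z)) =
      (normalizer (V : Set G)).map (QuotientGroup.mk' Z) := by
  apply le_antisymm
  · intro x hx
    obtain ⟨g, rfl⟩ := QuotientGroup.mk'_surjective Z x
    refine ⟨g, ?_, rfl⟩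
    have h1 := conj_mem_of_coprime hZ hV hx
    have h2 := conj_mem_of_coprime (g := g⁻¹) hZ hV (by
      rw [map_inv]; exact inv_mem hx)
    refine mem_normalizer_iff.mpr fun h => ⟨h1 h, fun h3 => ?_⟩
    have h4 := h2 _ h3
    have e : g⁻¹ * (g * h * g⁻¹) * g⁻¹⁻¹ = h := by group
    rwa [e] at h4
  · exact le_normalizer_map _

lemma map_inf_mk {Z A B : Subgroup G} [Z.Normal] (hZ : Z ≤ A) :
    (A ⊓ B).map (QuotientGroup.mk' Z) =
      A.map (QuotientGroup.mk' Z) ⊓ B.map (QuotientGroup.mk' Z) := by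
  apply le_antisymm
  · exact map_inf_le _ _ _
  · rintro _ ⟨⟨a, ha, rfl⟩, ⟨b, hb, hab⟩⟩
    refine ⟨b, ⟨?_, hb⟩, hab⟩
    have h1 : a⁻¹ * b ∈ Z := QuotientGroup.eq.mp hab.symm
    have h2 : b = a * (a⁻¹ * b) := by group
    rw [h2]
    exact A.mul_mem ha (hZ h1)

lemma center_le_normalizer' {Z : Subgroup G} (hZ : Z ≤ center G) (V : Subgroup G) :
    Z ≤ normalizer (V : Set G) := by
  intro z hz
  refine mem_normalizer_iff.mpr fun h => ?_
  have : z * h * z⁻¹ = h := by
    rw [← mem_center_iff.mp (hZ hz) h, mul_inv_cancel_right]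
  rw [this]

/-- (FL7) The image of a parabolic system in the quotient by a central subgroup of coprime
order. -/
def quotSys {p : ℕ} (S : H799.ParSys p G) (Z : Subgroup G) [Z.Normal] (hZ : Z ≤ center G)
    (hc : ∀ V ∈ S.car, (Nat.card V).Coprime (Nat.card Z)) : H799.ParSys p (G ⧸ Z) where
  car := Subgroup.map (QuotientGroup.mk' Z) '' S.car
  conj := by
    rintro _ ⟨V, hV, rfl⟩ x
    obtain ⟨g, rfl⟩ := QuotientGroup.mk'_surjective Z x
    refine ⟨V.map (MulAut.conj g).toMonoidHom, S.conj V hV g, ?_⟩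
    rw [Subgroup.map_map, Subgroup.map_map]
    rfl
  card := by
    rintro _ ⟨V, hV, rfl⟩ hd
    exact S.card V hV (hd.trans (card_map_dvd _ _))
  star := by
    rintro _ ⟨V, hV, rfl⟩ _ ⟨W, hW, rfl⟩
    rw [normalizer_map_mk hZ (hc V hV), ← map_inf_mk (center_le_normalizer' hZ V),
      ← Subgroup.map_sup]
    exact ⟨_, S.star V hV W hW, rfl⟩
  norm := by
    rintro _ ⟨V, hV, rfl⟩ _ ⟨W, hW, rfl⟩
    rw [normalizer_map_mk hZ (hc V hV), ← map_inf_mk (center_le_normalizer' hZ V),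
      ← Subgroup.map_sup, normalizer_map_mk hZ (hc _ (S.star V hV W hW)), S.norm V hV W hW,
      Subgroup.map_sup, map_inf_mk (center_le_normalizer' hZ V), normalizer_map_mk hZ (hc W hW)]

end Vale.Agent.P180.R2.H854
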