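import Vale.Agent.P180.R2.H854.FlagOrb
import Vale.Agent.P180.R2.H854.ParQuot

/-!
P180: the parabolic system of a central quotient of the special linear group.
-/

namespace Vale.Agent.P180.R2.H854

open Module

/-- The parabolic system of the quotient of the special linear group by a central subgroup. -/
noncomputable def slQuotSys (K E : Type*) [Field K] [Finite K] [AddCommGroup E] [Module K E]
    [FiniteDimensional K E] (p : ℕ) (hp : p.Prime) (hK : ¬ p ∣ Nat.card K)
    (Z : Subgroup (SpecialLinearGroup K E)) [Z.Normal]
    (hZ : Z ≤ Subgroup.center (SpecialLinearGroup K E)) :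
    H799.ParSys p (SpecialLinearGroup K E ⧸ Z) :=
  quotSys (slSys K E p hp hK) Z hZ (by
    rintro _ ⟨F, rfl⟩
    exact coprime_center hZ F)

lemma slQuotSys_car (K E : Type*) [Field K] [Finite K] [AddCommGroup E] [Module K E]
    [FiniteDimensional K E] (p : ℕ) (hp : p.Prime) (hK : ¬ p ∣ Nat.card K)
    (Z : Subgroup (SpecialLinearGroup K E)) [Z.Normal]
    (hZ : Z ≤ Subgroup.center (SpecialLinearGroup K E)) :
    (slQuotSys K E p hp hK Z hZ).car =
      Subgroup.map (QuotientGroup.mk' Z) '' Set.range (VF (K := K) (E := E)) := rfl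

end Vale.Agent.P180.R2.H854
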