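import Vale.Agent.P180.R2.H854.FlagB
import Vale.Agent.P180.R2.H799.BN0

/-!
P180: the product of two flags, and the parabolic system of the special linear group.
-/

namespace Vale.Agent.P180.R2.H854

open Module

variable {K E : Type*} [Field K] [AddCommGroup E] [Module K E]

/-- The flag with members `F i ⊔ (F (i + 1) ⊓ H j)`. -/
def starN (F H : Flag K E) (M : ℕ) (h0 : 0 < M) : Flag K E where
  car k := F (k / M) ⊔ (F (k / M + 1) ⊓ H (k % M))
  mono := by
    refine monotone_nat_of_le_succ fun k => ?_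
    rcases Nat.lt_or_ge (k % M + 1) M with h | h
    · have e1 : (k + 1) / M = k / M := by
        apply Nat.succ_div_of_not_dvd
        intro hd
        have := Nat.mod_eq_zero_of_dvd hd
        rw [Nat.add_mod, Nat.mod_eq_of_lt (a := 1) (by omega), Nat.mod_eq_of_lt h] at this
        omega
      have e2 : (k + 1) % M = k % M + 1 := by
        rw [Nat.add_mod, Nat.mod_eq_of_lt (a := 1) (by omega), Nat.mod_eq_of_lt h]
      rw [e1, e2]
      exact sup_le_sup_left (inf_le_inf_left _ (H.le_succ _)) _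
    · have h1 := Nat.mod_lt k h0
      have h2 : k % M + 1 = M := by omega
      have h3 : k + 1 = M * (k / M + 1) := by
        have := Nat.div_add_mod k M
        rw [mul_add, mul_one]
        omega
      have e1 : (k + 1) / M = k / M + 1 := by
        rw [h3, Nat.mul_div_cancel_left _ h0]
      rw [e1]
      exact le_sup_of_le_left (sup_le (F.le_succ _) inf_le_left)
  zero := by
    simp [F.zero, H.zero]
  top := by
    obtain ⟨N, hN⟩ := F.top
    refine ⟨N * M, ?_⟩
    rw [Nat.mul_div_cancel _ h0, hN, top_sup_eq]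

lemma starN_apply (F H : Flag K E) (M : ℕ) (h0 : 0 < M) (k : ℕ) :
    starN F H M h0 k = F (k / M) ⊔ (F (k / M + 1) ⊓ H (k % M)) := rfl

lemma adapted_starN {ι : Type*} {b : Basis ι K E} {α β : ι → ℕ} {F H : Flag K E}
    (hF : Adapted b α F) (hH : Adapted b β H) (M : ℕ) (hM : H M = ⊤) (h0 : 0 < M) :
    Adapted b (fun l => α l * M + β l) (starN F H M h0) := by
  have hβ : ∀ l, β l < M := fun l => hH.self_mem_iff.mp (by rw [hM]; trivial)
  intro k
  have h1 : F (k / M + 1) ⊓ H (k % M) =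
      Submodule.span K (b '' {l | α l < k / M + 1 ∧ β l < k % M}) := by
    ext x
    rw [Submodule.mem_inf, hF.mem_iff, hH.mem_iff, Basis.mem_span_image]
    constructor
    · rintro ⟨h2, h3⟩ l hl
      exact ⟨h2 l (Finsupp.mem_support_iff.mp hl), h3 l (Finsupp.mem_support_iff.mp hl)⟩
    · intro h2
      exact ⟨fun l hl => (h2 (Finsupp.mem_support_iff.mpr hl)).1,
        fun l hl => (h2 (Finsupp.mem_support_iff.mpr hl)).2⟩
  rw [starN_apply, h1, hF (k / M), ← Submodule.span_union, ← Set.image_union]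
  congr 2
  ext l
  simp only [Set.mem_union, Set.mem_ofPred_eq]
  have h2 := Nat.div_add_mod k M
  have h3 := hβ l
  have h4 : k / M * M = M * (k / M) := mul_comm _ _
  constructor
  · rintro (h | ⟨h, h'⟩)
    · have h5 := Nat.mul_le_mul_right M (Nat.succ_le_of_lt h)
      rw [Nat.succ_mul] at h5
      omega
    · have h5 := Nat.mul_le_mul_right M (Nat.lt_succ_iff.mp h)
      omega
  · intro h
    rcases lt_trichotomy (α l) (k / M) with h5 | h5 | h5
    · exact Or.inl h5
    · refine Or.inr ⟨by omega, ?_⟩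
      rw [h5] at h
      omega
    · exfalso
      have h6 := Nat.mul_le_mul_right M (Nat.succ_le_of_lt h5)
      rw [Nat.succ_mul] at h6
      have h7 := Nat.mod_lt k h0
      omega

lemma exists_pos_top (H : Flag K E) : ∃ M, 0 < M ∧ H M = ⊤ := by
  obtain ⟨M, hM⟩ := H.top
  exact ⟨M + 1, Nat.succ_pos _, H.top_of_le hM (Nat.le_succ _)⟩

/-- The product of two flags. -/
noncomputable def star (F H : Flag K E) : Flag K E :=
  starN F H (exists_pos_top H).choose
    (exists_pos_top H).choose_spec.1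

section fin

variable [FiniteDimensional K E]

lemma VF_le_star {F H : Flag K E} {M : ℕ} (hM : H M = ⊤) (h0 : 0 < M) :
    VF F ≤ VF (starN F H M h0) := by
  obtain ⟨N, hN⟩ := F.top
  obtain ⟨b, hbF, hbH⟩ := exists_adapted F H hN hM
  have hb := adapted_starN hbF hbH M hM h0
  intro g hg
  rw [mem_VF_iff, hbF.mem_Jr_iff] at hg
  rw [mem_VF_iff, hb.mem_Jr_iff]
  intro l m hm
  have h1 := hg l m hm
  have h2 := Nat.mul_le_mul_right M (Nat.succ_le_of_lt h1)
  rw [Nat.succ_mul] at h2
  have h3 : ((m.1.2 : ℕ)) < M := m.1.2.2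
  omega

lemma PF_star_le {F H : Flag K E} {M : ℕ} (h0 : 0 < M) :
    PF (starN F H M h0) ≤ PF F := by
  intro g hg i x hx
  have h := hg (i * M) x
  rw [starN_apply, Nat.mul_div_cancel _ h0, Nat.mul_mod_left, H.zero, inf_bot_eq,
    sup_bot_eq] at h
  exact h hx

/-- The decomposition of an endomorphism preserving the product flag. -/
lemma exists_decomp {F H : Flag K E} {M : ℕ} (hM : H M = ⊤) (h0 : 0 < M) {a : End K E}
    (ha : a ∈ Pa (starN F H M h0)) :
    ∃ a1 a2 : End K E, a = a1 + a2 ∧ a1 ∈ Jr F ∧ a2 ∈ Pa F ∧ a2 ∈ Pa H ∧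
      (a ∈ Jr (starN F H M h0) → a2 ∈ Jr H) := by
  classical
  obtain ⟨N, hN⟩ := F.top
  obtain ⟨b, hbF, hbH⟩ := exists_adapted F H hN hM
  have hb := adapted_starN hbF hbH M hM h0
  let c2 : Idx F H N M → E := fun l =>
    ∑ m, (if (m.1.1 : ℕ) = l.1.1 then b.repr (a (b l)) m else 0) • b m
  let a2 : End K E := b.constr K c2
  have e2 : ∀ l m, b.repr (a2 (b l)) m =
      if (m.1.1 : ℕ) = l.1.1 then b.repr (a (b l)) m else 0 := by
    intro l m
    have h1 : a2 (b l) = c2 l := b.constr_basis K c2 l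
    rw [h1]
    simp only [c2, map_sum, map_smul, Basis.repr_self, Finsupp.coe_finsetSum,
      Finset.sum_apply, Finsupp.smul_apply, Finsupp.single_apply, smul_eq_mul, mul_ite, mul_one,
      mul_zero]
    rw [Finset.sum_ite_eq' Finset.univ m]
    simp
  have hc : ∀ l m, b.repr (a (b l)) m ≠ 0 →
      (m.1.1 : ℕ) * M + m.1.2 ≤ (l.1.1 : ℕ) * M + l.1.2 := hb.mem_Pa_iff.mp ha
  have hle : ∀ l m, b.repr (a (b l)) m ≠ 0 → (m.1.1 : ℕ) ≤ l.1.1 := by
    intro l m hm
    have h1 := hc l m hm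
    by_contra h2
    have h3 := Nat.mul_le_mul_right M (Nat.succ_le_of_lt (not_le.mp h2))
    rw [Nat.succ_mul] at h3
    have h4 : ((l.1.2 : ℕ)) < M := l.1.2.2
    omega
  refine ⟨a - a2, a2, by simp, ?_, ?_, ?_, ?_⟩
  · rw [hbF.mem_Jr_iff]
    intro l m hm
    rw [LinearMap.sub_apply, map_sub, Finsupp.sub_apply, e2] at hm
    split_ifs at hm with h1
    · exact absurd (sub_self _) hm
    · rw [sub_zero] at hm
      exact lt_of_le_of_ne (hle l m hm) h1
  · rw [hbF.mem_Pa_iff]
    intro l m hm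
    rw [e2] at hm
    split_ifs at hm with h1
    · exact h1.le
    · exact absurd rfl hm
  · rw [hbH.mem_Pa_iff]
    intro l m hm
    rw [e2] at hm
    split_ifs at hm with h1
    · have h2 := hc l m hm
      rw [h1] at h2
      omega
    · exact absurd rfl hm
  · intro ha'
    rw [hb.mem_Jr_iff] at ha'
    rw [hbH.mem_Jr_iff]
    intro l m hm
    rw [e2] at hm
    split_ifs at hm with h1
    · have h2 := ha' l m hm
      rw [h1] at h2
      omega
    · exact absurd rfl hm

/-- Removing a radical part from an element of the stabiliser. -/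
lemma exists_factor {F : Flag K E} {g : SpecialLinearGroup K E} (hg : g ∈ PF F) {a1 : End K E}
    (h1 : a1 ∈ Jr F) : ∃ u ∈ VF F, toEnd (u * g) = toEnd g - a1 := by
  have h2 : -(a1 * toEnd g⁻¹) ∈ Jr F :=
    (Jr F).neg_mem (Jr_mul h1 (mem_PF_iff.mp ((PF F).inv_mem hg)))
  refine ⟨oneAdd _ h2, oneAdd_mem _ h2, ?_⟩
  rw [toEnd_mul, toEnd_oneAdd, add_mul, one_mul, neg_mul, mul_assoc, ← toEnd_mul,
    inv_mul_cancel, toEnd_one, mul_one, sub_eq_add_neg]

theorem star_VF_aux (F H : Flag K E) {M : ℕ} (hM : H M = ⊤) (h0 : 0 < M) :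
    VF F ⊔ (PF F ⊓ VF H) = VF (starN F H M h0) := by
  apply le_antisymm
  · refine sup_le (VF_le_star hM h0) ?_
    rintro g ⟨h1, h2⟩
    obtain ⟨N, hN⟩ := F.top
    obtain ⟨b, hbF, hbH⟩ := exists_adapted F H hN hM
    have hb := adapted_starN hbF hbH M hM h0
    have h1' : toEnd g - 1 ∈ Pa F := (Pa F).sub_mem h1 (one_mem_Pa F)
    have h2' : toEnd g - 1 ∈ Jr H := h2
    rw [hbF.mem_Pa_iff] at h1'
    rw [hbH.mem_Jr_iff] at h2'
    rw [mem_VF_iff, hb.mem_Jr_iff]
    intro l m hm
    have h3 := Nat.mul_le_mul_right M (h1' l m hm)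
    have h4 := h2' l m hm
    omega
  · intro g hg
    have hg1 : toEnd g - 1 ∈ Jr (starN F H M h0) := hg
    obtain ⟨a1, a2, e, h1, h2, -, h4⟩ := exists_decomp hM h0 (Jr_le_Pa _ hg1)
    have hgF : g ∈ PF F := PF_star_le h0 (VF_le_PF _ hg)
    obtain ⟨u, hu, hug⟩ := exists_factor hgF h1
    have h5 : toEnd (u * g) - 1 = a2 := by
      rw [hug]
      have : toEnd g = 1 + (a1 + a2) := by rw [← e]; abel
      rw [this]
      abel
    have h6 : u * g ∈ PF F ⊓ VF H := by
      refine ⟨?_, ?_⟩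
      · exact (PF F).mul_mem (VF_le_PF F hu) hgF
      · change u * g ∈ VF H
        rw [mem_VF_iff, h5]
        exact h4 hg1
    have h7 : g = u⁻¹ * (u * g) := by group
    rw [h7]
    exact mul_mem (Subgroup.mem_sup_left ((VF F).inv_mem hu)) (Subgroup.mem_sup_right h6)

theorem star_PF_aux (F H : Flag K E) {M : ℕ} (hM : H M = ⊤) (h0 : 0 < M) :
    PF (starN F H M h0) = VF F ⊔ (PF F ⊓ PF H) := by
  apply le_antisymm
  · intro g hg
    obtain ⟨a1, a2, e, h1, h2, h3, -⟩ := exists_decomp hM h0 (mem_PF_iff.mp hg)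
    have hgF : g ∈ PF F := PF_star_le h0 hg
    obtain ⟨u, hu, hug⟩ := exists_factor hgF h1
    have h5 : toEnd (u * g) = a2 := by
      rw [hug, e]
      abel
    have h6 : u * g ∈ PF F ⊓ PF H := by
      refine ⟨?_, ?_⟩
      · change u * g ∈ PF F
        rw [mem_PF_iff, h5]
        exact h2
      · change u * g ∈ PF H
        rw [mem_PF_iff, h5]
        exact h3
    have h7 : g = u⁻¹ * (u * g) := by group
    rw [h7]
    exact mul_mem (Subgroup.mem_sup_left ((VF F).inv_mem hu)) (Subgroup.mem_sup_right h6)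
  · refine sup_le ((VF_le_star hM h0).trans (VF_le_PF _)) ?_
    rintro g ⟨h1, h2⟩
    obtain ⟨N, hN⟩ := F.top
    obtain ⟨b, hbF, hbH⟩ := exists_adapted F H hN hM
    have hb := adapted_starN hbF hbH M hM h0
    have h1' : toEnd g ∈ Pa F := h1
    have h2' : toEnd g ∈ Pa H := h2
    rw [hbF.mem_Pa_iff] at h1'
    rw [hbH.mem_Pa_iff] at h2'
    rw [mem_PF_iff, hb.mem_Pa_iff]
    intro l m hm
    have h3 := Nat.mul_le_mul_right M (h1' l m hm)
    have h4 := h2' l m hm
    omega

/-- (FL2) The unipotent radical of the product of two flags. -/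
theorem star_VF (F H : Flag K E) : VF F ⊔ (PF F ⊓ VF H) = VF (star F H) :=
  star_VF_aux F H (exists_pos_top H).choose_spec.2 _

/-- (FL2) The stabiliser of the product of two flags. -/
theorem star_PF (F H : Flag K E) : PF (star F H) = VF F ⊔ (PF F ⊓ PF H) :=
  star_PF_aux F H (exists_pos_top H).choose_spec.2 _

/-- (FL5) The parabolic system of the special linear group. -/
noncomputable def slSys (K E : Type*) [Field K] [AddCommGroup E] [Module K E]
    [FiniteDimensional K E] (p : ℕ) (hp : p.Prime) (hK : ¬ p ∣ Nat.card K) :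
    H799.ParSys p (SpecialLinearGroup K E) where
  car := Set.range VF
  conj := by
    rintro _ ⟨F, rfl⟩ g
    exact ⟨_, (map_conj_VF g F).symm⟩
  card := by
    rintro _ ⟨F, rfl⟩ hd
    rw [card_VF] at hd
    exact hK (hp.dvd_of_dvd_pow hd)
  star := by
    rintro _ ⟨F, rfl⟩ _ ⟨H, rfl⟩
    rw [normalizer_VF, star_VF]
    exact ⟨_, rfl⟩
  norm := by
    rintro _ ⟨F, rfl⟩ _ ⟨H, rfl⟩
    rw [normalizer_VF, star_VF, normalizer_VF, normalizer_VF, star_PF]

end fin

end Vale.Agent.P180.R2.H854
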