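import Vale.Agent.P180.R2.H854.FlagOrb

/-!
P180: nondegenerate hermitian, symmetric and alternating forms on a finite vector space: adjoints,
orthogonal subspaces, the special isometry group.
-/

namespace Vale.Agent.P180.R2.H854

open Module

/-- A nondegenerate form, linear in the first variable, semilinear in the second variable, with
`B y x = ε θ (B x y)`. -/
structure HForm (K E : Type*) [Field K] [AddCommGroup E] [Module K E] where
  /-- the form -/
  B : E → E → K
  /-- the field automorphism -/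
  θ : K →+* K
  /-- the sign -/
  ε : K
  add_left : ∀ x y z, B (x + y) z = B x z + B y z
  smul_left : ∀ (a : K) x y, B (a • x) y = a * B x y
  θθ : ∀ a, θ (θ a) = a
  εε : ε * θ ε = 1
  symm : ∀ x y, B y x = ε * θ (B x y)
  nondeg : ∀ x, (∀ y, B x y = 0) → x = 0

namespace HForm

variable {K E : Type*} [Field K] [AddCommGroup E] [Module K E] (Φ : HForm K E)

lemma add_right (x y z : E) : Φ.B x (y + z) = Φ.B x y + Φ.B x z := by
  rw [Φ.symm (y + z) x, Φ.add_left, map_add, mul_add, ← Φ.symm, ← Φ.symm]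

lemma smul_right (a : K) (x y : E) : Φ.B x (a • y) = Φ.θ a * Φ.B x y := by
  rw [Φ.symm (a • y) x, Φ.smul_left, map_mul, Φ.symm y x]
  ring

lemma zero_left (y : E) : Φ.B 0 y = 0 := by
  have := Φ.smul_left 0 0 y
  rwa [zero_smul, zero_mul] at this

lemma zero_right (x : E) : Φ.B x 0 = 0 := by
  have := Φ.smul_right 0 x 0
  rwa [zero_smul, map_zero, zero_mul] at this

lemma neg_left (x y : E) : Φ.B (-x) y = -Φ.B x y := by
  rw [← neg_one_smul K, Φ.smul_left, neg_one_mul]

lemma neg_right (x y : E) : Φ.B x (-y) = -Φ.B x y := by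
  rw [← neg_one_smul K, Φ.smul_right, map_neg, map_one, neg_one_mul]

lemma sub_left (x y z : E) : Φ.B (x - y) z = Φ.B x z - Φ.B y z := by
  rw [sub_eq_add_neg, Φ.add_left, Φ.neg_left, sub_eq_add_neg]

lemma sub_right (x y z : E) : Φ.B x (y - z) = Φ.B x y - Φ.B x z := by
  rw [sub_eq_add_neg, Φ.add_right, Φ.neg_right, sub_eq_add_neg]

lemma eq_zero_comm {x y : E} (h : Φ.B x y = 0) : Φ.B y x = 0 := by
  rw [Φ.symm x y, h, map_zero, mul_zero]

lemma eq_zero_of_right {y : E} (h : ∀ x, Φ.B x y = 0) : y = 0 :=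
  Φ.nondeg y fun x => Φ.eq_zero_comm (h x)

lemma eq_of_right {y z : E} (h : ∀ x, Φ.B x y = Φ.B x z) : y = z := by
  apply sub_eq_zero.mp
  apply Φ.eq_zero_of_right
  intro x
  rw [Φ.sub_right, h, sub_self]

/-- The linear form `B · u`. -/
def fn (u : E) : E →ₗ[K] K where
  toFun x := Φ.B x u
  map_add' x y := Φ.add_left x y u
  map_smul' a x := Φ.smul_left a x u

@[simp] lemma fn_apply (u x : E) : Φ.fn u x = Φ.B x u := rfl

/-- The orthogonal subspace. -/
def perp (W : Submodule K E) : Submodule K E where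
  carrier := {x | ∀ y ∈ W, Φ.B x y = 0}
  zero_mem' := fun y _ => Φ.zero_left y
  add_mem' := by
    intro a b ha hb y hy
    rw [Φ.add_left, ha y hy, hb y hy, add_zero]
  smul_mem' := by
    intro c a ha y hy
    rw [Φ.smul_left, ha y hy, mul_zero]

lemma mem_perp {W : Submodule K E} {x : E} : x ∈ Φ.perp W ↔ ∀ y ∈ W, Φ.B x y = 0 := Iff.rfl

lemma mem_perp' {W : Submodule K E} {x : E} : x ∈ Φ.perp W ↔ ∀ y ∈ W, Φ.B y x = 0 :=
  ⟨fun h y hy => Φ.eq_zero_comm (h y hy), fun h y hy => Φ.eq_zero_comm (h y hy)⟩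

lemma perp_anti {W W' : Submodule K E} (h : W ≤ W') : Φ.perp W' ≤ Φ.perp W :=
  fun _ hx y hy => hx y (h hy)

lemma perp_sup (W W' : Submodule K E) : Φ.perp (W ⊔ W') = Φ.perp W ⊓ Φ.perp W' := by
  apply le_antisymm
  · exact le_inf (Φ.perp_anti le_sup_left) (Φ.perp_anti le_sup_right)
  · rintro x ⟨h1, h2⟩ y hy
    obtain ⟨w, hw, w', hw', rfl⟩ := Submodule.mem_sup.mp hy
    rw [Φ.add_right, h1 w hw, h2 w' hw', add_zero]

lemma le_perp_perp (W : Submodule K E) : W ≤ Φ.perp (Φ.perp W) :=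
  fun _ hx _ hy => (Φ.mem_perp'.mp hy) _ hx

lemma perp_bot : Φ.perp ⊥ = ⊤ := by
  rw [eq_top_iff]
  intro x _ y hy
  rw [Submodule.mem_bot] at hy
  rw [hy, Φ.zero_right]

/-- The special isometry group. -/
def Iso : Subgroup (SpecialLinearGroup K E) where
  carrier := {g | ∀ x y, Φ.B (g x) (g y) = Φ.B x y}
  one_mem' := fun _ _ => rfl
  mul_mem' := by
    intro a b ha hb x y
    exact (ha (b x) (b y)).trans (hb x y)
  inv_mem' := by
    intro a ha x y
    rw [← ha, apply_inv_self', apply_inv_self']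

lemma mem_Iso {g : SpecialLinearGroup K E} : g ∈ Φ.Iso ↔ ∀ x y, Φ.B (g x) (g y) = Φ.B x y :=
  Iff.rfl

section fin

variable [FiniteDimensional K E] [Finite K]

lemma exists_riesz (φ : E →ₗ[K] K) : ∃ u, ∀ x, φ x = Φ.B x u := by
  have hfin : Finite E := Module.finite_of_finite K
  have hinj : Function.Injective (fun u => (Φ.fn u : Dual K E)) := by
    intro u v huv
    apply Φ.eq_of_right
    intro x
    exact congrArg (fun f : Dual K E => f x) huv
  have hfin' : Finite (Dual K E) := Module.finite_of_finite K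
  have hcard : Nat.card (Dual K E) ≤ Nat.card E := by
    rw [Module.natCard_eq_pow_finrank (K := K) (V := E),
      Module.natCard_eq_pow_finrank (K := K) (V := Dual K E), Subspace.dual_finrank_eq]
  obtain ⟨u, hu⟩ := (hinj.bijective_of_nat_card_le hcard).2 φ
  exact ⟨u, fun x => (congrArg (fun f : Dual K E => f x) hu).symm⟩

lemma perp_perp (W : Submodule K E) : Φ.perp (Φ.perp W) = W := by
  apply le_antisymm _ (Φ.le_perp_perp W)
  intro y hy
  by_contra hn
  obtain ⟨φ, hφ, hφ0⟩ := exists_dual hn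
  obtain ⟨u, hu⟩ := Φ.exists_riesz φ
  have h1 : u ∈ Φ.perp W := by
    rw [Φ.mem_perp']
    intro w hw
    rw [← hu, hφ0 w hw]
  have h2 := hy u h1
  rw [← hu, hφ] at h2
  exact one_ne_zero h2

lemma perp_inf (W W' : Submodule K E) : Φ.perp (W ⊓ W') = Φ.perp W ⊔ Φ.perp W' := by
  rw [← Φ.perp_perp (Φ.perp W ⊔ Φ.perp W'), Φ.perp_sup, Φ.perp_perp, Φ.perp_perp]

lemma perp_top : Φ.perp ⊤ = ⊥ := by
  rw [← Φ.perp_bot, Φ.perp_perp]

lemma exists_adj (a : End K E) (y : E) : ∃ z, ∀ x, Φ.B (a x) y = Φ.B x z :=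
  Φ.exists_riesz ((Φ.fn y) ∘ₗ a)

/-- The adjoint of an endomorphism. -/
noncomputable def adj (a : End K E) : End K E where
  toFun y := (Φ.exists_adj a y).choose
  map_add' y z := by
    apply Φ.eq_of_right
    intro x
    rw [Φ.add_right, ← (Φ.exists_adj a (y + z)).choose_spec, ← (Φ.exists_adj a y).choose_spec,
      ← (Φ.exists_adj a z).choose_spec, Φ.add_right]
  map_smul' c y := by
    apply Φ.eq_of_right
    intro x
    rw [RingHom.id_apply, Φ.smul_right, ← (Φ.exists_adj a (c • y)).choose_spec,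
      ← (Φ.exists_adj a y).choose_spec, Φ.smul_right]

lemma adj_right (a : End K E) (x y : E) : Φ.B (a x) y = Φ.B x (Φ.adj a y) :=
  (Φ.exists_adj a y).choose_spec x

lemma adj_left (a : End K E) (x y : E) : Φ.B (Φ.adj a x) y = Φ.B x (a y) := by
  rw [Φ.symm y, Φ.symm (a y), Φ.adj_right]

lemma eq_adj {a a' : End K E} (h : ∀ x y, Φ.B (a x) y = Φ.B x (a' y)) : a' = Φ.adj a := by
  ext y
  apply Φ.eq_of_right
  intro x
  rw [← h, Φ.adj_right]

lemma adj_adj (a : End K E) : Φ.adj (Φ.adj a) = a :=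
  (Φ.eq_adj fun x y => Φ.adj_left a x y).symm

lemma adj_mul (a b : End K E) : Φ.adj (a * b) = Φ.adj b * Φ.adj a :=
  (Φ.eq_adj fun x y => by
    rw [End.mul_apply, End.mul_apply, Φ.adj_right, Φ.adj_right]).symm

lemma adj_one : Φ.adj 1 = 1 := (Φ.eq_adj fun _ _ => rfl).symm

lemma adj_add (a b : End K E) : Φ.adj (a + b) = Φ.adj a + Φ.adj b :=
  (Φ.eq_adj fun x y => by
    rw [LinearMap.add_apply, LinearMap.add_apply, Φ.add_left, Φ.add_right, Φ.adj_right,
      Φ.adj_right]).symm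

lemma adj_neg (a : End K E) : Φ.adj (-a) = -Φ.adj a :=
  (Φ.eq_adj fun x y => by
    rw [LinearMap.neg_apply, LinearMap.neg_apply, Φ.neg_left, Φ.neg_right, Φ.adj_right]).symm

lemma adj_sub (a b : End K E) : Φ.adj (a - b) = Φ.adj a - Φ.adj b := by
  rw [sub_eq_add_neg, Φ.adj_add, Φ.adj_neg, sub_eq_add_neg]

lemma adj_zero : Φ.adj 0 = 0 := by
  have := Φ.adj_sub 0 0
  rwa [sub_self, sub_self] at this

lemma adj_smul (c : K) (a : End K E) : Φ.adj (c • a) = Φ.θ c • Φ.adj a :=
  (Φ.eq_adj fun x y => by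
    rw [LinearMap.smul_apply, LinearMap.smul_apply, Φ.smul_left, Φ.smul_right, Φ.θθ,
      Φ.adj_right]).symm

lemma adj_pow (a : End K E) (k : ℕ) : Φ.adj (a ^ k) = Φ.adj a ^ k := by
  induction k with
  | zero => rw [pow_zero, pow_zero, Φ.adj_one]
  | succ k ih => rw [pow_succ, Φ.adj_mul, ih, ← pow_succ']

lemma mem_Iso_iff {g : SpecialLinearGroup K E} :
    g ∈ Φ.Iso ↔ Φ.adj (toEnd g) * toEnd g = 1 := by
  constructor
  · intro h
    ext y
    apply Φ.eq_of_right
    intro x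
    rw [End.mul_apply, ← Φ.adj_right]
    exact h x y
  · intro h x y
    have := congrArg (fun a : End K E => Φ.B x (a y)) h
    rw [End.mul_apply, ← Φ.adj_right] at this
    exact this

/-- Self-dual flags. -/
def SD (F : Flag K E) : Prop := ∃ N, 0 < N ∧ F N = ⊤ ∧ ∀ i ≤ N, Φ.perp (F i) = F (N - i)

lemma adj_mem_Jr {F : Flag K E} (hF : Φ.SD F) {a : End K E} (ha : a ∈ Jr F) :
    Φ.adj a ∈ Jr F := by
  obtain ⟨N, h0, hN, hF⟩ := hF
  intro i x hx
  rcases Nat.lt_or_ge i N with h | h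
  · have h1 : F i = Φ.perp (F (N - i)) := by
      rw [hF (N - i) (Nat.sub_le _ _)]
      congr 1
      omega
    have h2 : Φ.perp (F (i + 1)) = F (N - i - 1) := by
      rw [hF (i + 1) h]
      congr 1
    rw [h1, Φ.mem_perp']
    intro y hy
    rw [← Φ.adj_right]
    have h3 : a y ∈ F (N - i - 1) := by
      apply ha
      have : N - i - 1 + 1 = N - i := by omega
      rwa [this]
    rw [← h2] at h3
    exact h3 x hx
  · rw [F.top_of_le hN h]
    trivial

lemma adj_mem_Pa {F : Flag K E} (hF : Φ.SD F) {a : End K E} (ha : a ∈ Pa F) :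
    Φ.adj a ∈ Pa F := by
  obtain ⟨N, h0, hN, hF⟩ := hF
  intro i x hx
  rcases Nat.lt_or_ge i N with h | h
  · have h1 : F i = Φ.perp (F (N - i)) := by
      rw [hF (N - i) (Nat.sub_le _ _)]
      congr 1
      omega
    have h2 : Φ.perp (F i) = F (N - i) := hF i h.le
    rw [h1, Φ.mem_perp']
    intro y hy
    rw [← Φ.adj_right]
    have h3 := ha _ _ hy
    rw [← h2] at h3
    exact h3 x hx
  · rw [F.top_of_le hN h]
    trivial

end fin

end HForm

end Vale.Agent.P180.R2.H854
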