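import Vale.Agent.P180.R2.H854.FlagStar
import Vale.Agent.P180.R2.H854.ParSub

/-!
P180: block diagonal parts with respect to an adapted basis and the decomposition of the elements
of a subgroup.
-/

namespace Vale.Agent.P180.R2.H854

open Module

variable {K E : Type*} [Field K] [AddCommGroup E] [Module K E]

section dg

variable {ι : Type*} (b : Basis ι K E) (α : ι → ℕ)

open scoped Classical in
/-- The block diagonal part of an endomorphism. -/
noncomputable def dg (a : End K E) : End K E :=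
  b.constr K (fun m => b.repr.symm ((b.repr (a (b m))).filter (fun l => α l = α m)))

open scoped Classical in
lemma repr_dg (a : End K E) (l m : ι) :
    b.repr (dg b α a (b m)) l = if α l = α m then b.repr (a (b m)) l else 0 := by
  unfold dg
  rw [b.constr_basis, LinearEquiv.apply_symm_apply, Finsupp.filter_apply]

lemma dg_ext {a a' : End K E} (h : ∀ m l, b.repr (a (b m)) l = b.repr (a' (b m)) l) : a = a' :=
  b.ext fun m => b.repr.injective (Finsupp.ext fun l => h m l)

lemma dg_sub (a a' : End K E) : dg b α (a - a') = dg b α a - dg b α a' := by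
  classical
  apply dg_ext b
  intro m l
  rw [LinearMap.sub_apply, map_sub, Finsupp.sub_apply, repr_dg, repr_dg, repr_dg,
    LinearMap.sub_apply, map_sub, Finsupp.sub_apply]
  split_ifs
  · rfl
  · rw [sub_self]

lemma dg_one : dg b α 1 = 1 := by
  classical
  apply dg_ext b
  intro m l
  rw [repr_dg, End.one_apply, Basis.repr_self, Finsupp.single_apply]
  split_ifs with h1 h2 h2
  · rfl
  · rfl
  · exact absurd (by rw [h2]) h1
  · rfl

variable {b α}

lemma sub_dg_mem_Jr {F : Flag K E} (hb : Adapted b α F) {a : End K E} (ha : a ∈ Pa F) :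
    a - dg b α a ∈ Jr F := by
  classical
  rw [hb.mem_Jr_iff]
  intro l m hm
  rw [LinearMap.sub_apply, map_sub, Finsupp.sub_apply, repr_dg] at hm
  by_cases h : α m = α l
  · rw [if_pos h, sub_self] at hm
    exact absurd rfl hm
  · rw [if_neg h, sub_zero] at hm
    exact lt_of_le_of_ne (hb.mem_Pa_iff.mp ha l m hm) h

lemma dg_eq_zero {F : Flag K E} (hb : Adapted b α F) {a : End K E} (ha : a ∈ Jr F) :
    dg b α a = 0 := by
  classical
  apply dg_ext b
  intro m l
  rw [repr_dg, LinearMap.zero_apply, map_zero, Finsupp.zero_apply]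
  split_ifs with h
  · by_contra hne
    exact absurd (hb.mem_Jr_iff.mp ha m l hne) (by omega)
  · rfl

lemma dg_mem_Pa {β : ι → ℕ} {H : Flag K E} (hb : Adapted b β H) {a : End K E} (ha : a ∈ Pa H) :
    dg b α a ∈ Pa H := by
  classical
  rw [hb.mem_Pa_iff]
  intro l m hm
  rw [repr_dg] at hm
  split_ifs at hm with h
  · exact hb.mem_Pa_iff.mp ha l m hm
  · exact absurd rfl hm

lemma dg_mem_Jr {β : ι → ℕ} {H : Flag K E} (hb : Adapted b β H) {a : End K E} (ha : a ∈ Jr H) :
    dg b α a ∈ Jr H := by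
  classical
  rw [hb.mem_Jr_iff]
  intro l m hm
  rw [repr_dg] at hm
  split_ifs at hm with h
  · exact hb.mem_Jr_iff.mp ha l m hm
  · exact absurd rfl hm

end dg

variable [FiniteDimensional K E] {ι : Type*} {b : Basis ι K E} {α : ι → ℕ}

lemma Pa_mul_Jr {F : Flag K E} {a c : End K E} (ha : a ∈ Pa F) (hc : c ∈ Jr F) : a * c ∈ Jr F :=
  fun i x hx => ha i _ (hc i x hx)

/-- An element of a parabolic subgroup differs from its block diagonal part by an element of the
unipotent radical. -/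
theorem exists_dg {F : Flag K E} (hb : Adapted b α F) {g : SpecialLinearGroup K E}
    (hg : g ∈ PF F) : ∃ u ∈ VF F, toEnd (g * u) = dg b α (toEnd g) := by
  have hn : toEnd g - dg b α (toEnd g) ∈ Jr F := sub_dg_mem_Jr hb (mem_PF_iff.mp hg)
  have hn' : -(toEnd g⁻¹ * (toEnd g - dg b α (toEnd g))) ∈ Jr F :=
    (Jr F).neg_mem (Pa_mul_Jr (mem_PF_iff.mp ((PF F).inv_mem hg)) hn)
  refine ⟨oneAdd _ hn', oneAdd_mem _ hn', ?_⟩
  rw [toEnd_mul, toEnd_oneAdd, mul_add, mul_one, mul_neg, ← mul_assoc, ← toEnd_mul,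
    mul_inv_cancel, toEnd_one, one_mul]
  abel

/-- **The decomposition** of the elements of a subgroup closed under block diagonal parts. -/
theorem dec_of_dg {F : Flag K E} (hb : Adapted b α F) {X B : Subgroup (SpecialLinearGroup K E)}
    (hX : ∀ l g : SpecialLinearGroup K E, g ∈ X → g ∈ PF F → toEnd l = dg b α (toEnd g) → l ∈ X)
    (hB : B ≤ PF F)
    (hBd : ∀ l h : SpecialLinearGroup K E, h ∈ B → toEnd l = dg b α (toEnd h) → l ∈ B) :
    (VF F ⊔ B) ⊓ X ≤ (VF F ⊓ X) ⊔ (B ⊓ X) := by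
  rintro g ⟨hg, hgX⟩
  have hgP : g ∈ PF F := sup_le (VF_le_PF F) hB hg
  obtain ⟨u0, hu0, h, hh, rfl⟩ := (mem_sup_iff_of_le (by rwa [normalizer_VF])).mp hg
  set g := u0 * h with hgdef
  obtain ⟨u, hu, hul⟩ := exists_dg hb hgP
  have hlX := hX _ _ hgX hgP hul
  have hlh : dg b α (toEnd g) = dg b α (toEnd h) := by
    have h1 : toEnd g - toEnd h ∈ Jr F := by
      have e : toEnd g - toEnd h = (toEnd u0 - 1) * toEnd h := by
        rw [hgdef, toEnd_mul, sub_mul, one_mul]
      rw [e]
      exact Jr_mul (mem_VF_iff.mp hu0) (mem_PF_iff.mp (hB hh))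
    have h2 := dg_eq_zero hb h1
    rw [dg_sub] at h2
    exact sub_eq_zero.mp h2
  have hlB := hBd (g * u) h hh (hul.trans hlh)
  have hlP : g * u ∈ PF F := hB hlB
  have e : g = ((g * u) * u⁻¹ * (g * u)⁻¹) * (g * u) := by group
  have hn : g * u ∈ Subgroup.normalizer (VF F : Set (SpecialLinearGroup K E)) := by
    rw [normalizer_VF]
    exact hlP
  have hv : (g * u) * u⁻¹ * (g * u)⁻¹ ∈ VF F :=
    (Subgroup.mem_normalizer_iff.mp hn u⁻¹).mp ((VF F).inv_mem hu)
  have hvX : (g * u) * u⁻¹ * (g * u)⁻¹ ∈ X := by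
    have e2 : (g * u) * u⁻¹ * (g * u)⁻¹ = g * (g * u)⁻¹ := by group
    rw [e2]
    exact X.mul_mem hgX (X.inv_mem hlX)
  rw [e]
  exact Subgroup.mul_mem_sup ⟨hv, hvX⟩ ⟨hlB, hlX⟩

end Vale.Agent.P180.R2.H854
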