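import Vale.Agent.P180.R2.H854.TX
import Vale.Agent.P180.R2.H854.FormCor

/-!
P180: the corner bound for the classical groups in any characteristic, if `p` is odd and divides
`q - 1`.
-/

set_option linter.all false

namespace Vale.Agent.P180.R2.H854

open Module Vale.Agent.P180.R2.H799 Vale.Agent.P180.R2.H799.BN

universe u

namespace HForm

variable {K E : Type*} [Field K] [AddCommGroup E] [Module K E] (Φ : HForm K E)
  [FiniteDimensional K E] [Finite K] {X : Subgroup (SpecialLinearGroup K E)}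

/-- **The corner bound** for the classical groups. -/
theorem cornerBdT {k : Type u} [Field k] [IsAlgClosed k] {p : ℕ} [Fact p.Prime] [CharP k p]
    (hp2 : Odd p) (hT : Φ.Tr) (hnorm : Φ.NormCond) {ζ : K} (hζ : ζ ^ p = 1) (hζ1 : ζ ≠ 1)
    (hζθ : Φ.θ ζ = ζ) (hXI : X ≤ Φ.Iso) (hX2 : X.relIndex Φ.Iso ∣ 2)
    (hV : ∀ F, Φ.SD F → VF F ⊓ Φ.Iso ≤ X)
    {L : Type} [Group L] [Finite L] (π : X →* L) (hπ : Function.Surjective π)
    (hk : π.ker.map X.subtype ≤ Subgroup.center (SpecialLinearGroup K E)) {D : Subgroup L}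
    (hD : IsPGroup p D)
    (hdiag : finrank K E < p ∨
      ((∀ x ∈ D, ∀ y ∈ D, x * y = y * x) ∧ ∀ x ∈ D, x ^ (Nat.card K - 1) = 1)) :
    H954.CornerBd k D ((Nat.card D).factorial * (Nat.card D * Nat.card D)) := by
  have hp : p.Prime := Fact.out
  have hfG : Finite (SpecialLinearGroup K E) := finite_SL
  have hq1 : 1 < Nat.card K := Finite.one_lt_card
  -- `p` divides `|K| - 1`
  have hζ0 : ζ ≠ 0 := by
    rintro rfl
    rw [zero_pow hp.ne_zero] at hζ
    exact zero_ne_one hζ
  have hp1 : p ∣ Nat.card K - 1 := by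
    have h1 : orderOf (Units.mk0 ζ hζ0) = p := by
      apply orderOf_eq_prime
      · ext
        simpa using hζ
      · intro h
        exact hζ1 (by simpa using congrArg Units.val h)
    rw [← Nat.card_units, ← h1]
    exact orderOf_dvd_natCard _
  have hKp : ¬ p ∣ Nat.card K := by
    intro hd
    have h1 := Nat.dvd_sub hd hp1
    rw [Nat.sub_sub_self hq1.le, Nat.dvd_one] at h1
    exact hp.one_lt.ne' h1
  have hkc : π.ker ≤ Subgroup.center X := by
    intro z hz
    have h1 : z.1 ∈ Subgroup.center (SpecialLinearGroup K E) := hk ⟨z, hz, rfl⟩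
    rw [Subgroup.mem_center_iff]
    intro g
    exact Subtype.ext (Subgroup.mem_center_iff.mp h1 g.1)
  have hkcard : Nat.card π.ker = Nat.card (π.ker.map X.subtype) :=
    (Subgroup.card_map_of_injective X.subtype_injective).symm
  have hkp : ¬ p ∣ Nat.card π.ker := by
    intro hd
    obtain ⟨z, hz⟩ := exists_prime_orderOf_dvd_card' p hd
    have h1 : z.1.1 ^ p ^ 1 = 1 := by
      have h2 : z ^ p = 1 := by
        rw [← hz]
        exact pow_orderOf_eq_one z
      rw [pow_one]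
      exact congrArg (fun w : π.ker => w.1.1) h2
    have h3 := Φ.scalar_eq_one hp hp2 hζ hζ1 hζθ (hXI z.1.2) (hk ⟨z.1, z.2, rfl⟩) h1
    have h4 : z = 1 := Subtype.ext (Subtype.ext h3)
    rw [h4, orderOf_one] at hz
    exact hp.one_lt.ne hz
  set S := (Φ.flagGeo hT hnorm hXI hV).sys p hp hKp with hS
  have hc : ∀ V ∈ S.car, (Nat.card V).Coprime (Nat.card π.ker) := by
    rintro _ ⟨_, ⟨F, hF, rfl⟩, rfl⟩
    have h1 : Nat.card ((VF F).subgroupOf X) ∣ Nat.card (VF F) := by
      have e : Nat.card ((VF F).subgroupOf X) =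
          Nat.card (VF F ⊓ X : Subgroup (SpecialLinearGroup K E)) := by
        rw [← map_subgroupOf_eq]
        exact (Subgroup.card_map_of_injective X.subtype_injective).symm
      rw [e]
      exact Subgroup.card_dvd_of_le inf_le_left
    rw [hkcard]
    exact Nat.Coprime.coprime_dvd_left h1 (coprime_center hk F)
  obtain ⟨Q, hQ, rfl⟩ := exists_lift (p := p) π hπ hD
  have hker : ∀ x ∈ Q, π x = 1 → x = 1 := by
    intro x hx h1
    have h2 : orderOf x ∣ Nat.card π.ker := by
      have h3 := orderOf_dvd_natCard (⟨x, h1⟩ : π.ker)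
      rwa [show orderOf (⟨x, h1⟩ : π.ker) = orderOf x from
        (orderOf_injective π.ker.subtype π.ker.subtype_injective _).symm] at h3
    obtain ⟨m, hm⟩ := hQ ⟨x, hx⟩
    have hm' : x ^ p ^ m = 1 := congrArg Subtype.val hm
    obtain ⟨j, -, hj⟩ := (Nat.dvd_prime_pow hp).mp (orderOf_dvd_of_pow_eq_one hm')
    rw [hj] at h2
    rcases Nat.eq_zero_or_pos j with h0 | h0
    · rw [h0, pow_zero] at hj
      exact orderOf_eq_one_iff.mp hj
    · exact absurd ((dvd_pow_self p h0.ne').trans h2) hkp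
  -- the image of `Q` in the special linear group
  set Q' := Q.map X.subtype with hQ'
  have hQ'p : IsPGroup p Q' := hQ.map _
  have hQ'X : Q' ≤ X := by
    rintro _ ⟨x, -, rfl⟩
    exact x.2
  have hQ'Q : Q'.subgroupOf X = Q := by
    apply Subgroup.map_injective X.subtype_injective
    rw [map_subgroupOf_eq, inf_eq_left.mpr hQ'X]
  have hspan : Submodule.span K (EV Q') = ⊤ := by
    rcases hdiag with h | ⟨h1, h2⟩
    · exact span_EV_of_lt hQ'p hp1 h
    · refine span_EV_of_comm ?_ ?_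
      · rintro _ ⟨x, hx, rfl⟩ _ ⟨y, hy, rfl⟩
        have h3 := h1 _ ⟨x, hx, rfl⟩ _ ⟨y, hy, rfl⟩
        have h4 : x * y * x⁻¹ * y⁻¹ = 1 := by
          refine hker _ (Q.mul_mem (Q.mul_mem (Q.mul_mem hx hy) (Q.inv_mem hx)) (Q.inv_mem hy)) ?_
          rw [map_mul, map_mul, map_mul, map_inv, map_inv, h3]
          group
        have h5 : x * y = y * x := by
          calc x * y = (x * y * x⁻¹ * y⁻¹) * (y * x) := by group
            _ = y * x := by rw [h4, one_mul]
        exact congrArg Subtype.val h5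
      · rintro _ ⟨g, hg, rfl⟩
        have h3 : g ^ (Nat.card K - 1) = 1 := by
          refine hker _ (Q.pow_mem hg _) ?_
          rw [map_pow]
          exact h2 _ ⟨g, hg, rfl⟩
        exact congrArg Subtype.val h3
  obtain ⟨F, hF, hpX⟩ := Φ.exists_pairT hp hT hnorm hXI hV hp2 hζ hζ1 hζθ hQ'X hQ'p hspan
  rw [hQ'Q] at hpX
  have hmem : (VF F).subgroupOf X ∈ S.car := ⟨VF F, ⟨F, hF, rfl⟩, rfl⟩
  refine corner_bd (k := k) (imageSys π S hπ hkc hc)
    (hasLevi_image π hπ hkc hkp hc (Φ.hasLeviT hp hKp hT hnorm hXI hX2 hV hp2 hζ hζ1 hζθ))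
    (V := ((VF F).subgroupOf X).map π)
    ⟨_, hmem, rfl⟩ (pair_image π hπ hkc hkp hQ (hc _ hmem) hpX) hD ?_
  rintro _ ⟨x, hx, rfl⟩ _ ⟨y, hy, rfl⟩
  have h1 := comm_of_span hspan x.1 ⟨x, hx, rfl⟩ y.1 ⟨y, hy, rfl⟩
  rw [← map_mul, ← map_mul]
  congr 1
  exact Subtype.ext h1

end HForm

end Vale.Agent.P180.R2.H854
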