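import Vale.Agent.P180.R2.H471.Hd3
import Vale.Agent.P180.R2.H854.TX

/-!
P180: the number of double cosets of the stabiliser of a selfdual flag in the special isometry
group of a form of trace type (helper471's argument, in any characteristic).
-/

set_option linter.all false

namespace Vale.Agent.P180.R2.H854.TD

open Module Vale.Agent.P180.R2.H854 Vale.Agent.P180.R2.H471.Hd

variable {K E : Type*} [Field K] [AddCommGroup E] [Module K E] [FiniteDimensional K E] [Finite K]
  (Φ : HForm K E)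

/-- A basis adapted to two selfdual flags with Gram matrix in a finite set. -/
theorem exists_gram_pairT (hT : Φ.Tr) {F H : Flag K E} (hF : Φ.SD F) (hH : Φ.SD H)
    {a0 a1 : K} (hnorm : ∀ x : E, Φ.B x x ≠ 0 → ∃ c : K, c ≠ 0 ∧
      (c * Φ.θ c * Φ.B x x = a0 ∨ c * Φ.θ c * Φ.B x x = a1)) :
    ∃ (v : Basis (Fin (finrank K E)) K E) (α β : Fin (finrank K E) → ℕ), Adapted v α F ∧
      Adapted v β H ∧ (∀ i j, Φ.B (v i) (v j) ∈ ({0, 1, Φ.ε, a0, a1} : Set K)) ∧
      (0 < finrank K E → (∃ a, Φ.θ a ≠ a) → ∀ c, c * Φ.θ c = 1 →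
        ∃ d : Fin (finrank K E) → K, (∏ i, d i = c) ∧
          ∀ i j, Φ.B (v i) (v j) ≠ 0 → d i * Φ.θ (d j) = 1) := by
  classical
  obtain ⟨N, h0, hN, hF⟩ := hF
  obtain ⟨M, m0, hM, hH⟩ := hH
  obtain ⟨b, hbF, hbH, hB⟩ := Φ.exists_sd_basis2T hT hN hF m0 hM hH
  have hB' : ∀ l m, Φ.B (b l) (b m) ≠ 0 →
      m.1 = ((Fin.rev l.1.1, Fin.rev l.1.2) : Fin N × Fin M) := by
    intro l m hlm
    have h1 : (l.1.1 : ℕ) + m.1.1 + 1 = N ∧ (l.1.2 : ℕ) + m.1.2 + 1 = M := by
      by_contra hcon
      exact hlm (hB l m hcon)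
    apply Prod.ext
    · apply Fin.ext
      rw [Fin.val_rev]
      omega
    · apply Fin.ext
      rw [Fin.val_rev]
      omega
  let 𝒢 : Grad Φ (Fin N × Fin M) := gradOf Φ b (fun l => l.1)
    (fun x => (Fin.rev x.1, Fin.rev x.2)) (fun x => by simp) hB'
  obtain ⟨k, v, lab, h1, h2, h3, h4, h5⟩ := exists_gram 𝒢 inferInstance inferInstance hnorm
    (finrank K E) ⊤ (finrank_top K E) (fun _ _ _ => trivial)
    (fun x _ hx => Φ.nondeg x fun y => hx y trivial)
  have hk : k = finrank K E := by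
    have := finrank_span_eq_card (R := K) h2
    rw [h3, finrank_top, Fintype.card_fin] at this
    exact this.symm
  subst hk
  let w : Basis (Fin (finrank K E)) K E := Basis.mk h2 h3.ge
  have hw : ∀ i, w i = v i := fun i => Basis.mk_apply h2 h3.ge i
  have hhom : ∀ i, prj b (fun l => l.1) (lab i) (w i) = w i := by
    intro i
    rw [hw]
    exact h1 i
  refine ⟨w, fun i => (lab i).1, fun i => (lab i).2,
    adapted_of_hom hhom (fun x => (x.1 : ℕ)) hbF, adapted_of_hom hhom (fun x => (x.2 : ℕ)) hbH,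
    ?_, ?_⟩
  · intro i j
    rw [hw, hw]
    exact h4 i j
  · intro hk hθ c hc
    obtain ⟨d, hd, hd'⟩ := h5 hk hθ c hc
    refine ⟨d, hd, fun i j => ?_⟩
    rw [hw, hw]
    exact hd' i j

theorem card_dc_isoT (hT : Φ.Tr) {F : Flag K E} (hF : Φ.SD F) :
    Nat.card (DoubleCoset.Quotient (((PF F).subgroupOf Φ.Iso : Subgroup Φ.Iso) : Set Φ.Iso)
      ((PF F).subgroupOf Φ.Iso : Subgroup Φ.Iso)) ≤ cIso (finrank K E) := by
  classical
  obtain ⟨a0, a1, hnorm⟩ := exists_norm_reps Φ
  set n := finrank K E with hn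
  set A : Finset K := {0, 1, Φ.ε, a0, a1} with hA
  have hAc : A.card ≤ 5 := Finset.card_le_five
  have hex : ∀ g : Φ.Iso, _ := fun g => exists_gram_pairT Φ hT hF (Φ.SD_mapF hF g.2) hnorm
  choose v α β h1 h2 h3 h4 using hex
  have h3' : ∀ g i j, Φ.B (v g i) (v g j) ∈ A := by
    intro g i j
    have := h3 g i j
    rw [hA]
    simpa using this
  let t : Φ.Iso → (Fin n → Fin (n + 1)) × (Fin n → Fin (n + 1)) × (Fin n → Fin n → A) :=
    fun g => ⟨fun l => ⟨finrank K (F (α g l)), Nat.lt_succ_of_le (Submodule.finrank_le _)⟩,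
      fun l => ⟨finrank K (F (β g l)), Nat.lt_succ_of_le (Submodule.finrank_le _)⟩,
      fun i j => ⟨_, h3' g i j⟩⟩
  have ht : ∀ g g', t g = t g' → α g = α g' ∧ β g = β g' ∧
      ∀ i j, Φ.B (v g i) (v g j) = Φ.B (v g' i) (v g' j) := by
    intro g g' h
    have e1 := congrArg Prod.fst h
    have e2 := congrArg (fun x => x.2.1) h
    have e3 := congrArg (fun x => x.2.2) h
    refine ⟨level_eq (h1 g) (h1 g') fun l => congrArg Fin.val (congrFun e1 l), ?_, ?_⟩
    · -- transport to `F` by `g`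
      have key : ∀ {u : E} {i j : ℕ}, u ∉ F i → u ∈ F (i + 1) → i < j →
          finrank K (F i) < finrank K (F j) := by
        intro u i j h1 h2 hij
        apply Submodule.finrank_lt_finrank_of_lt
        refine lt_of_le_of_ne (F.mono hij.le) fun h3 => h1 ?_
        rw [h3]
        exact F.mono hij h2
      have hne : ∀ g l, ((g : Φ.Iso).1⁻¹ (v g l) : E) ∉ F (β g l) ∧
          (g.1⁻¹ (v g l) : E) ∈ F (β g l + 1) := by
        intro g l
        refine ⟨fun h5 => ?_, ?_⟩
        · exact lt_irrefl _ ((h2 g).self_mem_iff.mp (mem_mapF.mpr h5))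
        · exact mem_mapF.mp ((h2 g).self_mem_iff.mpr (Nat.lt_succ_self _))
      funext l
      have hd : finrank K (F (β g l)) = finrank K (F (β g' l)) :=
        congrArg Fin.val (congrFun e2 l)
      rcases lt_trichotomy (β g l) (β g' l) with h5 | h5 | h5
      · exact absurd hd (key (hne g l).1 (hne g l).2 h5).ne
      · exact h5
      · exact absurd hd.symm (key (hne g' l).1 (hne g' l).2 h5).ne
    · intro i j
      exact congrArg Subtype.val (congrFun (congrFun e3 i) j)
  -- the determinants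
  let D : Φ.Iso → K := fun g => (v 1).det (v g)
  have hD0 : ∀ g, D g ≠ 0 := fun g => ((v 1).isUnit_det (v g)).ne_zero
  have hTD : ∀ g g', LinearMap.det ((v g).equiv (v g') (Equiv.refl _) : E →ₗ[K] E) * D g =
      D g' := by
    intro g g'
    rw [← Basis.det_comp]
    congr 1
    funext i
    exact (v g).equiv_apply i (v g') (Equiv.refl _)
  have hB : ∀ g g', t g = t g' → D g = D g' → ∃ a ∈ (PF F).subgroupOf Φ.Iso,
      ∃ b ∈ (PF F).subgroupOf Φ.Iso, g' = a * g * b := by
    intro g g' h hDD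
    obtain ⟨e1, e2, e3⟩ := ht g g' h
    refine rel_of_data Φ g g' (v g) (v g') (h1 g) (h2 g) (by rw [e1]; exact h1 g')
      (by rw [e2]; exact h2 g') e3 (fun _ => 1) ?_ ?_
    · have h5 := hTD g g'
      rw [← hDD] at h5
      rw [Finset.prod_const_one, mul_one]
      exact mul_right_cancel₀ (hD0 g) (h5.trans (one_mul _).symm)
    · intro i j _
      rw [map_one, mul_one]
  have hC : ∀ g g', t g = t g' → (∃ a, Φ.θ a ≠ a) → ∃ a ∈ (PF F).subgroupOf Φ.Iso,
      ∃ b ∈ (PF F).subgroupOf Φ.Iso, g' = a * g * b := by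
    intro g g' h hθ
    by_cases hDD : D g = D g'
    · exact hB g g' h hDD
    obtain ⟨e1, e2, e3⟩ := ht g g' h
    have hn0 : 0 < n := by
      rcases Nat.eq_zero_or_pos n with h0 | h0
      · exfalso
        apply hDD
        rw [← hTD g g', LinearMap.det_eq_one_of_finrank_eq_zero h0, one_mul]
      · exact h0
    have hnd := norm_det Φ (v g) (v g') e3
    set δ := LinearMap.det ((v g).equiv (v g') (Equiv.refl _) : E →ₗ[K] E) with hδ
    have hδ0 : δ ≠ 0 := left_ne_zero_of_mul_eq_one hnd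
    obtain ⟨d, hd, hd'⟩ := h4 g hn0 hθ δ⁻¹ (by rw [map_inv₀, ← mul_inv, hnd, inv_one])
    refine rel_of_data Φ g g' (v g) (v g') (h1 g) (h2 g) (by rw [e1]; exact h1 g')
      (by rw [e2]; exact h2 g') e3 d ?_ hd'
    rw [hd]
    exact mul_inv_cancel₀ hδ0
  have hA' : (∀ a, Φ.θ a = a) → ∀ g g', t g = t g' → D g' = D g ∨ D g' = - D g := by
    intro hθ g g' h
    obtain ⟨e1, e2, e3⟩ := ht g g' h
    have hnd := norm_det Φ (v g) (v g') e3
    rw [hθ] at hnd
    rcases mul_self_eq_one_iff.mp hnd with h5 | h5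
    · left
      rw [← hTD g g', h5, one_mul]
    · right
      rw [← hTD g g', h5, neg_one_mul]
  let r : (Fin n → Fin (n + 1)) × (Fin n → Fin (n + 1)) × (Fin n → Fin n → A) → Φ.Iso :=
    fun τ => if h : ∃ g, t g = τ then h.choose else 1
  have hr : ∀ g, t (r (t g)) = t g := by
    intro g
    have h : ∃ g', t g' = t g := ⟨g, rfl⟩
    change t (if h : ∃ g', t g' = t g then h.choose else 1) = t g
    rw [dif_pos h]
    exact h.choose_spec
  let f : DoubleCoset.Quotient (((PF F).subgroupOf Φ.Iso : Subgroup Φ.Iso) : Set Φ.Iso)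
      ((PF F).subgroupOf Φ.Iso : Subgroup Φ.Iso) →
      ((Fin n → Fin (n + 1)) × (Fin n → Fin (n + 1)) × (Fin n → Fin n → A)) × Bool :=
    fun q => (t q.out, decide (D q.out = D (r (t q.out))))
  have hf : Function.Injective f := by
    intro q q' h
    have e1 : t q.out = t q'.out := congrArg Prod.fst h
    have e2 : decide (D q.out = D (r (t q.out))) = decide (D q'.out = D (r (t q'.out))) :=
      congrArg Prod.snd h
    have h5 : ∃ a ∈ (PF F).subgroupOf Φ.Iso, ∃ b ∈ (PF F).subgroupOf Φ.Iso,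
        q'.out = a * q.out * b := by
      by_cases hθ : ∀ a, Φ.θ a = a
      · apply hB _ _ e1
        rw [e1, decide_eq_decide] at e2
        by_cases h6 : D q.out = D (r (t q'.out))
        · rw [h6, e2.mp h6]
        · have h7 : D q'.out ≠ D (r (t q'.out)) := fun h => h6 (e2.mpr h)
          rcases hA' hθ (r (t q'.out)) q.out ((hr _).trans e1.symm) with h8 | h8
          · exact absurd h8 h6
          · rcases hA' hθ (r (t q'.out)) q'.out (hr _) with h9 | h9
            · exact absurd h9 h7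
            · rw [h8, h9]
      · push Not at hθ
        exact hC _ _ e1 hθ
    rw [← DoubleCoset.out_eq' _ _ q, ← DoubleCoset.out_eq' _ _ q']
    exact (DoubleCoset.eq _ _ _ _).mpr h5
  refine (Nat.card_le_card_of_injective f hf).trans ?_
  rw [Nat.card_prod, Nat.card_prod, Nat.card_prod, Nat.card_fun, Nat.card_fun, Nat.card_fun,
    Nat.card_fin, Nat.card_fin, Nat.card_eq_fintype_card (α := Bool), Fintype.card_bool,
    Nat.card_eq_fintype_card (α := A), Fintype.card_coe]
  unfold cIso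
  gcongr

end Vale.Agent.P180.R2.H854.TD
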