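import Vale.Agent.P180.R2.H471.Hd5
import Vale.Agent.P180.R2.H854.TD1

/-!
P180: small idempotents for the special isometry groups of forms of trace type, given the Levi
data (helper471's assembly, in any characteristic).
-/

set_option linter.all false

namespace Vale.Agent.P180.R2.H854.TD

open Module Subgroup Vale.Agent.P180 Vale.Agent.P180.H768.Gd Vale.Agent.P180.R2.H799
  Vale.Agent.P180.R2.H854 Vale.Agent.P180.R2.H954 Vale.Agent.P180.R2.H954.Hc
  Vale.Agent.P180.R2.H471.Hc Vale.Agent.P180.R2.H471.Hd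

universe u

variable {K E : Type} [Field K] [AddCommGroup E] [Module K E] [FiniteDimensional K E] [Finite K]

/-- **The special isometry groups**: a small idempotent for the blocks with an abelian defect
group. -/
theorem oneBd_formT {k : Type u} [Field k] [IsAlgClosed k] {p : ℕ} [Fact p.Prime] [CharP k p]
    {Φ : HForm K E} {X : Subgroup (SpecialLinearGroup K E)} [Finite (SpecialLinearGroup K E)]
    (hT : Φ.Tr) (hnorm : Φ.NormCond) (hXI : X ≤ Φ.Iso) (hX2 : X.relIndex Φ.Iso ∣ 2)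
    (hV : ∀ F, Φ.SD F → VF F ⊓ Φ.Iso ≤ X) (hpK : ¬ p ∣ Nat.card K)
    (hLD : ∀ Q : Subgroup X, IsPGroup p Q → (∀ x ∈ Q, ∀ y ∈ Q, x * y = y * x) →
      Nonempty (LeviD Φ X p Q))
    (hrk : RkCond Φ X) {m n : ℕ} (hm : finrank K E ≤ m)
    {Q : Subgroup X} (hQ : IsPGroup p Q) (hQn : Nat.card Q ≤ n)
    (hab : ∀ x ∈ Q, ∀ y ∈ Q, x * y = y * x) : OneBd k Q (bdF p m n) := by
  classical
  intro e a he ha hea hbr
  have hp : p.Prime := Fact.out
  obtain ⟨D⟩ := hLD Q hQ hab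
  -- the idempotent of the Levi subgroup
  obtain ⟨j, hjL, hjQ, hjj, hjb, hjd⟩ := exists_j (n := n)
    (β := 2 ^ (finrank K E + 1) * finrank K E ^ finrank K E) (A := D.A) hQ hQn
    D.Q_le_iSup D.cent_le D.A_le D.A_conj D.A_comm D.A_inf D.cyclic D.Z_le D.Z_comm D.Z_card
    D.index he.idem.eq ha hea hbr
  -- the parabolic system
  have hgeo := Φ.flagGeo hT hnorm hXI hV
  set S := hgeo.sys p hp hpK with hS
  set 𝒱 : Sys X := sysOf S with h𝒱
  have hmem : ∀ V, V ∈ 𝒱.car ↔ ∃ F : Flag K E, Φ.SD F ∧ (VF F).subgroupOf X = V := by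
    intro V
    constructor
    · rintro ⟨_, ⟨F, hF, rfl⟩, rfl⟩
      exact ⟨F, hF, rfl⟩
    · rintro ⟨F, hF, rfl⟩
      exact ⟨VF F, ⟨F, hF, rfl⟩, rfl⟩
  have hN : ∀ F : Flag K E, Φ.SD F →
      normalizer (((VF F).subgroupOf X : Subgroup X) : Set X) = (PF F).subgroupOf X := by
    intro F hF
    rw [normalizer_subgroupOf_eq (by rw [normalizer_VF]; exact hgeo.norm F hF), normalizer_VF]
  have hU : (VF D.F).subgroupOf X ∈ 𝒱.car := (hmem _).mpr ⟨_, D.sd, rfl⟩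
  have hpU : ¬ p ∣ Nat.card ((VF D.F).subgroupOf X) := S.card _ hU
  have hNU := hN D.F D.sd
  obtain ⟨rk, hrk1, hrk2⟩ := hrk
  have hfI : Finite Φ.Iso := inferInstance
  obtain ⟨i, h1, h2, h3, h4, h5⟩ := exists_small (k := k) (𝒱 := 𝒱) (rk := rk)
    (c := cIsoM m) (cIsoM_pos m)
    (fun Z hZ Y hY h => by
      obtain ⟨F, hF, rfl⟩ := (hmem Z).mp hZ
      obtain ⟨H, hH, rfl⟩ := (hmem Y).mp hY
      exact hrk2 F H hF hH h)
    (fun Z hZ => (sum_inter_le _).trans (Nat.mul_le_mul_right _ (by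
      obtain ⟨F, hF, rfl⟩ := (hmem Z).mp hZ
      rw [hN F hF]
      have _ : Finite (DoubleCoset.Quotient (((PF F).subgroupOf Φ.Iso : Subgroup Φ.Iso) :
        Set Φ.Iso) ((PF F).subgroupOf Φ.Iso : Subgroup Φ.Iso)) := Quotient.finite _
      exact (card_dc_sub hXI hX2 (card_dc_isoT Φ hT hF)).trans (cIsoM_mono hm))))
    ((hmem _).mpr ⟨flag0 K E, SD_flag0 Φ, by rw [VF_flag0, Subgroup.bot_subgroupOf]⟩)
    hU hpU (by rw [hNU]; exact D.le_PF)
    (by rw [hNU]; exact D.sup_eq) hQ D.Q_le D.inf_eq he.idem.eq he.mem.2 hjL hjQ hjj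
    hjb hjd
  refine ⟨i, h1, h2, h3, h4, h5.trans ?_⟩
  unfold bdF
  have hd : finrank K E ^ finrank K E ≤ m ^ m := by
    rcases Nat.eq_zero_or_pos m with h0 | h0
    · subst h0
      have : finrank K E = 0 := by omega
      rw [this]
    · exact (Nat.pow_le_pow_left hm _).trans (Nat.pow_le_pow_right h0 hm)
  refine Nat.mul_le_mul (Nat.pow_le_pow_right (cIsoM_pos m) ?_) (Nat.mul_le_mul
    (Nat.mul_le_mul (Nat.pow_le_pow_right two_pos (by omega)) hd)
    (Nat.pow_le_pow_left (Nat.pow_le_pow_right (lt_of_lt_of_le Nat.one_pos (le_max_left _ _))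
      (D.r_le.trans hm)) 2))
  have := hrk1 ((VF D.F).subgroupOf X)
  omega


theorem rkCondT {Φ : HForm K E} {X : Subgroup (SpecialLinearGroup K E)} (hT : Φ.Tr)
    (hnorm : Φ.NormCond) (hXI : X ≤ Φ.Iso) (hV : ∀ F, Φ.SD F → VF F ⊓ Φ.Iso ≤ X) :
    RkCond Φ X := by
  have hgeo := Φ.flagGeo hT hnorm hXI hV
  refine ⟨rkX Φ X, fun Z => rkX_le Z, fun F H hF hH h =>
    rkX_lt ?_ hgeo.norm ⟨F, hF, rfl⟩ ⟨H, hH, rfl⟩ h⟩
  rintro F H M m0 hM hF ⟨M', m0', hM', hH⟩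
  rw [← star_VF_aux F H hM m0]
  obtain ⟨ι, _, b, α, β, hbF, hbH, hX⟩ := hgeo.basis F hF H ⟨M', m0', hM', hH⟩
  exact dec_of_dg hbF hX inf_le_left fun l g hg e => dg_PF_VF hbF hbH hg e

end Vale.Agent.P180.R2.H854.TD
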