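import Vale.Agent.P180.R2.H854.TD2
import Vale.Agent.P180.R2.H854.TP

/-!
P180: the corner property of the classical groups of bounded rank, for linear primes: symplectic
and unitary groups in any characteristic, orthogonal groups in odd characteristic.
-/

set_option linter.all false

namespace Vale.Agent.P180.R2.H854.TD

open Module Subgroup Vale.Agent.P180 Vale.Agent.P180.H768.Gd Vale.Agent.P180.R2.H799
  Vale.Agent.P180.R2.H854 Vale.Agent.P180.R2.H954 Vale.Agent.P180.R2.H954.Hc
  Vale.Agent.P180.R2.H471.Hc Vale.Agent.P180.R2.H471.Hd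

universe u

/-- `L` is a central quotient (modulo scalars) of a subgroup `X` of index one or two in the special
isometry group of a nondegenerate alternating, symmetric or hermitian form on `K ^ d`, `d ≤ m`, `K` a
finite field, `|K|` is odd or `X` is the full special isometry group of an alternating or hermitian
form, `p` does not divide `|K| (|K| - 1)` and is linear for the form: `p` does
not divide `r ^ j + 1` whenever the field automorphism `θ` of the form is `c ↦ c ^ (r ^ j)`, `r` the
characteristic of `K` (for `θ = 1` and `q = |K|` this means that the order of `q` modulo `p` is odd;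
for `|K| = q ^ 2`, `θ` of order two, that the order of `-q` modulo `p` is even), and the dimension is
less than `p` or `D ∩ L` is abelian. -/
def NonsplitIsoT (p m : ℕ) {G : Type} [Group G] (D L : Subgroup G) : Prop :=
  ∃ (K : Type) (_ : Field K) (_ : Finite K) (d : ℕ) (Φ : HForm K (Fin d → K))
    (X : Subgroup (SpecialLinearGroup K (Fin d → K))) (π : X →* L),
      Φ.GoodX X ∧ X ≤ Φ.Iso ∧ X.relIndex Φ.Iso ∣ 2 ∧ Function.Surjective π ∧
      π.ker.map X.subtype ≤ Subgroup.center _ ∧ d ≤ m ∧
      ¬ p ∣ Nat.card K ∧ ¬ p ∣ Nat.card K - 1 ∧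
      (∀ j : ℕ, (∀ c, Φ.θ c = c ^ (ringChar K ^ j)) → ¬ p ∣ ringChar K ^ j + 1) ∧
      (d < p ∨ ∀ x ∈ D, x ∈ L → ∀ y ∈ D, y ∈ L → x * y = y * x)

/-- **The corner property** of the classical groups of bounded rank, for linear primes. -/
theorem corP_nonsplit_isoT {k : Type u} [Field k] [IsAlgClosed k] {p m n : ℕ} [Fact p.Prime]
    [CharP k p] {G : Type} [Group G] [Finite G] {D L : Subgroup G} (hD : IsPGroup p D)
    (hDn : Nat.card D ≤ n) (h : NonsplitIsoT p m D L)
    (hin : D ⊓ Subgroup.normalizer (L : Set G) ≤ L ⊔ Subgroup.centralizer (L : Set G))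
    (b : MonoidAlgebra k G) : H365.CorP p (bdF p m n) b D L := by
  obtain ⟨K, _, _, d, Φ, X, π, hK, hXI, hX2, hπ, hk, hd, hpK, hpK1, hlin, hab⟩ := h
  have hp : p.Prime := Fact.out
  have hfG : Finite (SpecialLinearGroup K (Fin d → K)) := BN.finite_sl
  have hkc := ker_central hk
  have hkp := ker_coprime hpK1 hk
  have hab' : ∀ x ∈ D, x ∈ L → ∀ y ∈ D, y ∈ L → x * y = y * x := by
    rcases hab with hlt | hab
    · intro x hxD hxL y hyD hyL
      have hDL : IsPGroup p (D.subgroupOf L) :=
        hD.comap_of_injective L.subtype L.subtype_injective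
      obtain ⟨Q, hQ, hQD⟩ := BN.exists_lift (p := p) π hπ hDL
      have hx : (⟨x, hxL⟩ : L) ∈ Q.map π := by rw [hQD]; exact hxD
      have hy : (⟨y, hyL⟩ : L) ∈ Q.map π := by rw [hQD]; exact hyD
      obtain ⟨x', hx', hxe⟩ := hx
      obtain ⟨y', hy', hye⟩ := hy
      have h0 : x' * y' = y' * x' := Subtype.ext (comm_of_lt hpK hlt (hQ.map X.subtype) x'.1
        ⟨x', hx', rfl⟩ y'.1 ⟨y', hy', rfl⟩)
      have h1 := congrArg π h0
      rw [map_mul, map_mul, hxe, hye] at h1
      exact congrArg Subtype.val h1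
    · exact hab
  refine corP_of_oneBd hD hDn hab' hin (fun Q hQ hQn hQab => ?_) b
  refine oneBd_lift π hπ hkc hkp hQ hQn hQab fun R hR hRn hRab => ?_
  have hV : ∀ F, Φ.SD F → VF F ⊓ Φ.Iso ≤ X := fun F _ => hK.hV hX2 F
  have hT := Φ.trT hK.or3
  have hnorm := Φ.normCondT hK.or3
  exact oneBd_formT hT hnorm hXI hX2 hV hpK
    (fun S hS hSab => exists_leviD hp Φ hXI hX2 hV hpK hpK1 hlin hS hSab)
    (rkCondT hT hnorm hXI hV) (by rw [Module.finrank_fin_fun]; exact hd) hR hRn hRab

end Vale.Agent.P180.R2.H854.TD
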