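import Vale.Agent.P180.R2.H854.FormPair2
import Vale.Agent.P180.R2.H854.TBlk

/-!
P180: forms of trace type (any characteristic): congruence of unipotent selfadjoint elements and
common selfdual bases of two selfdual flags.
-/

namespace Vale.Agent.P180.R2.H854

open Module

section filt

variable {K E : Type*} [Field K] [AddCommGroup E] [Module K E]

/-- The endomorphisms which lower the members of the flag by `k` steps. -/
def Jk (F : Flag K E) (k : ℕ) : Submodule K (End K E) where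
  carrier := {a | ∀ i, ∀ x ∈ F i, a x ∈ F (i - k)}
  zero_mem' := fun i _ _ => (F (i - k)).zero_mem
  add_mem' := fun ha hb i x hx => (F (i - k)).add_mem (ha i x hx) (hb i x hx)
  smul_mem' := fun c _ ha i x hx => (F (i - k)).smul_mem c (ha i x hx)

lemma Jk_zero (F : Flag K E) : Jk F 0 = Pa F := rfl

lemma Jk_one (F : Flag K E) : Jk F 1 = Jr F := by
  ext a
  constructor
  · intro h i x hx
    exact h (i + 1) x hx
  · intro h i x hx
    rcases Nat.eq_zero_or_pos i with h0 | h0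
    · subst h0
      rw [F.zero, Submodule.mem_bot] at hx
      rw [hx, map_zero]
      exact Submodule.zero_mem _
    · apply h
      rwa [Nat.sub_add_cancel h0]

lemma Jk_anti (F : Flag K E) {k k' : ℕ} (h : k ≤ k') : Jk F k' ≤ Jk F k :=
  fun _ ha i x hx => F.mono (Nat.sub_le_sub_left h i) (ha i x hx)

lemma Jk_mul {F : Flag K E} {k k' : ℕ} {a a' : End K E} (ha : a ∈ Jk F k) (ha' : a' ∈ Jk F k') :
    a * a' ∈ Jk F (k + k') := by
  intro i x hx
  have := ha _ _ (ha' i x hx)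
  rwa [Nat.sub_sub, add_comm k' k] at this

lemma Jk_eq_zero {F : Flag K E} {W k : ℕ} (hW : F W = ⊤) (hk : W ≤ k) {a : End K E}
    (ha : a ∈ Jk F k) : a = 0 := by
  ext x
  have h := ha W x (by rw [hW]; trivial)
  rw [Nat.sub_eq_zero_of_le hk, F.zero, Submodule.mem_bot] at h
  exact h

end filt

namespace HForm

variable {K E : Type*} [Field K] [AddCommGroup E] [Module K E] (Φ : HForm K E)

/-- Forms of trace type. -/
def Tr : Prop := (∃ c, c + Φ.θ c = 1) ∨ ∀ x, Φ.B x x = 0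

lemma tr_of_odd [Finite K] (hK : Odd (Nat.card K)) : Φ.Tr := by
  left
  have h2 := two_ne_zero_of_odd hK
  refine ⟨2⁻¹, ?_⟩
  rw [map_inv₀, map_ofNat, ← two_mul, mul_inv_cancel₀ h2]

lemma tr_of_theta (h : ∃ a, Φ.θ a ≠ a) : Φ.Tr := by
  left
  have hex : ∃ a, a + Φ.θ a ≠ 0 := by
    by_contra hc
    push Not at hc
    obtain ⟨a, ha⟩ := h
    have h1 := hc 1
    rw [map_one] at h1
    have h2 := hc a
    apply ha
    have h3 : a + a = 0 := by
      rw [← two_mul, ← one_add_one_eq_two, h1, zero_mul]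
    calc Φ.θ a = (a + Φ.θ a) - (a + a) + a := by ring
      _ = a := by rw [h2, h3]; ring
  obtain ⟨a, ha⟩ := hex
  refine ⟨a / (a + Φ.θ a), ?_⟩
  rw [map_div₀, map_add, Φ.θθ, add_comm (Φ.θ a) a, ← add_div, div_self ha]

lemma alt_symm (h : ∀ x, Φ.B x x = 0) (x y : E) : Φ.B y x = -Φ.B x y := by
  have h1 := h (x + y)
  rw [Φ.add_left, Φ.add_right, Φ.add_right, h, h, zero_add, add_zero] at h1
  exact eq_neg_of_add_eq_zero_right h1

variable [FiniteDimensional K E] [Finite K]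

lemma exists_gram {ι : Type*} (b : Basis ι K E) (d : ι → ι → K) :
    ∃ t : End K E, ∀ l m, Φ.B (b l) (t (b m)) = d l m := by
  have hex : ∀ m, ∃ z, ∀ l, Φ.B (b l) z = d l m := by
    intro m
    obtain ⟨z, hz⟩ := Φ.exists_riesz (b.constr K (fun l => d l m))
    refine ⟨z, fun l => ?_⟩
    rw [← hz, b.constr_basis]
  choose z hz using hex
  refine ⟨b.constr K z, fun l m => ?_⟩
  rw [b.constr_basis, hz]

/-- Halves of selfadjoint endomorphisms. -/
lemma exists_half (hT : Φ.Tr) {ι : Type*} [Finite ι] (b : Basis ι K E) {n : End K E}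
    (hn : Φ.adj n = n) (halt : (∀ x, Φ.B x x = 0) → ∀ x, Φ.B x (n x) = 0) :
    ∃ m : End K E, m + Φ.adj m = n ∧
      ∀ l k, Φ.B (b l) (n (b k)) = 0 → Φ.B (b l) (m (b k)) = 0 := by
  classical
  rcases hT with ⟨c, hc⟩ | h
  · refine ⟨c • n, ?_, fun l k hlk => ?_⟩
    · rw [Φ.adj_smul, hn, ← add_smul, hc, one_smul]
    · rw [LinearMap.smul_apply, Φ.smul_right, hlk, mul_zero]
  · have hn0 := halt h
    obtain ⟨N, ⟨e⟩⟩ := Finite.exists_equiv_fin ι
    obtain ⟨m, hm⟩ := Φ.exists_gram b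
      (fun l k => if (e l : ℕ) < e k then Φ.B (b l) (n (b k)) else 0)
    refine ⟨m, ?_, fun l k hlk => ?_⟩
    · apply Φ.ext_basis b
      intro l k
      rw [LinearMap.add_apply, Φ.add_right, ← Φ.adj_right, Φ.alt_symm h (b k), hm, hm]
      have hs : Φ.B (b k) (n (b l)) = -Φ.B (b l) (n (b k)) := by
        rw [← Φ.adj_left, hn, Φ.alt_symm h]
      rcases lt_trichotomy (e l : ℕ) (e k : ℕ) with h1 | h1 | h1
      · rw [if_pos h1, if_neg (by omega), neg_zero, add_zero]
      · have h2 : l = k := e.injective (Fin.ext h1)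
        subst h2
        rw [if_neg (lt_irrefl _), neg_zero, add_zero, hn0]
      · rw [if_neg (by omega), if_pos h1, hs, neg_neg, zero_add]
    · rw [hm, hlk]
      split_ifs <;> rfl

/-- Membership in `Jk` in terms of the Gram matrix. -/
lemma mem_Jk_iff {ι : Type*} {b : Basis ι K E} {w : ι → ℕ} {S : Flag K E} (hb : Adapted b w S)
    {W : ℕ} (hW : S W = ⊤) (hS : ∀ i ≤ W, Φ.perp (S i) = S (W - i)) {k : ℕ} {a : End K E} :
    a ∈ Jk S k ↔ ∀ l m, w l + (w m + 1 - k) < W → Φ.B (b l) (a (b m)) = 0 := by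
  have hwW : ∀ l, w l < W := fun l => hb.self_mem_iff.mp (by rw [hW]; trivial)
  constructor
  · intro ha l m hlm
    have h1 : a (b m) ∈ S (w m + 1 - k) :=
      ha (w m + 1) (b m) (hb.self_mem_iff.mpr (Nat.lt_succ_self _))
    have h2 : b l ∈ Φ.perp (S (w m + 1 - k)) := by
      rw [hS _ (by omega), hb.self_mem_iff]
      omega
    exact h2 _ h1
  · intro h i
    apply hb.forall_mem
    intro m hm
    have h0 : w m + 1 - k ≤ i - k := by omega
    apply S.mono h0
    have h1 : w m + 1 - k ≤ W := by have := hwW m; omega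
    have e : S (w m + 1 - k) = Φ.perp (S (W - (w m + 1 - k))) := by
      rw [hS _ (Nat.sub_le _ _)]
      congr 1
      omega
    rw [e, Φ.mem_perp']
    intro y hy
    rw [hb (W - (w m + 1 - k))] at hy
    have hle : Submodule.span K (b '' {l | w l < W - (w m + 1 - k)}) ≤
        LinearMap.ker (Φ.fn (a (b m))) := by
      rw [Submodule.span_le]
      rintro _ ⟨l, hl, rfl⟩
      have hl' : w l < W - (w m + 1 - k) := hl
      rw [SetLike.mem_coe, LinearMap.mem_ker, Φ.fn_apply]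
      exact h l m (by omega)
    exact hle hy

lemma adj_mem_Jk {S : Flag K E} {W : ℕ} (hW : S W = ⊤)
    (hS : ∀ i ≤ W, Φ.perp (S i) = S (W - i)) {k : ℕ} {a : End K E} (ha : a ∈ Jk S k) :
    Φ.adj a ∈ Jk S k := by
  have key : ∀ i ≤ W, ∀ x ∈ S i, Φ.adj a x ∈ S (i - k) := by
    intro i hi x hx
    have e : S (i - k) = Φ.perp (S (W - (i - k))) := by
      rw [hS _ (Nat.sub_le _ _)]
      congr 1
      omega
    rw [e, Φ.mem_perp']
    intro y hy
    rw [← Φ.adj_right]
    have h1 : a y ∈ S (W - i) := S.mono (by omega) (ha _ _ hy)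
    rw [← hS i hi] at h1
    exact h1 x hx
  intro i x hx
  rcases le_total i W with h | h
  · exact key i h x hx
  · exact S.mono (Nat.sub_le_sub_right h k) (key W le_rfl x (by rw [hW]; trivial))

/-- A selfadjoint unipotent element adapted to three selfdual flags is of the form
`adj r * r`. -/
theorem exists_conj (hT : Φ.Tr) {ι : Type*} [Finite ι] {b : Basis ι K E} {w α β : ι → ℕ}
    {S F H : Flag K E} {W N M : ℕ}
    (hbS : Adapted b w S) (hW : S W = ⊤) (hS : ∀ i ≤ W, Φ.perp (S i) = S (W - i))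
    (hbF : Adapted b α F) (hN : F N = ⊤) (hF : ∀ i ≤ N, Φ.perp (F i) = F (N - i))
    (hbH : Adapted b β H) (hM : H M = ⊤) (hH : ∀ i ≤ M, Φ.perp (H i) = H (M - i)) :
    ∀ (c k : ℕ), 0 < k → W ≤ k + c → ∀ t : End K E, Φ.adj t = t →
      ((∀ x, Φ.B x x = 0) → ∀ x, Φ.B x (t x) = 0) → t - 1 ∈ Jk S k → t ∈ Pa F → t ∈ Pa H →
      ∃ r : SpecialLinearGroup K E, r ∈ VF S ∧ r ∈ PF F ∧ r ∈ PF H ∧
        Φ.adj (toEnd r) * toEnd r = t := by
  intro c
  induction c with
  | zero =>
    intro k hk hWk t ht halt htS htF htH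
    have h0 := Jk_eq_zero hW (by omega) htS
    refine ⟨1, (VF S).one_mem, (PF F).one_mem, (PF H).one_mem, ?_⟩
    rw [toEnd_one, Φ.adj_one, one_mul]
    exact (sub_eq_zero.mp h0).symm
  | succ c ih =>
    intro k hk hWk t ht halt htS htF htH
    have hn : Φ.adj (t - 1) = t - 1 := by rw [Φ.adj_sub, ht, Φ.adj_one]
    have hnalt : (∀ x, Φ.B x x = 0) → ∀ x, Φ.B x ((t - 1) x) = 0 := by
      intro h x
      rw [LinearMap.sub_apply, End.one_apply, Φ.sub_right, halt h, h, sub_zero]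
    obtain ⟨m, hm, hmz⟩ := Φ.exists_half hT b hn hnalt
    have hmS : m ∈ Jk S k := (Φ.mem_Jk_iff hbS hW hS).mpr fun l j hlj =>
      hmz l j ((Φ.mem_Jk_iff hbS hW hS).mp htS l j hlj)
    have hmF : m ∈ Pa F := (Φ.mem_Jk_iff (k := 0) hbF hN hF).mpr fun l j hlj =>
      hmz l j ((Φ.mem_Jk_iff (k := 0) hbF hN hF).mp
        ((Pa F).sub_mem htF (one_mem_Pa F)) l j hlj)
    have hmH : m ∈ Pa H := (Φ.mem_Jk_iff (k := 0) hbH hM hH).mpr fun l j hlj =>
      hmz l j ((Φ.mem_Jk_iff (k := 0) hbH hM hH).mp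
        ((Pa H).sub_mem htH (one_mem_Pa H)) l j hlj)
    have hmJ : m ∈ Jr S := by
      rw [← Jk_one]
      exact Jk_anti S hk hmS
    have hr1V : oneAdd m hmJ ∈ VF S := oneAdd_mem m hmJ
    have hr1 : toEnd (oneAdd m hmJ) = 1 + m := toEnd_oneAdd m hmJ
    have hr1F : oneAdd m hmJ ∈ PF F := by
      rw [mem_PF_iff, hr1]
      exact (Pa F).add_mem (one_mem_Pa F) hmF
    have hr1H : oneAdd m hmJ ∈ PF H := by
      rw [mem_PF_iff, hr1]
      exact (Pa H).add_mem (one_mem_Pa H) hmH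
    generalize oneAdd m hmJ = r1 at hr1 hr1V hr1F hr1H
    have hinv : toEnd r1 * toEnd r1⁻¹ = 1 := by rw [← toEnd_mul, mul_inv_cancel, toEnd_one]
    have hinv' : toEnd r1⁻¹ * toEnd r1 = 1 := by rw [← toEnd_mul, inv_mul_cancel, toEnd_one]
    have hai : Φ.adj (toEnd r1⁻¹) * Φ.adj (toEnd r1) = 1 := by
      rw [← Φ.adj_mul, hinv, Φ.adj_one]
    have hai' : Φ.adj (toEnd r1) * Φ.adj (toEnd r1⁻¹) = 1 := by
      rw [← Φ.adj_mul, hinv', Φ.adj_one]
    set t' : End K E := Φ.adj (toEnd r1⁻¹) * t * toEnd r1⁻¹ with ht'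
    have hiP : toEnd r1⁻¹ ∈ Jk S 0 := by
      rw [Jk_zero]
      exact mem_PF_iff.mp (VF_le_PF S ((VF S).inv_mem hr1V))
    have hiF : toEnd r1⁻¹ ∈ Jk F 0 := by
      rw [Jk_zero]
      exact mem_PF_iff.mp ((PF F).inv_mem hr1F)
    have hiH : toEnd r1⁻¹ ∈ Jk H 0 := by
      rw [Jk_zero]
      exact mem_PF_iff.mp ((PF H).inv_mem hr1H)
    have ht'S : t' - 1 ∈ Jk S (k + 1) := by
      have e1 : t = Φ.adj (toEnd r1) * toEnd r1 - Φ.adj m * m := by
        rw [hr1, Φ.adj_add, Φ.adj_one]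
        have : t = 1 + (m + Φ.adj m) := by rw [hm]; abel
        rw [this]
        noncomm_ring
      have e2 : t' - 1 = -(Φ.adj (toEnd r1⁻¹) * (Φ.adj m * m) * toEnd r1⁻¹) := by
        rw [ht', e1, mul_sub, sub_mul]
        have : Φ.adj (toEnd r1⁻¹) * (Φ.adj (toEnd r1) * toEnd r1) * toEnd r1⁻¹ = 1 := by
          rw [← mul_assoc, hai, one_mul, hinv]
        rw [this]
        abel
      rw [e2]
      apply (Jk S (k + 1)).neg_mem
      have h1 := Jk_mul (Jk_mul (Φ.adj_mem_Jk hW hS hiP)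
        (Jk_mul (Φ.adj_mem_Jk hW hS hmS) hmS)) hiP
      exact Jk_anti S (by omega) h1
    have ht'adj : Φ.adj t' = t' := by
      rw [ht', Φ.adj_mul, Φ.adj_mul, Φ.adj_adj, ht, mul_assoc]
    have ht'alt : (∀ x, Φ.B x x = 0) → ∀ x, Φ.B x (t' x) = 0 := by
      intro h x
      have := halt h (toEnd r1⁻¹ x)
      rw [ht', End.mul_apply, End.mul_apply, ← Φ.adj_right]
      exact this
    have ht'F : t' ∈ Pa F := by
      have h1 := Jk_mul (Jk_mul (Φ.adj_mem_Jk hN hF hiF) (show t ∈ Jk F 0 from htF)) hiF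
      exact h1
    have ht'H : t' ∈ Pa H := by
      have h1 := Jk_mul (Jk_mul (Φ.adj_mem_Jk hM hH hiH) (show t ∈ Jk H 0 from htH)) hiH
      exact h1
    obtain ⟨r', hr'S, hr'F, hr'H, hr'⟩ := ih (k + 1) (Nat.succ_pos k) (by omega) t' ht'adj
      ht'alt ht'S ht'F ht'H
    refine ⟨r' * r1, (VF S).mul_mem hr'S hr1V, (PF F).mul_mem hr'F hr1F,
      (PF H).mul_mem hr'H hr1H, ?_⟩
    rw [toEnd_mul, Φ.adj_mul]
    calc Φ.adj (toEnd r1) * Φ.adj (toEnd r') * (toEnd r' * toEnd r1)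
        = Φ.adj (toEnd r1) * (Φ.adj (toEnd r') * toEnd r') * toEnd r1 := by noncomm_ring
      _ = (Φ.adj (toEnd r1) * Φ.adj (toEnd r1⁻¹)) * t * (toEnd r1⁻¹ * toEnd r1) := by
          rw [hr', ht']
          noncomm_ring
      _ = t := by rw [hai', hinv', one_mul, mul_one]

/-- **Two selfdual flags have a common adapted basis** with Gram matrix concentrated on the dual
pairs of levels; forms of trace type in any characteristic. -/
theorem exists_sd_basis2T (hT : Φ.Tr) {F H : Flag K E} {N M : ℕ}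
    (hN : F N = ⊤) (hF : ∀ i ≤ N, Φ.perp (F i) = F (N - i))
    (m0 : 0 < M) (hM : H M = ⊤) (hH : ∀ i ≤ M, Φ.perp (H i) = H (M - i)) :
    ∃ b : Basis (Idx F H N M) K E, Adapted b (fun l => l.1.1) F ∧ Adapted b (fun l => l.1.2) H ∧
      ∀ l m : Idx F H N M, ¬ ((l.1.1 : ℕ) + m.1.1 + 1 = N ∧ (l.1.2 : ℕ) + m.1.2 + 1 = M) →
        Φ.B (b l) (b m) = 0 := by
  classical
  obtain ⟨b, hbF, hbH⟩ := exists_adapted F H hN hM
  set α : Idx F H N M → ℕ := fun l => l.1.1 with hα
  set β : Idx F H N M → ℕ := fun l => l.1.2 with hβ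
  have hαN : ∀ l, α l < N := fun l => l.1.1.2
  have hβM : ∀ l, β l < M := fun l => l.1.2.2
  have hbS := adapted_starN hbF hbH M hM m0
  obtain ⟨hW, hS⟩ := Φ.starN_perp hN hF m0 hH
  obtain ⟨t, ht⟩ := Φ.exists_gram b (fun l m =>
    if α l + α m + 1 = N ∧ β l + β m + 1 = M then Φ.B (b l) (b m) else 0)
  have hG0 : ∀ l m, Φ.B (b l) (b m) ≠ 0 → N ≤ α l + α m + 1 ∧ M ≤ β l + β m + 1 := by
    intro l m h
    constructor
    · by_contra hc
      apply h
      have h1 : b l ∈ Φ.perp (F (α m + 1)) := by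
        rw [hF _ (hαN m), hbF.self_mem_iff]
        change α l < _
        omega
      exact h1 _ (hbF.self_mem_iff.mpr (Nat.lt_succ_self _))
    · by_contra hc
      apply h
      have h1 : b l ∈ Φ.perp (H (β m + 1)) := by
        rw [hH _ (hβM m), hbH.self_mem_iff]
        change β l < _
        omega
      exact h1 _ (hbH.self_mem_iff.mpr (Nat.lt_succ_self _))
  have hadj : Φ.adj t = t := by
    apply Φ.ext_basis b
    intro l m
    rw [← Φ.adj_right, Φ.symm (b m), ht, ht]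
    by_cases h : α l + α m + 1 = N ∧ β l + β m + 1 = M
    · rw [if_pos h, if_pos (by omega), Φ.symm (b l), map_mul, Φ.θθ, ← mul_assoc, Φ.εε, one_mul]
    · rw [if_neg h, if_neg (by omega), map_zero, mul_zero]
  have halt : (∀ x, Φ.B x x = 0) → ∀ x, Φ.B x (t x) = 0 := by
    intro h x
    have hadd : ∀ x y, Φ.B (x + y) (t (x + y)) = Φ.B x (t x) + Φ.B y (t y) := by
      intro x y
      have h1 : Φ.B y (t x) = -Φ.B x (t y) := by
        rw [← Φ.adj_left, hadj, Φ.alt_symm h]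
      rw [map_add, Φ.add_left, Φ.add_right, Φ.add_right, h1]
      ring
    have hmem : x ∈ Submodule.span K (Set.range b) := by rw [b.span_eq]; trivial
    have hsm : ∀ (c : K) (x : E), Φ.B x (t x) = 0 → Φ.B (c • x) (t (c • x)) = 0 := by
      intro c x hx
      rw [map_smul, Φ.smul_left, Φ.smul_right, hx, mul_zero, mul_zero]
    induction hmem using Submodule.span_induction with
    | mem x hx =>
      obtain ⟨l, rfl⟩ := hx
      rw [ht]
      split_ifs
      · exact h _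
      · rfl
    | zero => rw [Φ.zero_left]
    | add x y _ _ hx hy => rw [hadd, hx, hy, add_zero]
    | smul c x _ hx => exact hsm c x hx
  have htz : ∀ l m, Φ.B (b l) (b m) = 0 → Φ.B (b l) (t (b m)) = 0 := by
    intro l m h
    rw [ht, h]
    split_ifs <;> rfl
  have htF : t ∈ Pa F := (Φ.mem_Jk_iff (k := 0) hbF hN hF).mpr fun l m hlm =>
    htz l m ((Φ.mem_Jk_iff (k := 0) hbF hN hF).mp (one_mem_Pa F) l m hlm)
  have htH : t ∈ Pa H := (Φ.mem_Jk_iff (k := 0) hbH hM hH).mpr fun l m hlm =>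
    htz l m ((Φ.mem_Jk_iff (k := 0) hbH hM hH).mp (one_mem_Pa H) l m hlm)
  have htS : t - 1 ∈ Jk (starN F H M m0) 1 := by
    refine (Φ.mem_Jk_iff hbS hW hS).mpr fun l m hlm => ?_
    rw [LinearMap.sub_apply, End.one_apply, Φ.sub_right, ht]
    by_cases h : α l + α m + 1 = N ∧ β l + β m + 1 = M
    · rw [if_pos h, sub_self]
    · rw [if_neg h, zero_sub, neg_eq_zero]
      by_contra hne
      obtain ⟨h1, h2⟩ := hG0 l m hne
      apply h
      have h3 : (α l + α m) * M + (β l + β m) < N * M := by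
        have h4 : α l * M + β l + (α m * M + β m + 1 - 1) < N * M := hlm
        rw [Nat.add_sub_cancel] at h4
        rw [add_mul]
        omega
      have h5 : α l + α m + 1 ≤ N := by
        by_contra hc
        have h6 : N * M ≤ (α l + α m) * M := Nat.mul_le_mul_right M (by omega)
        omega
      have h6 : α l + α m + 1 = N := le_antisymm h5 h1
      refine ⟨h6, ?_⟩
      have h7 : N * M = (α l + α m) * M + M := by rw [← h6]; ring
      omega
  obtain ⟨r, -, hrF, hrH, hr⟩ := Φ.exists_conj hT hbS hW hS hbF hN hF hbH hM hH (N * M) 1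
    one_pos (by omega) t hadj halt htS htF htH
  refine ⟨b.map r.1, ?_, ?_, ?_⟩
  · intro i
    have h1 : mapF r.1 F i = F i := by rw [mapF_eq_of_mem hrF]
    rw [← h1, mapF_apply, hbF i, Submodule.map_span, ← Set.image_comp]
    congr 1
  · intro i
    have h1 : mapF r.1 H i = H i := by rw [mapF_eq_of_mem hrH]
    rw [← h1, mapF_apply, hbH i, Submodule.map_span, ← Set.image_comp]
    congr 1
  · intro l m hlm
    rw [Basis.map_apply, Basis.map_apply]
    change Φ.B (toEnd r (b l)) (toEnd r (b m)) = 0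
    rw [Φ.adj_right, ← End.mul_apply, hr, ht, if_neg hlm]

end HForm

end Vale.Agent.P180.R2.H854
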