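import Vale.Agent.P180.R2.H854.FormOrth
import Vale.Agent.P180.R2.H854.TForm

/-!
P180: the normaliser condition for alternating and hermitian forms in any characteristic.
-/

namespace Vale.Agent.P180.R2.H854

open Module

namespace HForm

variable {K E : Type*} [Field K] [AddCommGroup E] [Module K E] (Φ : HForm K E)

lemma alt_theta (h : ∀ x, Φ.B x x = 0) (x y : E) : Φ.θ (Φ.B x y) = Φ.B x y := by
  by_cases hz : Φ.B x y = 0
  · rw [hz, map_zero]
  · have h1 : Φ.B ((Φ.B x y)⁻¹ • x) y = 1 := by rw [Φ.smul_left, inv_mul_cancel₀ hz]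
    have h2 := Φ.symm ((Φ.B x y)⁻¹ • x) y
    rw [Φ.alt_symm h, h1, map_one, mul_one] at h2
    have h3 := Φ.symm x y
    rw [Φ.alt_symm h, ← h2, neg_one_mul] at h3
    exact (neg_injective h3).symm

variable [FiniteDimensional K E] [Finite K]

/-- Siegel transformations in any characteristic. -/
theorem exists_siegelT {c : K} (hc : c + Φ.θ c = 1 ∨ ∀ x, Φ.B x x = 0) {F : Flag K E} {N : ℕ}
    (hF : ∀ i ≤ N, Φ.perp (F i) = F (N - i)) {i : ℕ}
    (hi : i ≤ N) (hiso : F i ≤ Φ.perp (F i)) {u w : E} (hw : w ∈ F i)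
    (hu : u ∈ Φ.perp (F i)) :
    ∃ v ∈ VF F ⊓ Φ.Iso, ∀ y, v y - y = Φ.B y u • w - (Φ.θ Φ.ε * Φ.B y w) • u -
      (c * (Φ.θ Φ.ε * Φ.B y w * Φ.B u u)) • w := by
  have hww : Φ.B w w = 0 := hiso hw w hw
  have hwu : Φ.B w u = 0 := (Φ.mem_perp'.mp hu) w hw
  set n := Φ.sg u w with hn
  have hnJ : n ∈ Jr F := Φ.sg_mem hF hi hw hu
  have hm : n + c • (n * n) ∈ Jr F :=
    (Jr F).add_mem hnJ ((Jr F).smul_mem _ (Jr_mul hnJ (Jr_le_Pa F hnJ)))
  have hcube : n * (n * n) = 0 := Φ.sg_cube hww hwu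
  have hc' : (c + Φ.θ c - 1) • (n * n) = 0 := by
    rcases hc with hc | hc
    · rw [hc, sub_self, zero_smul]
    · have h1 : n * n = 0 := by
        ext x
        rw [End.mul_apply, hn, Φ.sg_sg hww hwu, hc u, mul_zero, neg_zero, zero_smul]
        rfl
      rw [h1, smul_zero]
  refine ⟨oneAdd _ hm, ⟨oneAdd_mem _ hm, ?_⟩, ?_⟩
  · change oneAdd _ hm ∈ Φ.Iso
    rw [Φ.mem_Iso_iff, toEnd_oneAdd, Φ.adj_add, Φ.adj_one, Φ.adj_add, Φ.adj_smul,
      Φ.adj_mul, Φ.adj_sg, ← hn]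
    have e : (1 + (-n + Φ.θ c • (-n * -n))) * (1 + (n + c • (n * n))) =
        1 + (c + Φ.θ c - 1) • (n * n) + (Φ.θ c - c) • (n * (n * n)) +
          (Φ.θ c * c) • (n * (n * (n * n))) := by
      simp only [mul_add, add_mul, one_mul, mul_one, neg_mul, mul_neg, neg_neg,
        smul_mul_assoc, mul_smul_comm, mul_assoc]
      module
    rw [e, hcube, mul_zero, hc', smul_zero, smul_zero, add_zero, add_zero, add_zero]
  · intro y
    change (1 + (n + c • (n * n))) y - y = _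
    rw [LinearMap.add_apply, End.one_apply, add_sub_cancel_left, LinearMap.add_apply,
      LinearMap.smul_apply, End.mul_apply, hn, Φ.sg_sg hww hwu,
      Φ.sg_apply, neg_smul, smul_neg, smul_smul, ← sub_eq_add_neg]

/-- Transvections. -/
theorem exists_transvection (h : ∀ x, Φ.B x x = 0) {F : Flag K E} {N : ℕ}
    (hF : ∀ i ≤ N, Φ.perp (F i) = F (N - i)) {i : ℕ} (hi : i ≤ N)
    (hiso : F i ≤ Φ.perp (F i)) {w : E} (hw : w ∈ F i) :
    ∃ v ∈ VF F ⊓ Φ.Iso, ∀ y, v y - y = Φ.B y w • w := by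
  set n : End K E := (Φ.fn w).smulRight w with hn
  have hnx : ∀ x, n x = Φ.B x w • w := fun x => rfl
  have hnJ : n ∈ Jr F := by
    intro k x hx
    rw [hnx]
    rcases Nat.lt_or_ge k (N - i) with h1 | h1
    · have h2 : x ∈ Φ.perp (F i) := by
        rw [hF i hi]
        exact F.mono h1 hx
      rw [h2 w hw, zero_smul]
      exact (F k).zero_mem
    · apply (F k).smul_mem
      have h2 := hiso hw
      rw [hF i hi] at h2
      exact F.mono h1 h2
  have hnn : n * n = 0 := by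
    ext x
    rw [End.mul_apply, hnx, hnx, Φ.smul_left, h, mul_zero, zero_smul]
    rfl
  have hadj : Φ.adj n = -n := by
    symm
    apply Φ.eq_adj
    intro x y
    rw [LinearMap.neg_apply, Φ.neg_right, hnx, hnx, Φ.smul_left, Φ.smul_right,
      Φ.alt_theta h, Φ.alt_symm h y w]
    ring
  refine ⟨oneAdd _ hnJ, ⟨oneAdd_mem _ hnJ, ?_⟩, ?_⟩
  · change oneAdd _ hnJ ∈ Φ.Iso
    rw [Φ.mem_Iso_iff, toEnd_oneAdd, Φ.adj_add, Φ.adj_one, hadj]
    have e : (1 + -n) * (1 + n) = 1 - n * n := by noncomm_ring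
    rw [e, hnn, sub_zero]
  · intro y
    change (1 + n) y - y = _
    rw [LinearMap.add_apply, End.one_apply, add_sub_cancel_left, hnx]

/-- The isotropic members of a selfdual flag are determined by the isometries. -/
theorem mem_of_isotropicT (h : (∃ a, Φ.θ a ≠ a) ∨ ∀ x, Φ.B x x = 0)
    {F F2 : Flag K E} {N : ℕ}
    (hF : ∀ i ≤ N, Φ.perp (F i) = F (N - i)) (hle : VF F ⊓ Φ.Iso ≤ VF F2) {i : ℕ}
    (hi : i ≤ N) (hiso : F i ≤ Φ.perp (F i)) : F i ∈ F2.mem := by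
  classical
  by_contra hmem
  have hT : ∃ c, c + Φ.θ c = 1 ∨ ∀ x, Φ.B x x = 0 := by
    rcases h with h | h
    · rcases Φ.tr_of_theta h with ⟨c, hc⟩ | h
      · exact ⟨c, Or.inl hc⟩
      · exact ⟨0, Or.inr h⟩
    · exact ⟨0, Or.inr h⟩
  obtain ⟨c, hc⟩ := hT
  have h0 : F i ≠ ⊥ := by
    intro h
    exact hmem ⟨0, by rw [F2.zero, h]⟩
  obtain ⟨N2, hN2⟩ := F2.top
  have hex : ∃ k, F i ≤ F2 k := ⟨N2, by rw [hN2]; exact le_top⟩
  have hk := Nat.find_spec hex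
  have hpos : 0 < Nat.find hex := by
    rw [Nat.pos_iff_ne_zero]
    intro h
    rw [h, F2.zero, le_bot_iff] at hk
    exact h0 hk
  obtain ⟨j, hj⟩ := Nat.exists_eq_succ_of_ne_zero hpos.ne'
  have hmin : ¬ F i ≤ F2 j := Nat.find_min hex (by omega)
  rw [hj] at hk
  have h1 : ¬ F2 (j + 1) ≤ F i := fun h => hmem ⟨j + 1, le_antisymm h hk⟩
  obtain ⟨y, hy, hyi⟩ := SetLike.not_le_iff_exists.mp h1
  obtain ⟨w, hw, hwj⟩ := SetLike.not_le_iff_exists.mp hmin
  have key : ∀ w ∈ F i, ∀ u ∈ Φ.perp (F i), Φ.B y u • w - (Φ.θ Φ.ε * Φ.B y w) • u -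
        (c * (Φ.θ Φ.ε * Φ.B y w * Φ.B u u)) • w ∈ F2 j := by
    intro w hw u hu
    obtain ⟨v, hv, hve⟩ := Φ.exists_siegelT hc hF hi hiso hw hu
    have h1 := hle hv j y hy
    rwa [hve] at h1
  have hyw : Φ.B y w ≠ 0 := by
    intro hyw
    apply hwj
    have h1 : y ∉ Φ.perp (Φ.perp (F i)) := by rwa [Φ.perp_perp]
    have h2 : ∃ u ∈ Φ.perp (F i), Φ.B y u ≠ 0 := by
      by_contra hc
      push Not at hc
      exact h1 hc
    obtain ⟨u, hu, hyu⟩ := h2
    have h3 := key w hw u hu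
    rw [hyw, mul_zero, zero_smul, sub_zero, zero_mul, mul_zero, zero_smul, sub_zero] at h3
    have h4 := (F2 j).smul_mem (Φ.B y u)⁻¹ h3
    rwa [smul_smul, inv_mul_cancel₀ hyu, one_smul] at h4
  rcases h with ⟨a, ha⟩ | h
  · have hne : ∃ a, Φ.θ a ≠ Φ.θ Φ.ε * a := by
      by_contra hcon
      push Not at hcon
      have h1 := hcon 1
      rw [map_one, mul_one] at h1
      exact ha (by rw [hcon a, ← h1, one_mul])
    obtain ⟨a, ha⟩ := hne
    have h2 := key w hw (a • w) (hiso ((F i).smul_mem a hw))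
    have hww : Φ.B w w = 0 := hiso hw w hw
    rw [Φ.smul_right, Φ.smul_left, Φ.smul_right, hww, mul_zero, mul_zero, mul_zero, mul_zero,
      zero_smul, sub_zero, smul_smul, ← sub_smul] at h2
    have h3 : Φ.θ a * Φ.B y w - Φ.θ Φ.ε * Φ.B y w * a ≠ 0 := by
      have : Φ.θ a * Φ.B y w - Φ.θ Φ.ε * Φ.B y w * a = (Φ.θ a - Φ.θ Φ.ε * a) * Φ.B y w := by ring
      rw [this]
      exact mul_ne_zero (sub_ne_zero.mpr ha) hyw
    have h4 := (F2 j).smul_mem (Φ.θ a * Φ.B y w - Φ.θ Φ.ε * Φ.B y w * a)⁻¹ h2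
    rw [smul_smul, inv_mul_cancel₀ h3, one_smul] at h4
    exact hwj h4
  · obtain ⟨v, hv, hve⟩ := Φ.exists_transvection h hF hi hiso hw
    have h1 := hle hv j y hy
    rw [hve] at h1
    have h4 := (F2 j).smul_mem (Φ.B y w)⁻¹ h1
    rw [smul_smul, inv_mul_cancel₀ hyw, one_smul] at h4
    exact hwj h4

/-- The normaliser condition for all forms in odd characteristic and for alternating and hermitian
forms in any characteristic. -/
theorem normCondT (h : Odd (Nat.card K) ∨ (∃ a, Φ.θ a ≠ a) ∨ ∀ x, Φ.B x x = 0) :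
    Φ.NormCond := by
  rcases h with h | h
  · exact Φ.normCond h
  · rintro F hF x ⟨hx, hxI⟩
    apply mem_PF_of_mem_subset
    have hle := Φ.le_mapF_of_normalizer hx
    apply Φ.mem_of_forall_isotropic hF (Φ.SD_mapF hF hxI)
    intro N hN i hi hiso
    exact Φ.mem_of_isotropicT h hN hle hi hiso

theorem trT (h : Odd (Nat.card K) ∨ (∃ a, Φ.θ a ≠ a) ∨ ∀ x, Φ.B x x = 0) : Φ.Tr := by
  rcases h with h | h | h
  · exact Φ.tr_of_odd h
  · exact Φ.tr_of_theta h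
  · exact Or.inr h

end HForm

end Vale.Agent.P180.R2.H854
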