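import Vale.Agent.P180.R2.H854.TBlk
import Vale.Agent.P180.R2.H799.BNL1

/-!
P180: the parabolic system of a subgroup of a special linear group attached to a family of flags.
-/

namespace Vale.Agent.P180.R2.H854

open Module Vale.Agent.P180.R2.H799 Vale.Agent.P180.R2.H799.BN

variable {K E : Type*} [Field K] [AddCommGroup E] [Module K E] [FiniteDimensional K E]

/-- A family of flags compatible with a subgroup of the special linear group. -/
structure FlagGeo (X : Subgroup (SpecialLinearGroup K E)) (C : Flag K E → Prop) : Prop where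
  conj : ∀ F, C F → ∀ g ∈ X, C (mapF g.1 F)
  star : ∀ F, C F → ∀ H, C H → ∃ (M : ℕ) (m0 : 0 < M), H M = ⊤ ∧ C (starN F H M m0)
  basis : ∀ F, C F → ∀ H, C H → ∃ (ι : Type) (_ : Finite ι) (b : Basis ι K E) (α β : ι → ℕ),
    Adapted b α F ∧ Adapted b β H ∧ ∀ l g : SpecialLinearGroup K E, g ∈ X → g ∈ PF F →
      toEnd l = dg b α (toEnd g) → l ∈ X
  norm : ∀ F, C F → Subgroup.normalizer
    ((VF F ⊓ X : Subgroup (SpecialLinearGroup K E)) : Set (SpecialLinearGroup K E)) ⊓ X ≤ PF F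

lemma dg_PF_VF {ι : Type*} {b : Basis ι K E} {α β : ι → ℕ} {F H : Flag K E}
    (hbF : Adapted b α F) (hbH : Adapted b β H) {l h : SpecialLinearGroup K E}
    (hh : h ∈ PF F ⊓ VF H) (e : toEnd l = dg b α (toEnd h)) : l ∈ PF F ⊓ VF H := by
  constructor
  · change l ∈ PF F
    rw [mem_PF_iff, e]
    exact dg_mem_Pa hbF (mem_PF_iff.mp hh.1)
  · change l ∈ VF H
    rw [mem_VF_iff, e]
    have := dg_mem_Jr (α := α) hbH (mem_VF_iff.mp hh.2)
    rwa [dg_sub, dg_one] at this

lemma dg_PF_PF {ι : Type*} {b : Basis ι K E} {α β : ι → ℕ} {F H : Flag K E}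
    (hbF : Adapted b α F) (hbH : Adapted b β H) {l h : SpecialLinearGroup K E}
    (hh : h ∈ PF F ⊓ PF H) (e : toEnd l = dg b α (toEnd h)) : l ∈ PF F ⊓ PF H := by
  constructor
  · change l ∈ PF F
    rw [mem_PF_iff, e]
    exact dg_mem_Pa hbF (mem_PF_iff.mp hh.1)
  · change l ∈ PF H
    rw [mem_PF_iff, e]
    exact dg_mem_Pa hbH (mem_PF_iff.mp hh.2)

namespace FlagGeo

variable {X : Subgroup (SpecialLinearGroup K E)} {C : Flag K E → Prop}

/-- The parabolic system. -/
noncomputable def sys [Finite K] (h : FlagGeo X C) (p : ℕ) (hp : p.Prime)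
    (hKp : ¬ p ∣ Nat.card K) : ParSys p X :=
  parSub (slSys K E p hp hKp) X {V | ∃ F : Flag K E, C F ∧ VF F = V}
    (by
      rintro _ ⟨F, -, rfl⟩
      exact ⟨F, rfl⟩)
    (by
      rintro _ ⟨F, hF, rfl⟩ g hg
      exact ⟨_, h.conj F hF g hg, (map_conj_VF g F).symm⟩)
    (by
      rintro _ ⟨F, hF, rfl⟩ _ ⟨H, hH, rfl⟩
      obtain ⟨M, m0, hM, hS⟩ := h.star F hF H hH
      refine ⟨starN F H M m0, hS, ?_⟩
      rw [normalizer_VF, star_VF_aux F H hM m0])
    (by
      rintro _ ⟨F, hF, rfl⟩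
      rw [normalizer_VF]
      exact h.norm F hF)
    (by
      rintro _ ⟨F, hF, rfl⟩ _ ⟨H, hH, rfl⟩
      rw [normalizer_VF]
      obtain ⟨ι, _, b, α, β, hbF, hbH, hX⟩ := h.basis F hF H hH
      exact dec_of_dg hbF hX inf_le_left fun l g hg e => dg_PF_VF hbF hbH hg e)
    (by
      rintro _ ⟨F, hF, rfl⟩ _ ⟨H, hH, rfl⟩
      rw [normalizer_VF, normalizer_VF]
      obtain ⟨ι, _, b, α, β, hbF, hbH, hX⟩ := h.basis F hF H hH
      exact dec_of_dg hbF hX inf_le_left fun l g hg e => dg_PF_PF hbF hbH hg e)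

lemma mem_sys_car [Finite K] (h : FlagGeo X C) (p : ℕ) (hp : p.Prime)
    (hKp : ¬ p ∣ Nat.card K) {F : Flag K E} (hF : C F) :
    (VF F).subgroupOf X ∈ (h.sys p hp hKp).car := ⟨VF F, ⟨F, hF, rfl⟩, rfl⟩

lemma exists_of_mem_sys_car [Finite K] (h : FlagGeo X C) (p : ℕ) (hp : p.Prime)
    (hKp : ¬ p ∣ Nat.card K) {V : Subgroup X} (hV : V ∈ (h.sys p hp hKp).car) :
    ∃ F, C F ∧ (VF F).subgroupOf X = V := by
  obtain ⟨_, ⟨F, hF, rfl⟩, rfl⟩ := hV
  exact ⟨F, hF, rfl⟩

/-- Levi pairs with block diagonal centralisers. -/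
theorem levi (h : FlagGeo X C) {F : Flag K E} (hF : C F) {ι : Type*} [Fintype ι]
    {b : Basis ι K E} {α : ι → ℕ} (hb : Adapted b α F)
    (hX : ∀ l g : SpecialLinearGroup K E, g ∈ X → g ∈ PF F → toEnd l = dg b α (toEnd g) → l ∈ X)
    {Z : Subgroup (SpecialLinearGroup K E)} (hZ : Z ≤ X)
    (hc : ∀ g, g ∈ Subgroup.centralizer (Z : Set (SpecialLinearGroup K E)) ↔ BD b α g) :
    IsLeviPair ((VF F).subgroupOf X) (Z.subgroupOf X) := by
  classical
  have hcent : Subgroup.centralizer ((Z.subgroupOf X : Subgroup X) : Set X) =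
      (Subgroup.centralizer (Z : Set (SpecialLinearGroup K E))).subgroupOf X := by
    ext x
    rw [Subgroup.mem_subgroupOf, Subgroup.mem_centralizer_iff, Subgroup.mem_centralizer_iff]
    constructor
    · intro h z hz
      exact congrArg Subtype.val (h ⟨z, hZ hz⟩ hz)
    · intro h z hz
      exact Subtype.ext (h z.1 hz)
  obtain ⟨h1, h2⟩ := levi_pair hb hc
  rw [normalizer_VF] at h2
  have hCP : Subgroup.centralizer (Z : Set (SpecialLinearGroup K E)) ≤ PF F :=
    h2 ▸ le_sup_right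
  constructor
  · rw [hcent]
    apply Subgroup.map_injective X.subtype_injective
    rw [Subgroup.map_inf _ _ _ X.subtype_injective, map_subgroupOf_eq, map_subgroupOf_eq,
      Subgroup.map_bot, eq_bot_iff, ← h1]
    exact inf_le_inf inf_le_left inf_le_left
  · rw [hcent, normalizer_subgroupOf_eq (by rw [normalizer_VF]; exact h.norm F hF),
      normalizer_VF]
    apply Subgroup.map_injective X.subtype_injective
    rw [Subgroup.map_sup, map_subgroupOf_eq, map_subgroupOf_eq, map_subgroupOf_eq, ← h2]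
    apply le_antisymm
    · exact sup_le (inf_le_inf_right _ le_sup_left) (inf_le_inf_right _ le_sup_right)
    · apply dec_of_dg hb hX hCP
      intro l g hg e
      rw [hc] at hg ⊢
      intro i j hij
      have h3 : b.repr (l (b i)) j = b.repr (dg b α (toEnd g) (b i)) j := by
        rw [← e]
        rfl
      rw [h3, repr_dg] at hij
      split_ifs at hij with h4
      · exact h4
      · exact absurd rfl hij

end FlagGeo

end Vale.Agent.P180.R2.H854
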