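import Vale.Agent.P180.R2.H854.TNorm
import Vale.Agent.P180.R2.H854.TSys

/-!
P180: Levi pairs of diagonalisable `p`-groups of isometries, with the adapted basis.
-/

namespace Vale.Agent.P180.R2.H854

open Module Vale.Agent.P180.R2.H799 Vale.Agent.P180.R2.H799.BN

universe v

namespace HForm

variable {K : Type*} {E : Type v} [Field K] [AddCommGroup E] [Module K E] (Φ : HForm K E)
  [FiniteDimensional K E] [Finite K]

/-- **Levi pairs** of diagonalisable `p`-groups of isometries, with the adapted basis. -/
theorem exists_sd_pairT {p : ℕ} (hp : p.Prime) (hp2 : Odd p) {ζ : K} (hζ : ζ ^ p = 1)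
    (hζ1 : ζ ≠ 1) (hζθ : Φ.θ ζ = ζ) {Q : Subgroup (SpecialLinearGroup K E)}
    (hQI : Q ≤ Φ.Iso) (hQp : IsPGroup p Q) (h : Submodule.span K (EV Q) = ⊤) :
    ∃ (F : Flag K E) (N : ℕ) (ι : Type v) (_ : Fintype ι) (b : Basis ι K E) (α : ι → ℕ),
      0 < N ∧ F N = ⊤ ∧ (∀ i ≤ N, Φ.perp (F i) = F (N - i)) ∧ Adapted b α F ∧
      (∀ l m, α l + α m + 1 ≠ N → Φ.B (b l) (b m) = 0) ∧
      ∀ g, g ∈ Subgroup.centralizer (Q : Set (SpecialLinearGroup K E)) ↔ BD b α g := by
  classical
  let b := Basis.ofSpan h.ge
  have hb : ∀ l, b l ∈ EV Q := fun l => Basis.ofSpan_subset h.ge ⟨l, rfl⟩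
  have _ : Finite _ := Module.Finite.finite_basis b
  have _ := Fintype.ofFinite ((linearIndepOn_empty K id).extend (Set.empty_subset (EV Q)))
  choose w hw using fun l (g : Q) => hb l g g.2
  -- the weights are homomorphisms with values of `p`-power order
  have hwp : ∀ l g, ∃ m, w l g ^ p ^ m = 1 := by
    intro l g
    obtain ⟨m, hm⟩ := hQp g
    refine ⟨m, ?_⟩
    have h1 := pow_apply_eigen (hw l g) (p ^ m)
    have h2 : (g : SpecialLinearGroup K E) ^ p ^ m = 1 := congrArg Subtype.val hm
    rw [h2, one_apply'] at h1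
    have h3 : (w l g ^ p ^ m - 1) • b l = 0 := by rw [sub_smul, one_smul, ← h1, sub_self]
    exact sub_eq_zero.mp ((smul_eq_zero.mp h3).resolve_right (b.ne_zero l))
  have hwθ : ∀ l g, Φ.θ (w l g) = w l g := by
    intro l g
    obtain ⟨m, hm⟩ := hwp l g
    exact Φ.theta_eq hp hp2 hζ hζ1 hζθ hm
  have hw0 : ∀ l g, w l g ≠ 0 := by
    intro l g h0
    obtain ⟨m, hm⟩ := hwp l g
    rw [h0, zero_pow (pow_ne_zero _ hp.ne_zero)] at hm
    exact zero_ne_one hm
  have hdual : ∀ l m, Φ.B (b l) (b m) ≠ 0 → w m = fun g => (w l g)⁻¹ := by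
    intro l m hlm
    funext g
    have h1 := hQI g.2 (b l) (b m)
    rw [hw, hw, Φ.smul_left, Φ.smul_right, hwθ, ← mul_assoc] at h1
    have h2 : w l g * w m g = 1 := mul_right_cancel₀ hlm (by rw [h1, one_mul])
    exact eq_inv_of_mul_eq_one_right h2
  have hself : ∀ l, (w l = fun g => (w l g)⁻¹) → w l = fun _ => 1 := by
    intro l hl
    funext g
    have h1 : w l g = (w l g)⁻¹ := congrFun hl g
    have h2 : w l g ^ 2 = 1 := by
      rw [sq]
      nth_rewrite 1 [h1]
      exact inv_mul_cancel₀ (hw0 l g)
    obtain ⟨m, hm⟩ := hwp l g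
    rwa [pow_odd_eq h2 (hp2.pow (n := m))] at hm
  -- the level function
  set W : Set (Q → K) := Set.range w ∪ Set.range (fun l g => (w l g)⁻¹) with hW
  have hWfin : Finite W := (Set.finite_range w).union (Set.finite_range _)
  obtain ⟨M, ⟨e⟩⟩ := Finite.exists_equiv_fin W
  let inv : (Q → K) → (Q → K) := fun χ g => (χ g)⁻¹
  have hinv : ∀ χ, inv (inv χ) = χ := by
    intro χ
    funext g
    exact inv_inv _
  have hWw : ∀ l, w l ∈ W := fun l => Or.inl ⟨l, rfl⟩
  have hWi : ∀ l, inv (w l) ∈ W := fun l => Or.inr ⟨l, rfl⟩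
  let e' : (Q → K) → ℕ := fun χ => if h : χ ∈ W then (e ⟨χ, h⟩ : ℕ) else 0
  have he'lt : ∀ χ ∈ W, e' χ < M := by
    intro χ hχ
    simp only [e']
    rw [dif_pos hχ]
    exact (e ⟨χ, hχ⟩).2
  have he'inj : ∀ χ ∈ W, ∀ ψ ∈ W, e' χ = e' ψ → χ = ψ := by
    intro χ hχ ψ hψ h
    simp only [e'] at h
    rw [dif_pos hχ, dif_pos hψ] at h
    exact congrArg Subtype.val (e.injective (Fin.ext h))
  let a : (Q → K) → ℕ := fun χ => if χ = inv χ then M else if e' χ < e' (inv χ) then e' χ
    else 2 * M - e' (inv χ)
  let α := fun l => a (w l)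
  have ha1 : ∀ l, α l < 2 * M + 1 := by
    intro l
    simp only [α, a]
    have h1 := he'lt _ (hWw l)
    split_ifs <;> omega
  have ha2 : ∀ l m, w m = inv (w l) → α l + α m + 1 = 2 * M + 1 := by
    intro l m hm
    simp only [α, a, hm, hinv]
    by_cases h1 : w l = inv (w l)
    · rw [if_pos h1, if_pos h1.symm]
      omega
    · have h1' : ¬ inv (w l) = w l := fun h => h1 h.symm
      rw [if_neg h1, if_neg h1']
      have h2 := he'lt _ (hWw l)
      have h3 := he'lt _ (hWi l)
      have h4 : e' (w l) ≠ e' (inv (w l)) := fun h => h1 (he'inj _ (hWw l) _ (hWi l) h)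
      split_ifs <;> omega
  have ha3 : ∀ l m, α l = α m → w l = w m := by
    intro l m h
    simp only [α, a] at h
    have l2 := he'lt _ (hWw l)
    have l3 := he'lt _ (hWi l)
    have m2 := he'lt _ (hWw m)
    have m3 := he'lt _ (hWi m)
    by_cases h1 : w l = inv (w l)
    · by_cases h2 : w m = inv (w m)
      · rw [hself l h1, hself m h2]
      · rw [if_pos h1, if_neg h2] at h
        exfalso
        split_ifs at h <;> omega
    · by_cases h2 : w m = inv (w m)
      · rw [if_neg h1, if_pos h2] at h
        exfalso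
        split_ifs at h <;> omega
      · rw [if_neg h1, if_neg h2] at h
        split_ifs at h with h3 h4 h4
        · exact he'inj _ (hWw l) _ (hWw m) h
        · exfalso; omega
        · exfalso; omega
        · have h5 := he'inj _ (hWi l) _ (hWi m) (by omega)
          rw [← hinv (w l), h5, hinv]
  let F : Flag K E :=
    { car := fun i => Submodule.span K (b '' {l | α l < i})
      mono := fun i j hij => Submodule.span_mono (Set.image_mono fun l hl => lt_of_lt_of_le hl hij)
      zero := by simp
      top := ⟨2 * M + 1, by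
        have h1 : {l | α l < 2 * M + 1} = Set.univ := by
          ext l
          simp only [Set.mem_ofPred_eq, Set.mem_univ, iff_true]
          exact ha1 l
        rw [h1, Set.image_univ, b.span_eq]⟩ }
  have hbF : Adapted b α F := fun i => rfl
  have hN : F (2 * M + 1) = ⊤ := by
    rw [eq_top_iff]
    intro x _
    rw [hbF.mem_iff]
    intro l _
    exact ha1 l
  -- orthogonality of spans
  have horth : ∀ S T : Set _, (∀ l ∈ S, ∀ m ∈ T, Φ.B (b l) (b m) = 0) →
      Submodule.span K (b '' S) ≤ Φ.perp (Submodule.span K (b '' T)) := by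
    intro S T hST
    rw [Submodule.span_le]
    rintro _ ⟨l, hl, rfl⟩ y hy
    have hle : Submodule.span K (b '' T) ≤ Φ.perp (Submodule.span K {b l}) := by
      rw [Submodule.span_le]
      rintro _ ⟨m, hm, rfl⟩
      rw [SetLike.mem_coe, Φ.mem_perp']
      intro z hz
      obtain ⟨c, rfl⟩ := Submodule.mem_span_singleton.mp hz
      rw [Φ.smul_left, hST l hl m hm, mul_zero]
    exact (Φ.mem_perp'.mp (hle hy)) (b l) (Submodule.mem_span_singleton_self _)
  have hcard : ∀ (P : _ → Prop) [DecidablePred P], finrank K (Submodule.span K (b '' {l | P l})) =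
      (Finset.univ.filter fun l => P l).card := by
    intro P _
    have h1 : LinearIndependent K (fun l : {l // P l} => b l) :=
      b.linearIndependent.comp _ Subtype.val_injective
    have h2 : b '' {l | P l} = Set.range (fun l : {l // P l} => b l) := by
      ext x
      constructor
      · rintro ⟨l, hl, rfl⟩
        exact ⟨⟨l, hl⟩, rfl⟩
      · rintro ⟨⟨l, hl⟩, rfl⟩
        exact ⟨l, hl, rfl⟩
    rw [h2, finrank_span_eq_card h1, Fintype.card_subtype]
  have hsd : ∀ i ≤ 2 * M + 1, Φ.perp (F i) = F (2 * M + 1 - i) := by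
    intro i hi
    symm
    apply Submodule.eq_of_le_of_finrank_le
    · apply horth
      intro l hl m hm
      by_contra hne
      have h1 := ha2 l m (hdual l m hne)
      have hl' : α l < 2 * M + 1 - i := hl
      have hm' : α m < i := hm
      omega
    · have h1 := Φ.finrank_add_finrank_perp (F i)
      have h2 := Φ.finrank_add_finrank_perp (Submodule.span K (b '' {l | ¬ α l < i}))
      have h3 : Submodule.span K (b '' {l | ¬ α l < 2 * M + 1 - i}) ≤
          Φ.perp (Submodule.span K (b '' {l | ¬ α l < i})) := by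
        apply horth
        intro l hl m hm
        by_contra hne
        have h1 := ha2 l m (hdual l m hne)
        have hl' : ¬ α l < 2 * M + 1 - i := hl
        have hm' : ¬ α m < i := hm
        omega
      have h4 := Submodule.finrank_mono h3
      have h5 : finrank K (F i) = (Finset.univ.filter fun l => α l < i).card :=
        finrank_eq_card hbF i
      have h6 : finrank K (F (2 * M + 1 - i)) =
        (Finset.univ.filter fun l => α l < 2 * M + 1 - i).card :=
        finrank_eq_card hbF _
      rw [hcard (fun l => ¬ α l < i)] at h2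
      rw [hcard (fun l => ¬ α l < 2 * M + 1 - i)] at h4
      have h7 := Finset.card_filter_add_card_filter_not (s := Finset.univ) (fun l => α l < i)
      have h8 := Finset.card_filter_add_card_filter_not (s := Finset.univ)
        (fun l => α l < 2 * M + 1 - i)
      have h9 : finrank K E = Finset.univ.card := (finrank_eq_card_basis b)
      omega
  refine ⟨F, 2 * M + 1, _, inferInstance, b, α, by omega, hN, hsd, hbF, fun l m hlm => ?_,
    fun g => ?_⟩
  · by_contra hne
    exact hlm (ha2 l m (hdual l m hne))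
  rw [Subgroup.mem_centralizer_iff]
  constructor
  · intro hg l m hm
    have hwlm : w m = w l := by
      funext z
      exact coeff_of_comm (b := b) (c := fun l => w l z) (fun l => hw l z) (hg z z.2) l m hm
    simp only [α, hwlm]
  · intro hg z hz
    refine comm_of_BD (c := fun l => w l ⟨z, hz⟩) hg (fun l => hw l ⟨z, hz⟩) ?_
    intro l m hlm
    have := ha3 l m hlm
    simp only [this]

end HForm

end Vale.Agent.P180.R2.H854
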